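import Vale.Agent.P034.Defs

namespace Vale.Agent.P034
open Finset
variable {X : Type*} [Fintype X] [DecidableEq X]

theorem Cov_mono {q c c' : ℝ} {𝒜 ℬ : Set (Finset X)} (h : Cov q c 𝒜) (hc : c ≤ c')
    (hs : ℬ ⊆ 𝒜) : Cov q c' ℬ := by
  obtain ⟨𝒢, h1, h2⟩ := h
  exact ⟨𝒢, h1.trans hc, fun A hA => h2 A (hs hA)⟩

theorem Cov_union {q c1 c2 : ℝ} (hq : 0 ≤ q) {𝒜 ℬ : Set (Finset X)} (h1 : Cov q c1 𝒜)
    (h2 : Cov q c2 ℬ) : Cov q (c1 + c2) (𝒜 ∪ ℬ) := by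
  classical
  obtain ⟨𝒢, h1, h1'⟩ := h1
  obtain ⟨ℋ, h2, h2'⟩ := h2
  refine ⟨𝒢 ∪ ℋ, ?_, ?_⟩
  · have h3 : ∑ G ∈ 𝒢 ∪ ℋ, q ^ G.card + ∑ G ∈ 𝒢 ∩ ℋ, q ^ G.card
        = ∑ G ∈ 𝒢, q ^ G.card + ∑ G ∈ ℋ, q ^ G.card := Finset.sum_union_inter
    have h4 : 0 ≤ ∑ G ∈ 𝒢 ∩ ℋ, q ^ G.card := Finset.sum_nonneg (fun _ _ => pow_nonneg hq _)
    linarith
  · rintro A (hA | hA)
    · obtain ⟨G, hG, hGA⟩ := h1' A hA
      exact ⟨G, Finset.mem_union_left _ hG, hGA⟩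
    · obtain ⟨G, hG, hGA⟩ := h2' A hA
      exact ⟨G, Finset.mem_union_right _ hG, hGA⟩

theorem Cov_empty {q : ℝ} : Cov q 0 (∅ : Set (Finset X)) :=
  ⟨∅, by simp, by simp⟩

theorem Cov_biUnion {q : ℝ} (hq : 0 ≤ q) {ι : Type*} [DecidableEq ι] (s : Finset ι)
    (f : ι → Set (Finset X)) (c : ι → ℝ) (h : ∀ i ∈ s, Cov q (c i) (f i)) :
    Cov q (∑ i ∈ s, c i) (⋃ i ∈ s, f i) := by
  induction s using Finset.induction_on with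
  | empty => simpa using (Cov_empty (X := X) (q := q))
  | insert a s ha ih =>
    rw [Finset.sum_insert ha]
    have h1 := h a (Finset.mem_insert_self a s)
    have h2 := ih (fun i hi => h i (Finset.mem_insert_of_mem hi))
    have h3 := Cov_union hq h1 h2
    refine Cov_mono h3 le_rfl ?_
    intro A hA
    simp only [Set.mem_iUnion, Finset.mem_insert] at hA
    obtain ⟨i, hi, hAi⟩ := hA
    rcases hi with rfl | hi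
    · exact Or.inl hAi
    · right
      simp only [Set.mem_iUnion]
      exact ⟨i, hi, hAi⟩

theorem Cov_up {q c : ℝ} {𝒜 ℬ : Set (Finset X)} (h : Cov q c 𝒜)
    (hs : ∀ B ∈ ℬ, ∃ A ∈ 𝒜, A ⊆ B) : Cov q c ℬ := by
  obtain ⟨𝒢, h1, h2⟩ := h
  refine ⟨𝒢, h1, fun B hB => ?_⟩
  obtain ⟨A, hA, hAB⟩ := hs B hB
  obtain ⟨G, hG, hGA⟩ := h2 A hA
  exact ⟨G, hG, hGA.trans hAB⟩

end Vale.Agent.P034
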