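import Vale.Agent.P034.Defs

/-! Module R: random rounding. -/

namespace Vale.Agent.P034
open Finset

section Prob
variable {α : Type*} [Fintype α] [DecidableEq α]

/-- product weight of a subset -/
noncomputable def pw (r : α → ℝ) (W : Finset α) : ℝ := (∏ a ∈ W, r a) * ∏ a ∈ Wᶜ, (1 - r a)

theorem pw_gen (r f1 f0 : α → ℝ) :
    ∑ W, pw r W * ((∏ a ∈ W, f1 a) * ∏ a ∈ Wᶜ, f0 a) = ∏ a, (r a * f1 a + (1 - r a) * f0 a) := by
  rw [Fintype.prod_add]
  apply Finset.sum_congr rfl
  intro W _
  unfold pw
  rw [Finset.prod_mul_distrib, Finset.prod_mul_distrib]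
  ring

theorem pw_sum (r : α → ℝ) : ∑ W, pw r W = 1 := by
  have h := pw_gen r (fun _ => 1) (fun _ => 1)
  simpa using h

theorem pw_nonneg {r : α → ℝ} (h0 : ∀ a, 0 ≤ r a) (h1 : ∀ a, r a ≤ 1) (W : Finset α) :
    0 ≤ pw r W := by
  unfold pw
  apply mul_nonneg
  · exact Finset.prod_nonneg (fun a _ => h0 a)
  · exact Finset.prod_nonneg (fun a _ => by linarith [h1 a])

/-- expectation of `q ^ |U \ W|` -/
theorem pw_pow (s q : ℝ) (U : Finset α) :
    ∑ W, pw (fun _ : α => s) W * q ^ (U \ W).card = (s + (1 - s) * q) ^ U.card := by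
  have h := pw_gen (fun _ : α => s) (fun _ => 1) (fun a => if a ∈ U then q else 1)
  have h1 : ∀ W : Finset α, ((∏ a ∈ W, (1 : ℝ)) * ∏ a ∈ Wᶜ, if a ∈ U then q else 1)
      = q ^ (U \ W).card := by
    intro W
    rw [Finset.prod_const_one, one_mul, Finset.prod_ite, Finset.prod_const, Finset.prod_const_one,
      mul_one]
    congr 2
    ext a
    simp only [mem_filter, mem_compl, mem_sdiff]
    tauto
  simp only [h1] at h
  rw [h]
  have h2 : ∀ a : α, (s * 1 + (1 - s) * if a ∈ U then q else 1)
      = if a ∈ U then (s + (1 - s) * q) else 1 := by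
    intro a
    split_ifs <;> ring
  simp only [h2]
  rw [Finset.prod_ite, Finset.prod_const, Finset.prod_const_one, mul_one]
  congr 2
  ext a
  simp

/-- probability of `U ⊆ W` -/
theorem pw_subset (s : ℝ) (U : Finset α) :
    ∑ W, pw (fun _ : α => s) W * (if U ⊆ W then 1 else 0) = s ^ U.card := by
  have h := pw_gen (fun _ : α => s) (fun _ => 1) (fun a => if a ∈ U then 0 else 1)
  have h1 : ∀ W : Finset α, ((∏ a ∈ W, (1 : ℝ)) * ∏ a ∈ Wᶜ, if a ∈ U then (0 : ℝ) else 1)
      = if U ⊆ W then 1 else 0 := by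
    intro W
    rw [Finset.prod_const_one, one_mul]
    split_ifs with hU
    · apply Finset.prod_eq_one
      intro a ha
      rw [if_neg]
      intro haU
      exact (Finset.mem_compl.mp ha) (hU haU)
    · obtain ⟨a, haU, haW⟩ := Finset.not_subset.mp hU
      apply Finset.prod_eq_zero (Finset.mem_compl.mpr haW)
      rw [if_pos haU]
  simp only [h1] at h
  rw [h]
  have h2 : ∀ a : α, (s * 1 + (1 - s) * if a ∈ U then (0 : ℝ) else 1)
      = if a ∈ U then s else 1 := by
    intro a
    split_ifs <;> ring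
  simp only [h2]
  rw [Finset.prod_ite, Finset.prod_const, Finset.prod_const_one, mul_one]
  congr 2
  ext a
  simp

/-- probability that the random set avoids `S` -/
theorem pw_avoid (r : α → ℝ) (S : Finset α) :
    ∑ W, pw r W * (if Disjoint W S then 1 else 0) = ∏ a ∈ S, (1 - r a) := by
  have h := pw_gen r (fun a => if a ∈ S then 0 else 1) (fun _ => 1)
  have h1 : ∀ W : Finset α, ((∏ a ∈ W, if a ∈ S then (0 : ℝ) else 1) * ∏ a ∈ Wᶜ, (1 : ℝ))
      = if Disjoint W S then 1 else 0 := by
    intro W
    rw [Finset.prod_const_one, mul_one]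
    split_ifs with hW
    · apply Finset.prod_eq_one
      intro a ha
      rw [if_neg (Finset.disjoint_left.mp hW ha)]
    · rw [Finset.disjoint_left] at hW
      push Not at hW
      obtain ⟨a, haW, haS⟩ := hW
      apply Finset.prod_eq_zero haW
      rw [if_pos haS]
  simp only [h1] at h
  rw [h]
  have h2 : ∀ a : α, (r a * (if a ∈ S then (0 : ℝ) else 1) + (1 - r a) * 1)
      = if a ∈ S then 1 - r a else 1 := by
    intro a
    split_ifs <;> ring
  simp only [h2]
  rw [Finset.prod_ite, Finset.prod_const_one, mul_one]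
  congr 1
  ext a
  simp

theorem pw_mem (r : α → ℝ) (b : α) :
    ∑ W, pw r W * (if b ∈ W then 1 else 0) = r b := by
  have h1 := pw_avoid r {b}
  have h2 := pw_sum r
  rw [Finset.prod_singleton] at h1
  have h3 : ∑ W, pw r W * (if b ∈ W then 1 else 0)
      = ∑ W, pw r W - ∑ W, pw r W * (if Disjoint W {b} then 1 else 0) := by
    rw [← Finset.sum_sub_distrib]
    apply Finset.sum_congr rfl
    intro W _
    by_cases hb : b ∈ W
    · simp [hb]
    · simp [hb]
  rw [h3, h1, h2]
  ring

theorem exists_le_of_avg {β : Type*} (s : Finset β) (μ f : β → ℝ) (hμ : ∀ b ∈ s, 0 ≤ μ b)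
    (h1 : 0 < ∑ b ∈ s, μ b) (c : ℝ) (h : ∑ b ∈ s, μ b * f b ≤ c * ∑ b ∈ s, μ b) :
    ∃ b ∈ s, f b ≤ c := by
  by_contra hcon
  push Not at hcon
  have h2 : ∃ b ∈ s, 0 < μ b := by
    by_contra hc
    push Not at hc
    have : ∑ b ∈ s, μ b ≤ 0 := Finset.sum_nonpos hc
    linarith
  obtain ⟨b, hb, hb0⟩ := h2
  have h3 : ∑ b ∈ s, μ b * c < ∑ b ∈ s, μ b * f b := by
    apply Finset.sum_lt_sum
    · intro i hi
      exact mul_le_mul_of_nonneg_left (hcon i hi).le (hμ i hi)
    · exact ⟨b, hb, mul_lt_mul_of_pos_left (hcon b hb) hb0⟩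
  rw [← Finset.sum_mul] at h3
  linarith

end Prob

variable {X : Type*} [Fintype X] [DecidableEq X]

/-- total weight below `Z` -/
noncomputable def gs (g : Finset X → ℝ) (Z : Finset X) : ℝ := ∑ U ∈ Z.powerset, g U

/-- minimal extension sets -/
def vld (κ : ℝ) (g : Finset X → ℝ) (W T : Finset X) : Prop :=
  T.Nonempty ∧ Disjoint T W ∧ (T.card : ℝ) ≤ κ * (gs g (W ∪ T) - gs g W) ∧
    ∀ T', T' ⊂ T → T'.Nonempty → ¬ ((T'.card : ℝ) ≤ κ * (gs g (W ∪ T') - gs g W))

theorem gs_nonneg {g : Finset X → ℝ} (hg : ∀ U, 0 ≤ g U) (Z : Finset X) : 0 ≤ gs g Z :=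
  Finset.sum_nonneg (fun U _ => hg U)

theorem gs_mono {g : Finset X → ℝ} (hg : ∀ U, 0 ≤ g U) {Z Z' : Finset X} (h : Z ⊆ Z') :
    gs g Z ≤ gs g Z' :=
  Finset.sum_le_sum_of_subset_of_nonneg (Finset.powerset_mono.mpr h) (fun U _ _ => hg U)

/-- sum of the marginals -/
theorem gs_marg {g : Finset X → ℝ} (hg : ∀ U, 0 ≤ g U) {Tm : ℕ}
    (hsupp : ∀ U, g U ≠ 0 → U.card ≤ Tm) (Z : Finset X) :
    ∑ a ∈ Z, (gs g Z - gs g (Z.erase a)) ≤ Tm * gs g Z := by
  have h1 : ∀ a ∈ Z, gs g Z - gs g (Z.erase a) = ∑ U ∈ Z.powerset, if a ∈ U then g U else 0 := by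
    intro a _
    unfold gs
    have h2 : (Z.erase a).powerset = Z.powerset.filter (fun U => a ∉ U) := by
      ext U
      simp only [mem_powerset, mem_filter, Finset.subset_erase]
    rw [h2, Finset.sum_filter, ← Finset.sum_sub_distrib]
    apply Finset.sum_congr rfl
    intro U _
    by_cases h : a ∈ U <;> simp [h]
  rw [Finset.sum_congr rfl h1, Finset.sum_comm]
  unfold gs
  rw [Finset.mul_sum]
  apply Finset.sum_le_sum
  intro U hU
  have h3 : ∑ a ∈ Z, (if a ∈ U then g U else 0) = U.card * g U := by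
    rw [← Finset.sum_filter, Finset.sum_const, nsmul_eq_mul]
    congr 3
    ext a
    simp only [mem_filter]
    exact ⟨fun h => h.2, fun h => ⟨(Finset.mem_powerset.mp hU) h, h⟩⟩
  rw [h3]
  by_cases h : g U = 0
  · simp [h]
  · have := hsupp U h
    have h4 : (U.card : ℝ) ≤ Tm := by exact_mod_cast this
    exact mul_le_mul_of_nonneg_right h4 (hg U)

/-- the key counting estimate -/
theorem vld_sum {g : Finset X → ℝ} (hg : ∀ U, 0 ≤ g U) {Tm : ℕ} (hTm : 1 ≤ Tm)
    (hsupp : ∀ U, g U ≠ 0 → U.card ≤ Tm) {κ : ℝ} (hκ : 0 < κ) {x : ℝ} (hx : 0 ≤ x)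
    (Z : Finset X) [DecidablePred (fun T => vld κ g (Z \ T) T)] :
    ∑ T ∈ Z.powerset.filter (fun T => vld κ g (Z \ T) T), (1 / 2 : ℝ) ^ T.card
      * Real.exp (-(κ * (1 + Real.log Tm + x) * gs g Z)) ≤ Real.exp (-x) := by
  classical
  set y : ℝ := κ * gs g Z with hy
  set N : Finset X := Z.filter (fun a => 1 ≤ κ * (gs g Z - gs g (Z.erase a))) with hN
  have hTm' : (1 : ℝ) ≤ Tm := by exact_mod_cast hTm
  have hlog : 0 ≤ Real.log Tm := Real.log_nonneg hTm'
  have hGZ := gs_nonneg hg Z
  have hy0 : 0 ≤ y := mul_nonneg hκ.le hGZ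
  -- properties of valid sets
  have hval : ∀ T ∈ Z.powerset.filter (fun T => vld κ g (Z \ T) T),
      T ⊆ N ∧ (T.card : ℝ) ≤ y ∧ 1 ≤ T.card := by
    intro T hT
    rw [mem_filter, mem_powerset] at hT
    obtain ⟨hTZ, hne, hdis, hle, hmin⟩ := hT
    have hZT : Z \ T ∪ T = Z := Finset.sdiff_union_of_subset hTZ
    rw [hZT] at hle
    refine ⟨?_, ?_, Finset.card_pos.mpr hne⟩
    · intro a ha
      rw [hN, mem_filter]
      refine ⟨hTZ ha, ?_⟩
      have hZe : Z \ T ∪ T.erase a = Z.erase a := by
        ext b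
        simp only [mem_union, mem_sdiff, mem_erase]
        constructor
        · rintro (⟨h1, h2⟩ | ⟨h1, h2⟩)
          · exact ⟨fun h => h2 (h ▸ ha), h1⟩
          · exact ⟨h1, hTZ h2⟩
        · rintro ⟨h1, h2⟩
          by_cases hb : b ∈ T
          · exact Or.inr ⟨h1, hb⟩
          · exact Or.inl ⟨h2, hb⟩
      have hcard : ((T.erase a).card : ℝ) = T.card - 1 := by
        rw [Finset.card_erase_of_mem ha, Nat.cast_sub (Finset.card_pos.mpr hne)]
        simp
      by_cases hE : (T.erase a).Nonempty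
      · have h1 := hmin (T.erase a) (Finset.erase_ssubset ha) hE
        rw [hZe, hcard] at h1
        push Not at h1
        nlinarith
      · rw [Finset.not_nonempty_iff_eq_empty] at hE
        have h2 : Z.erase a = Z \ T := by
          rw [← hZe, hE, Finset.union_empty]
        rw [h2]
        have h3 : (1 : ℝ) ≤ T.card := by exact_mod_cast Finset.card_pos.mpr hne
        linarith
    · have := gs_nonneg hg (Z \ T)
      nlinarith
  have hNcard : (N.card : ℝ) ≤ Tm * y := by
    calc (N.card : ℝ) = ∑ a ∈ N, (1 : ℝ) := by simp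
      _ ≤ ∑ a ∈ N, κ * (gs g Z - gs g (Z.erase a)) :=
          Finset.sum_le_sum (fun a ha => (Finset.mem_filter.mp ha).2)
      _ ≤ ∑ a ∈ Z, κ * (gs g Z - gs g (Z.erase a)) := by
          apply Finset.sum_le_sum_of_subset_of_nonneg (Finset.filter_subset _ _)
          intro a _ _
          apply mul_nonneg hκ.le
          linarith [gs_mono hg (Finset.erase_subset a Z)]
      _ = κ * ∑ a ∈ Z, (gs g Z - gs g (Z.erase a)) := by rw [Finset.mul_sum]
      _ ≤ κ * (Tm * gs g Z) := mul_le_mul_of_nonneg_left (gs_marg hg hsupp Z) hκ.le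
      _ = Tm * y := by rw [hy]; ring
  rcases (Z.powerset.filter (fun T => vld κ g (Z \ T) T)).eq_empty_or_nonempty with hem | hne
  · rw [hem]; simp [Real.exp_nonneg]
  obtain ⟨T₀, hT₀⟩ := hne
  have hy1 : 1 ≤ y := by
    obtain ⟨-, h1, h2⟩ := hval T₀ hT₀
    have : (1 : ℝ) ≤ T₀.card := by exact_mod_cast h2
    linarith
  rw [← Finset.sum_mul]
  have hTmpos : (0 : ℝ) < Tm := by linarith
  have hS : ∑ T ∈ Z.powerset.filter (fun T => vld κ g (Z \ T) T), (1 / 2 : ℝ) ^ T.card
      ≤ Real.exp (y * Real.log Tm) * Real.exp (y / 2) := by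
    calc ∑ T ∈ Z.powerset.filter (fun T => vld κ g (Z \ T) T), (1 / 2 : ℝ) ^ T.card
        ≤ ∑ T ∈ N.powerset, Real.exp (y * Real.log Tm) * (1 / (2 * Tm : ℝ)) ^ T.card := by
          have h1 : ∀ T ∈ Z.powerset.filter (fun T => vld κ g (Z \ T) T), (1 / 2 : ℝ) ^ T.card
              ≤ Real.exp (y * Real.log Tm) * (1 / (2 * Tm : ℝ)) ^ T.card := by
            intro T hT
            obtain ⟨-, h2, -⟩ := hval T hT
            have h3 : (1 / 2 : ℝ) ^ T.card = (Tm : ℝ) ^ T.card * (1 / (2 * Tm : ℝ)) ^ T.card := by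
              rw [← mul_pow]
              congr 1
              field_simp
            rw [h3]
            apply mul_le_mul_of_nonneg_right _ (by positivity)
            have h4 : (Tm : ℝ) ^ T.card = Real.exp (T.card * Real.log Tm) := by
              rw [Real.exp_nat_mul, Real.exp_log hTmpos]
            rw [h4]
            apply Real.exp_le_exp.mpr
            exact mul_le_mul_of_nonneg_right h2 hlog
          refine (Finset.sum_le_sum h1).trans ?_
          apply Finset.sum_le_sum_of_subset_of_nonneg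
          · intro T hT
            exact Finset.mem_powerset.mpr (hval T hT).1
          · intro T _ _
            positivity
      _ = Real.exp (y * Real.log Tm) * (1 / (2 * Tm : ℝ) + 1) ^ N.card := by
          rw [← Finset.mul_sum]
          congr 1
          have := Finset.sum_pow_mul_eq_add_pow (1 / (2 * Tm : ℝ)) 1 N
          simpa using this
      _ ≤ Real.exp (y * Real.log Tm) * Real.exp (y / 2) := by
          apply mul_le_mul_of_nonneg_left _ (Real.exp_nonneg _)
          calc (1 / (2 * Tm : ℝ) + 1) ^ N.card ≤ (Real.exp (1 / (2 * Tm : ℝ))) ^ N.card :=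
                pow_le_pow_left₀ (by positivity) (Real.add_one_le_exp _) _
            _ = Real.exp (N.card * (1 / (2 * Tm : ℝ))) := by rw [← Real.exp_nat_mul]
            _ ≤ Real.exp (y / 2) := by
                apply Real.exp_le_exp.mpr
                calc (N.card : ℝ) * (1 / (2 * Tm : ℝ)) ≤ (Tm * y) * (1 / (2 * Tm : ℝ)) :=
                      mul_le_mul_of_nonneg_right hNcard (by positivity)
                  _ = y / 2 := by field_simp
  calc (∑ T ∈ Z.powerset.filter (fun T => vld κ g (Z \ T) T), (1 / 2 : ℝ) ^ T.card)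
        * Real.exp (-(κ * (1 + Real.log Tm + x) * gs g Z))
      ≤ (Real.exp (y * Real.log Tm) * Real.exp (y / 2))
        * Real.exp (-(κ * (1 + Real.log Tm + x) * gs g Z)) :=
        mul_le_mul_of_nonneg_right hS (Real.exp_nonneg _)
    _ = Real.exp (-(y * (x + 1 / 2))) := by
        rw [← Real.exp_add, ← Real.exp_add]
        congr 1
        rw [hy]; ring
    _ ≤ Real.exp (-x) := by
        apply Real.exp_le_exp.mpr
        nlinarith

theorem sum_image_le {β γ : Type*} [DecidableEq γ] (s : Finset β) (f : β → γ) (h : γ → ℝ)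
    (hh : ∀ c, 0 ≤ h c) : ∑ c ∈ s.image f, h c ≤ ∑ b ∈ s, h (f b) := by
  classical
  induction s using Finset.induction_on with
  | empty => simp
  | insert a s ha ih =>
    rw [Finset.image_insert, Finset.sum_insert ha]
    by_cases hc : f a ∈ s.image f
    · rw [Finset.insert_eq_of_mem hc]
      linarith [hh (f a)]
    · rw [Finset.sum_insert hc]
      linarith

theorem sum_union_le' {β : Type*} [DecidableEq β] (s t : Finset β) (h : β → ℝ)
    (hh : ∀ c, 0 ≤ h c) : ∑ c ∈ s ∪ t, h c ≤ ∑ c ∈ s, h c + ∑ c ∈ t, h c := by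
  have h1 := Finset.sum_union_inter (f := h) (s₁ := s) (s₂ := t)
  have h2 : 0 ≤ ∑ c ∈ s ∩ t, h c := Finset.sum_nonneg (fun c _ => hh c)
  linarith

theorem rounding {q : ℝ} (hq0 : 0 < q) (hq1 : q ≤ 1) (g : Finset X → ℝ) (hg : ∀ U, 0 ≤ g U)
    {u Tm K : ℕ} (hu : 1 ≤ u) (hTm : 1 ≤ Tm) (hK : 1 ≤ K)
    (hsupp : ∀ U, g U ≠ 0 → u ≤ U.card ∧ U.card ≤ Tm) {γ : ℝ}
    (hγ : ∑ U, g U * q ^ U.card ≤ γ) (hγ1 : γ ≤ 1) {x : ℝ} (hx : 0 ≤ x) :
    Cov (q / 8) (2 * (2 * K * (1 + Real.log Tm + x) * γ * (3 / 8) ^ u + Real.exp (-x)))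
      {A : Finset X | A.card ≤ K ∧ 1 ≤ ∑ U ∈ A.powerset, g U} := by
  classical
  set κ : ℝ := 2 * K with hκ
  set M : ℝ := κ * (1 + Real.log Tm + x) with hM
  have hKr : (1 : ℝ) ≤ K := by exact_mod_cast hK
  have hTmr : (1 : ℝ) ≤ Tm := by exact_mod_cast hTm
  have hlog : 0 ≤ Real.log Tm := Real.log_nonneg hTmr
  have hκ0 : 0 < κ := by rw [hκ]; linarith
  have hM0 : 0 ≤ M := by rw [hM]; positivity
  set r : Finset X → ℝ := fun U => min 1 (M * g U) with hr
  have hr0 : ∀ U, 0 ≤ r U := fun U => le_min zero_le_one (mul_nonneg hM0 (hg U))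
  have hr1 : ∀ U, r U ≤ 1 := fun U => min_le_left _ _
  have hrM : ∀ U, r U ≤ M * g U := fun U => min_le_right _ _
  set s : ℝ := q / 4 with hs
  set q' : ℝ := q / 8 with hq'
  have hs0 : 0 < s := by rw [hs]; linarith
  have hs1 : s ≤ 1 / 4 := by rw [hs]; linarith
  have hq'0 : 0 < q' := by rw [hq']; linarith
  have hq'1 : q' ≤ 1 := by rw [hq']; linarith
  have hqs : q' = s * (1 / 2) := by rw [hq', hs]; ring
  set P : Finset X → ℝ := pw (fun _ : X => s) with hP
  have hP0 : ∀ W, 0 ≤ P W := fun W => pw_nonneg (fun _ => hs0.le) (fun _ => by linarith) W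
  have hγ0 : 0 ≤ γ := le_trans (Finset.sum_nonneg (fun U _ => mul_nonneg (hg U) (by positivity))) hγ
  set B : ℝ := M * γ * (3 / 8) ^ u + Real.exp (-x) with hB
  have hB0 : 0 < B := by
    have : 0 ≤ M * γ * (3 / 8) ^ u := by positivity
    have := Real.exp_pos (-x)
    linarith
  -- inner expected cost
  set c1 : Finset X → ℝ := fun W => ∑ U, r U * q' ^ (U \ W).card with hc1
  set c2 : Finset X → ℝ := fun W => ∑ T ∈ univ.filter (fun T => vld κ g W T),
    q' ^ T.card * ∏ U ∈ (W ∪ T).powerset, (1 - r U) with hc2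
  have E1 : ∑ W, P W * c1 W ≤ M * γ * (3 / 8) ^ u := by
    have e1 : ∑ W, P W * c1 W = ∑ U, r U * (s + (1 - s) * q') ^ U.card := by
      simp only [hc1, Finset.mul_sum]
      rw [Finset.sum_comm]
      apply Finset.sum_congr rfl
      intro U _
      rw [← pw_pow s q' U, Finset.mul_sum]
      apply Finset.sum_congr rfl
      intro W _
      rw [hP]; ring
    rw [e1]
    calc ∑ U, r U * (s + (1 - s) * q') ^ U.card
        ≤ ∑ U, (M * (3 / 8) ^ u) * (g U * q ^ U.card) := by
          apply Finset.sum_le_sum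
          intro U _
          by_cases h0 : g U = 0
          · have : r U = 0 := le_antisymm (by simpa [h0] using hrM U) (hr0 U)
            rw [this, h0]; simp
          · have hU := (hsupp U h0).1
            have h1 : s + (1 - s) * q' ≤ (3 / 8) * q := by
              rw [hs, hq']; nlinarith
            have h2 : 0 ≤ s + (1 - s) * q' := by
              have : 0 ≤ (1 - s) * q' := mul_nonneg (by linarith) hq'0.le
              linarith
            calc r U * (s + (1 - s) * q') ^ U.card ≤ (M * g U) * ((3 / 8) * q) ^ U.card :=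
                  mul_le_mul (hrM U) (pow_le_pow_left₀ h2 h1 _) (pow_nonneg h2 _)
                    (mul_nonneg hM0 (hg U))
              _ = (M * (3 / 8) ^ U.card) * (g U * q ^ U.card) := by rw [mul_pow]; ring
              _ ≤ (M * (3 / 8) ^ u) * (g U * q ^ U.card) := by
                  apply mul_le_mul_of_nonneg_right _ (mul_nonneg (hg U) (by positivity))
                  apply mul_le_mul_of_nonneg_left _ hM0
                  exact pow_le_pow_of_le_one (by norm_num) (by norm_num) hU
      _ = (M * (3 / 8) ^ u) * ∑ U, g U * q ^ U.card := by rw [Finset.mul_sum]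
      _ ≤ (M * (3 / 8) ^ u) * γ := mul_le_mul_of_nonneg_left hγ (by positivity)
      _ = M * γ * (3 / 8) ^ u := by ring
  have E2 : ∑ W, P W * c2 W ≤ Real.exp (-x) := by
    have hprod : ∀ Z : Finset X, ∏ U ∈ Z.powerset, (1 - r U) ≤ Real.exp (-(M * gs g Z)) := by
      intro Z
      have h1 : Real.exp (-(M * gs g Z)) = ∏ U ∈ Z.powerset, Real.exp (-(M * g U)) := by
        rw [← Real.exp_sum]
        congr 1
        unfold gs
        rw [Finset.mul_sum, Finset.sum_neg_distrib]
      rw [h1]
      apply Finset.prod_le_prod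
      · intro U _
        linarith [hr1 U]
      · intro U _
        rcases le_total 1 (M * g U) with h | h
        · have : r U = 1 := min_eq_left h
          rw [this]; simp [Real.exp_nonneg]
        · have : r U = M * g U := min_eq_right h
          rw [this]
          linarith [Real.add_one_le_exp (-(M * g U))]
    have hPT : ∀ Z T : Finset X, T ⊆ Z → P (Z \ T) * q' ^ T.card ≤ P Z * (1 / 2) ^ T.card := by
      intro Z T hTZ
      have hZc : (Z \ T)ᶜ = Zᶜ ∪ T := by
        ext a; simp only [mem_compl, mem_sdiff, mem_union]; tauto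
      have hdis : Disjoint Zᶜ T := by
        rw [Finset.disjoint_left]
        intro a ha haT
        exact (Finset.mem_compl.mp ha) (hTZ haT)
      have e1 : P (Z \ T) = s ^ (Z \ T).card * ((1 - s) ^ (Zᶜ).card * (1 - s) ^ T.card) := by
        simp only [hP, pw, Finset.prod_const]
        rw [hZc, Finset.card_union_of_disjoint hdis, pow_add]
      have e2 : P Z = s ^ Z.card * (1 - s) ^ (Zᶜ).card := by
        simp only [hP, pw, Finset.prod_const]
      have e3 : s ^ Z.card = s ^ (Z \ T).card * s ^ T.card := by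
        rw [← pow_add, Finset.card_sdiff_add_card_eq_card hTZ]
      rw [e1, e2, e3, hqs, mul_pow]
      have h1 : (1 - s) ^ T.card ≤ 1 := pow_le_one₀ (by linarith) (by linarith)
      have h2 : (0 : ℝ) ≤ (1 - s) ^ (Zᶜ).card := pow_nonneg (by linarith) _
      have h3 : 0 ≤ s ^ (Z \ T).card * s ^ T.card * (1 - s) ^ (Zᶜ).card * (1 / 2) ^ T.card := by
        positivity
      nlinarith
    have e0 : ∑ W, P W * c2 W = ∑ Z, ∑ T ∈ Z.powerset.filter (fun T => vld κ g (Z \ T) T),
        P (Z \ T) * q' ^ T.card * ∏ U ∈ Z.powerset, (1 - r U) := by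
      simp only [hc2, Finset.mul_sum]
      rw [Finset.sum_sigma', Finset.sum_sigma']
      apply Finset.sum_bij' (i := fun (p : Σ _ : Finset X, Finset X) _ =>
          (⟨p.1 ∪ p.2, p.2⟩ : Σ _ : Finset X, Finset X))
        (j := fun (p : Σ _ : Finset X, Finset X) _ =>
          (⟨p.1 \ p.2, p.2⟩ : Σ _ : Finset X, Finset X))
      · rintro ⟨W, T⟩ h
        simp only [mem_sigma, mem_univ, mem_filter, true_and] at h
        have hd : Disjoint T W := h.2.1
        have hWT : (W ∪ T) \ T = W := Finset.union_sdiff_cancel_right hd.symm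
        simp only [mem_sigma, mem_univ, mem_filter, true_and, mem_powerset, hWT]
        exact ⟨Finset.subset_union_right, h⟩
      · rintro ⟨Z, T⟩ h
        simp only [mem_sigma, mem_univ, mem_filter, true_and, mem_powerset] at h ⊢
        exact h.2
      · rintro ⟨W, T⟩ h
        simp only [mem_sigma, mem_univ, mem_filter, true_and] at h
        have hd : Disjoint T W := h.2.1
        have hWT : (W ∪ T) \ T = W := Finset.union_sdiff_cancel_right hd.symm
        simp only [hWT]
      · rintro ⟨Z, T⟩ h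
        simp only [mem_sigma, mem_univ, mem_filter, true_and, mem_powerset] at h
        simp only [Finset.sdiff_union_of_subset h.1]
      · rintro ⟨W, T⟩ h
        simp only [mem_sigma, mem_univ, mem_filter, true_and] at h
        have hd : Disjoint T W := h.2.1
        have hWT : (W ∪ T) \ T = W := Finset.union_sdiff_cancel_right hd.symm
        simp only [hWT]
        ring
    rw [e0]
    calc ∑ Z, ∑ T ∈ Z.powerset.filter (fun T => vld κ g (Z \ T) T),
          P (Z \ T) * q' ^ T.card * ∏ U ∈ Z.powerset, (1 - r U)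
        ≤ ∑ Z, P Z * Real.exp (-x) := by
          apply Finset.sum_le_sum
          intro Z _
          calc ∑ T ∈ Z.powerset.filter (fun T => vld κ g (Z \ T) T),
                P (Z \ T) * q' ^ T.card * ∏ U ∈ Z.powerset, (1 - r U)
              ≤ ∑ T ∈ Z.powerset.filter (fun T => vld κ g (Z \ T) T),
                P Z * ((1 / 2) ^ T.card * Real.exp (-(κ * (1 + Real.log Tm + x) * gs g Z))) := by
                apply Finset.sum_le_sum
                intro T hT
                have hTZ := Finset.mem_powerset.mp (Finset.mem_filter.mp hT).1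
                have h1 := hPT Z T hTZ
                have h2 := hprod Z
                have h3 : 0 ≤ ∏ U ∈ Z.powerset, (1 - r U) :=
                  Finset.prod_nonneg (fun U _ => by linarith [hr1 U])
                have h4 : 0 ≤ P Z * (1 / 2) ^ T.card := mul_nonneg (hP0 Z) (by positivity)
                calc P (Z \ T) * q' ^ T.card * ∏ U ∈ Z.powerset, (1 - r U)
                    ≤ (P Z * (1 / 2) ^ T.card) * Real.exp (-(M * gs g Z)) :=
                      mul_le_mul h1 h2 h3 h4
                  _ = P Z * ((1 / 2) ^ T.card * Real.exp (-(κ * (1 + Real.log Tm + x) * gs g Z))) := by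
                      rw [hM]; ring
            _ = P Z * ∑ T ∈ Z.powerset.filter (fun T => vld κ g (Z \ T) T),
                ((1 / 2) ^ T.card * Real.exp (-(κ * (1 + Real.log Tm + x) * gs g Z))) := by
                rw [Finset.mul_sum]
            _ ≤ P Z * Real.exp (-x) := by
                apply mul_le_mul_of_nonneg_left _ (hP0 Z)
                exact vld_sum hg hTm (fun U hU => (hsupp U hU).2) hκ0 hx Z
      _ = Real.exp (-x) := by
          rw [← Finset.sum_mul, hP, pw_sum, one_mul]
  -- Markov for gs g W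
  have E3 : ∑ W, P W * gs g W ≤ 1 / 4 := by
    have e1 : ∑ W, P W * gs g W = ∑ U, g U * s ^ U.card := by
      have h1 : ∀ W : Finset X, gs g W = ∑ U, g U * (if U ⊆ W then 1 else 0) := by
        intro W
        unfold gs
        simp only [mul_ite, mul_one, mul_zero]
        rw [← Finset.sum_filter]
        apply Finset.sum_congr _ (fun _ _ => rfl)
        ext U; simp
      simp only [h1, Finset.mul_sum]
      rw [Finset.sum_comm]
      apply Finset.sum_congr rfl
      intro U _
      rw [← pw_subset s U, Finset.mul_sum]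
      apply Finset.sum_congr rfl
      intro W _
      rw [hP]; ring
    rw [e1]
    calc ∑ U, g U * s ^ U.card ≤ ∑ U, (1 / 4) * (g U * q ^ U.card) := by
          apply Finset.sum_le_sum
          intro U _
          by_cases h0 : g U = 0
          · rw [h0]; simp
          · have hU := (hsupp U h0).1
            have h1 : s ^ U.card = (1 / 4) ^ U.card * q ^ U.card := by
              rw [← mul_pow, hs]; congr 1; ring
            have h2 : (1 / 4 : ℝ) ^ U.card ≤ 1 / 4 := by
              calc (1 / 4 : ℝ) ^ U.card ≤ (1 / 4) ^ 1 :=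
                    pow_le_pow_of_le_one (by norm_num) (by norm_num) (by omega)
                _ = 1 / 4 := pow_one _
            rw [h1]
            have h3 : 0 ≤ g U * q ^ U.card := mul_nonneg (hg U) (by positivity)
            nlinarith
      _ = (1 / 4) * ∑ U, g U * q ^ U.card := by rw [Finset.mul_sum]
      _ ≤ (1 / 4) * γ := mul_le_mul_of_nonneg_left hγ (by norm_num)
      _ ≤ 1 / 4 := by linarith
  set 𝒲 : Finset (Finset X) := univ.filter (fun W => gs g W ≤ 1 / 2) with h𝒲
  have E4 : 1 / 2 ≤ ∑ W ∈ 𝒲, P W := by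
    have h1 : ∑ W ∈ univ.filter (fun W => ¬ gs g W ≤ 1 / 2), P W ≤ 1 / 2 := by
      have h2 : ∑ W ∈ univ.filter (fun W => ¬ gs g W ≤ 1 / 2), P W * (1 / 2) ≤ 1 / 4 := by
        refine le_trans ?_ E3
        refine le_trans (Finset.sum_le_sum (g := fun W => P W * gs g W) ?_) ?_
        · intro W hW
          have := (Finset.mem_filter.mp hW).2
          push Not at this
          exact mul_le_mul_of_nonneg_left this.le (hP0 W)
        · exact Finset.sum_le_sum_of_subset_of_nonneg (Finset.filter_subset _ _)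
            (fun W _ _ => mul_nonneg (hP0 W) (gs_nonneg hg W))
      rw [← Finset.sum_mul] at h2
      linarith
    have h3 : ∑ W ∈ 𝒲, P W + ∑ W ∈ univ.filter (fun W => ¬ gs g W ≤ 1 / 2), P W = 1 := by
      rw [h𝒲, Finset.sum_filter_add_sum_filter_not, hP, pw_sum]
    linarith
  have hc1n : ∀ W, 0 ≤ c1 W := fun W =>
    Finset.sum_nonneg (fun U _ => mul_nonneg (hr0 U) (by positivity))
  have hc2n : ∀ W, 0 ≤ c2 W := fun W =>
    Finset.sum_nonneg (fun T _ => mul_nonneg (by positivity)
      (Finset.prod_nonneg (fun U _ => by linarith [hr1 U])))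
  obtain ⟨W, hW, hWc⟩ := exists_le_of_avg 𝒲 P (fun W => c1 W + c2 W) (fun W _ => hP0 W)
    (by linarith) (2 * B) (by
      have h1 : ∑ W ∈ 𝒲, P W * (c1 W + c2 W) ≤ B := by
        calc ∑ W ∈ 𝒲, P W * (c1 W + c2 W) ≤ ∑ W, P W * (c1 W + c2 W) :=
              Finset.sum_le_sum_of_subset_of_nonneg (Finset.subset_univ _)
                (fun W _ _ => mul_nonneg (hP0 W) (add_nonneg (hc1n W) (hc2n W)))
          _ = ∑ W, P W * c1 W + ∑ W, P W * c2 W := by
              rw [← Finset.sum_add_distrib]
              exact Finset.sum_congr rfl (fun W _ => by ring)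
          _ ≤ B := by rw [hB]; linarith
      nlinarith)
  have hW2 : gs g W ≤ 1 / 2 := (Finset.mem_filter.mp hW).2
  -- choose the random family
  set cost : Finset (Finset X) → ℝ := fun 𝒰 => ∑ U ∈ 𝒰, q' ^ (U \ W).card
    + ∑ T ∈ univ.filter (fun T => vld κ g W T),
      q' ^ T.card * (if Disjoint 𝒰 (W ∪ T).powerset then 1 else 0) with hcost
  obtain ⟨𝒰, -, h𝒰⟩ := exists_le_of_avg (univ : Finset (Finset (Finset X))) (pw r) cost
    (fun 𝒰 _ => pw_nonneg hr0 hr1 𝒰) (by rw [pw_sum]; exact one_pos) (c1 W + c2 W) (by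
      rw [pw_sum, mul_one]
      apply le_of_eq
      have h1 : ∀ 𝒰 : Finset (Finset X), pw r 𝒰 * cost 𝒰
          = ∑ U, q' ^ (U \ W).card * (pw r 𝒰 * (if U ∈ 𝒰 then 1 else 0))
            + ∑ T ∈ univ.filter (fun T => vld κ g W T),
              q' ^ T.card * (pw r 𝒰 * (if Disjoint 𝒰 (W ∪ T).powerset then 1 else 0)) := by
        intro 𝒰
        simp only [hcost]
        rw [mul_add, Finset.mul_sum, Finset.mul_sum]
        congr 1
        · rw [← Finset.sum_filter_add_sum_filter_not (univ : Finset (Finset X)) (fun U => U ∈ 𝒰)]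
          have e1 : ∑ U ∈ univ.filter (fun U => U ∉ 𝒰),
              q' ^ (U \ W).card * (pw r 𝒰 * (if U ∈ 𝒰 then (1 : ℝ) else 0)) = 0 := by
            apply Finset.sum_eq_zero
            intro U hU
            rw [if_neg (Finset.mem_filter.mp hU).2]; ring
          rw [e1, add_zero]
          have e2 : univ.filter (fun U => U ∈ 𝒰) = 𝒰 := by ext; simp
          rw [e2]
          apply Finset.sum_congr rfl
          intro U hU
          rw [if_pos hU]; ring
        · apply Finset.sum_congr rfl
          intro T _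
          ring
      rw [Finset.sum_congr rfl (fun 𝒰 _ => h1 𝒰), Finset.sum_add_distrib, Finset.sum_comm]
      congr 1
      · simp only [hc1]
        apply Finset.sum_congr rfl
        intro U _
        rw [← Finset.mul_sum, pw_mem]; ring
      · rw [Finset.sum_comm]
        simp only [hc2]
        apply Finset.sum_congr rfl
        intro T _
        rw [← Finset.mul_sum, pw_avoid])
  have hfin : cost 𝒰 ≤ 2 * B := h𝒰.trans hWc
  refine ⟨𝒰.image (fun U => U \ W) ∪ univ.filter (fun T => vld κ g W T ∧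
    Disjoint 𝒰 (W ∪ T).powerset), ?_, ?_⟩
  · have h1 : ∑ G ∈ 𝒰.image (fun U => U \ W) ∪ univ.filter (fun T => vld κ g W T ∧
        Disjoint 𝒰 (W ∪ T).powerset), q' ^ G.card ≤ cost 𝒰 := by
      refine (sum_union_le' _ _ _ (fun _ => by positivity)).trans ?_
      simp only [hcost]
      apply add_le_add
      · exact sum_image_le 𝒰 (fun U => U \ W) (fun G => q' ^ G.card) (fun _ => by positivity)
      · rw [← Finset.filter_filter, Finset.sum_filter]
        apply le_of_eq
        apply Finset.sum_congr rfl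
        intro T _
        split_ifs <;> simp
    refine h1.trans (hfin.trans (le_of_eq ?_))
    rw [hB, hM, hκ]
  · rintro A ⟨hAK, hA1⟩
    by_cases hex : ∃ U ∈ 𝒰, U \ W ⊆ A
    · obtain ⟨U, hU, hUA⟩ := hex
      exact ⟨U \ W, Finset.mem_union_left _ (Finset.mem_image_of_mem _ hU), hUA⟩
    · push Not at hex
      -- `A \ W` is a candidate
      have hWA : W ∪ (A \ W) = W ∪ A := by
        ext a; simp only [mem_union, mem_sdiff]; tauto
      have hgA : 1 ≤ gs g (W ∪ A) := le_trans hA1 (gs_mono hg Finset.subset_union_right)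
      set Cand : Finset (Finset X) := (A \ W).powerset.filter (fun T => T.Nonempty ∧
        (T.card : ℝ) ≤ κ * (gs g (W ∪ T) - gs g W)) with hCand
      have hmemC : A \ W ∈ Cand := by
        rw [hCand, mem_filter, mem_powerset]
        refine ⟨Finset.Subset.refl _, ?_, ?_⟩
        · rw [Finset.nonempty_iff_ne_empty]
          intro he
          rw [he, Finset.union_empty] at hWA
          rw [← hWA] at hgA
          linarith
        · rw [hWA]
          have h1 : ((A \ W).card : ℝ) ≤ K := by
            exact_mod_cast (Finset.card_le_card Finset.sdiff_subset).trans hAK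
          have h2 : (K : ℝ) = κ * (1 / 2) := by rw [hκ]; ring
          calc ((A \ W).card : ℝ) ≤ κ * (1 / 2) := by linarith
            _ ≤ κ * (gs g (W ∪ A) - gs g W) :=
                mul_le_mul_of_nonneg_left (by linarith) hκ0.le
      obtain ⟨T, hTC, hTmin⟩ := Finset.exists_min_image Cand Finset.card ⟨_, hmemC⟩
      rw [hCand, mem_filter, mem_powerset] at hTC
      obtain ⟨hTA, hTne, hTle⟩ := hTC
      have hTd : Disjoint T W := by
        rw [Finset.disjoint_left]
        intro a ha haW
        exact (Finset.mem_sdiff.mp (hTA ha)).2 haW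
      refine ⟨T, Finset.mem_union_right _ ?_, hTA.trans Finset.sdiff_subset⟩
      rw [mem_filter]
      refine ⟨Finset.mem_univ _, ⟨hTne, hTd, hTle, ?_⟩, ?_⟩
      · intro T' hT' hne' hle'
        have hmem : T' ∈ Cand := by
          rw [hCand, mem_filter, mem_powerset]
          exact ⟨hT'.subset.trans hTA, hne', hle'⟩
        have := hTmin T' hmem
        have := Finset.card_lt_card hT'
        omega
      · rw [Finset.disjoint_left]
        intro U hU hUm
        rw [Finset.mem_powerset] at hUm
        apply hex U hU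
        intro a ha
        rw [Finset.mem_sdiff] at ha
        rcases Finset.mem_union.mp (hUm ha.1) with h | h
        · exact absurd h ha.2
        · exact (Finset.mem_sdiff.mp (hTA h)).1

theorem roundBig {q : ℝ} (hq0 : 0 < q) (hq1 : q ≤ 1) (g : Finset X → ℝ) (hg : ∀ U, 0 ≤ g U)
    {u K : ℕ} (hu : 1 ≤ u) (hsupp : ∀ U, g U ≠ 0 → u ≤ U.card)
    (hγ : ∑ U, g U * q ^ U.card ≤ 1) (hKu : (K : ℝ) ≤ Real.exp ((u : ℝ) / 8)) :
    Cov (q / 8) (10 * Real.exp (-(u : ℝ) / 2))
      {A : Finset X | A.card ≤ K ∧ 1 ≤ ∑ U ∈ A.powerset, g U} := by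
  classical
  rcases Nat.eq_zero_or_pos K with hK0 | hK
  · subst hK0
    refine ⟨∅, by simp; positivity, ?_⟩
    rintro A ⟨hA, hA1⟩
    exfalso
    have hAe : A = ∅ := Finset.card_eq_zero.mp (Nat.le_zero.mp hA)
    subst hAe
    have : g ∅ = 0 := by
      by_contra h
      have := hsupp ∅ h
      simp at this
      omega
    simp [this] at hA1
    linarith
  · set g' : Finset X → ℝ := fun U => if U.card ≤ K then g U else 0 with hg'
    have hg'0 : ∀ U, 0 ≤ g' U := by
      intro U; simp only [hg']; split_ifs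
      · exact hg U
      · exact le_rfl
    have hs : ∀ U, g' U ≠ 0 → u ≤ U.card ∧ U.card ≤ K := by
      intro U h
      simp only [hg'] at h
      split_ifs at h with h1
      · exact ⟨hsupp U h, h1⟩
      · exact absurd rfl h
    have hγ' : ∑ U, g' U * q ^ U.card ≤ 1 := by
      refine le_trans (Finset.sum_le_sum ?_) hγ
      intro U _
      apply mul_le_mul_of_nonneg_right _ (by positivity)
      simp only [hg']; split_ifs
      · exact le_rfl
      · exact hg U
    have hmain := rounding hq0 hq1 g' hg'0 hu hK hK hs hγ' le_rfl (x := (u : ℝ)) (by positivity)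
    obtain ⟨𝒢, h1, h2⟩ := hmain
    refine ⟨𝒢, h1.trans ?_, ?_⟩
    · have hKr : (1 : ℝ) ≤ K := by exact_mod_cast hK
      have hur : (1 : ℝ) ≤ u := by exact_mod_cast hu
      have hlog : Real.log K ≤ (u : ℝ) / 8 := by
        have := Real.log_le_log (by linarith) hKu
        rwa [Real.log_exp] at this
      have h38 : (3 / 8 : ℝ) ≤ Real.exp (-(98 / 100)) := by
        have e1 : Real.exp (98 / 100) ≤ 8 / 3 := by
          have e2 : Real.exp (98 / 100) = Real.exp 1 * Real.exp (-(1 / 50)) := by
            rw [← Real.exp_add]; norm_num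
          have e3 : Real.exp (-(1 / 50)) ≤ 1 / (1 + 1 / 50) := by
            rw [Real.exp_neg, ← one_div]
            apply one_div_le_one_div_of_le (by norm_num)
            linarith [Real.add_one_le_exp (1 / 50 : ℝ)]
          have e4 := Real.exp_one_lt_d9
          have e5 := Real.exp_pos (-(1 / 50) : ℝ)
          rw [e2]
          nlinarith
        rw [Real.exp_neg]
        rw [le_inv_comm₀ (by norm_num) (Real.exp_pos _)]
        linarith
      have hpow : (3 / 8 : ℝ) ^ u ≤ Real.exp (-(98 / 100) * u) := by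
        calc (3 / 8 : ℝ) ^ u ≤ (Real.exp (-(98 / 100))) ^ u :=
              pow_le_pow_left₀ (by norm_num) h38 u
          _ = Real.exp (-(98 / 100) * u) := by
              rw [← Real.exp_nat_mul]; congr 1; ring
      have hA : (K : ℝ) * (3 / 8 : ℝ) ^ u ≤ Real.exp (-(855 / 1000) * u) := by
        calc (K : ℝ) * (3 / 8 : ℝ) ^ u ≤ Real.exp ((u : ℝ) / 8) * Real.exp (-(98 / 100) * u) :=
              mul_le_mul hKu hpow (by positivity) (Real.exp_nonneg _)
          _ = Real.exp (-(855 / 1000) * u) := by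
              rw [← Real.exp_add]; congr 1; ring
      have hB : (1 + Real.log K + u) ≤ 2 * Real.exp ((355 / 1000) * u) := by
        have e1 : 1 + (355 / 1000) * (u : ℝ) + ((355 / 1000) * (u : ℝ)) ^ 2 / 2
            ≤ Real.exp ((355 / 1000) * u) := Real.quadratic_le_exp_of_nonneg (by positivity)
        nlinarith [sq_nonneg ((u : ℝ) - 17 / 10)]
      have hC : Real.exp (-(u : ℝ)) ≤ Real.exp (-(u : ℝ) / 2) :=
        Real.exp_le_exp.mpr (by linarith)
      have hlog0 : 0 ≤ Real.log K := Real.log_nonneg hKr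
      have hD : (K : ℝ) * (3 / 8 : ℝ) ^ u * (1 + Real.log K + u)
          ≤ 2 * Real.exp (-(u : ℝ) / 2) := by
        calc (K : ℝ) * (3 / 8 : ℝ) ^ u * (1 + Real.log K + u)
            ≤ Real.exp (-(855 / 1000) * u) * (2 * Real.exp ((355 / 1000) * u)) :=
              mul_le_mul hA hB (by positivity) (Real.exp_nonneg _)
          _ = 2 * Real.exp (-(u : ℝ) / 2) := by
              rw [mul_left_comm, ← Real.exp_add]; congr 2; ring
      nlinarith
    · rintro A ⟨hA, hA1⟩
      apply h2
      refine ⟨hA, le_of_le_of_eq hA1 ?_⟩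
      apply Finset.sum_congr rfl
      intro U hU
      have : U.card ≤ K := (Finset.card_le_card (Finset.mem_powerset.mp hU)).trans hA
      simp [hg', this]

end Vale.Agent.P034
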