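import Vale.Agent.P034.LamBasics
import Vale.Agent.P034.Rounding
import Vale.Agent.P034.Cover

/-! Module B: direct rounding of bounded sets with large functional. -/

namespace Vale.Agent.P034
open Finset
variable {X : Type*} [Fintype X] [DecidableEq X]

theorem base_cover {w : Finset X → ℝ} {p : ℝ} (hw : ∀ S, 0 ≤ w S) (hp : 0 < p) (hp1 : p ≤ 1)
    {T : ℕ} (hT1 : 1 ≤ T) (hT : ∀ S, w S ≠ 0 → S.card ≤ T) {K : ℕ} (hK : 1 ≤ K) {θ x0 x : ℝ}
    (hx0 : lam w p ∅ ∅ ≤ x0) (h0 : 0 ≤ x0) (hθ : 0 < θ) (h1 : 2 * 2 ^ T * x0 ≤ θ) (hx : 0 ≤ x) :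
    Cov (p / 8) (2 * (2 * K * (1 + Real.log T + x) * (2 * 2 ^ T * x0 / θ) + Real.exp (-x)))
      {Y : Finset X | Y.card ≤ K ∧ θ ≤ lam w p Y ∅} := by
  classical
  set g : Finset X → ℝ := fun U => if U.Nonempty then (2 / θ) * lam w p ∅ U else 0 with hg
  have hg0 : ∀ U, 0 ≤ g U := by
    intro U
    simp only [hg]
    split_ifs
    · exact mul_nonneg (by positivity) (lam_nonneg hw hp _ _)
    · exact le_rfl
  have hsupp : ∀ U, g U ≠ 0 → 1 ≤ U.card ∧ U.card ≤ T := by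
    intro U hU
    simp only [hg] at hU
    split_ifs at hU with hne
    · refine ⟨Finset.card_pos.2 hne, ?_⟩
      have hl : lam w p ∅ U ≠ 0 := fun h => hU (by rw [h, mul_zero])
      obtain ⟨S, hS, hS0⟩ := Finset.exists_ne_zero_of_sum_ne_zero hl
      have hUS : U ⊆ S := (Finset.mem_filter.1 hS).2
      have hwS : w S ≠ 0 := fun h => hS0 (by rw [h, zero_mul])
      exact (Finset.card_le_card hUS).trans (hT S hwS)
    · exact absurd rfl hU
  have h2T : (1 : ℝ) ≤ 2 ^ T := one_le_pow₀ (by norm_num)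
  have hγ : ∑ U, g U * p ^ U.card ≤ 2 * 2 ^ T * x0 / θ := by
    calc ∑ U, g U * p ^ U.card
        ≤ ∑ U, (2 / θ) * (lam w p ∅ U * p ^ U.card) := by
          refine Finset.sum_le_sum fun U _ => ?_
          have h3 : 0 ≤ lam w p ∅ U * p ^ U.card :=
            mul_nonneg (lam_nonneg hw hp _ _) (by positivity)
          simp only [hg]
          split_ifs
          · rw [mul_assoc]
          · rw [zero_mul]
            positivity
      _ = (2 / θ) * ∑ U, lam w p ∅ U * p ^ U.card := by rw [Finset.mul_sum]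
      _ ≤ (2 / θ) * (2 ^ T * lam w p ∅ ∅) := by
          have h4 := sum_lam_le hw hp hT (∅ : Finset X)
          simp only [Finset.disjoint_empty_right, Finset.filter_true] at h4
          gcongr
      _ ≤ (2 / θ) * (2 ^ T * x0) := by gcongr
      _ = _ := by ring
  have hγ1 : 2 * 2 ^ T * x0 / θ ≤ 1 := by
    rw [div_le_one hθ]
    exact h1
  have hmain := rounding hp hp1 g hg0 (u := 1) (Tm := T) (K := K) le_rfl hT1 hK hsupp hγ hγ1 hx
  refine Cov_mono hmain ?_ ?_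
  · have hKr : (0 : ℝ) ≤ K := Nat.cast_nonneg _
    have hlog : 0 ≤ Real.log T := Real.log_nonneg (by exact_mod_cast hT1)
    have h5 : 0 ≤ 2 * (K : ℝ) * (1 + Real.log T + x) * (2 * 2 ^ T * x0 / θ) := by positivity
    rw [pow_one]
    nlinarith
  · rintro Y ⟨hYK, hY⟩
    refine ⟨hYK, ?_⟩
    have h6 := lam_empty_le_sum hw hp Y
    have h7 : ∑ U ∈ Y.powerset, g U = (2 / θ) * (∑ σ ∈ Y.powerset, lam w p ∅ σ - lam w p ∅ ∅) := by
      have h8 : ∑ σ ∈ Y.powerset, lam w p ∅ σ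
          = lam w p ∅ ∅ + ∑ σ ∈ Y.powerset.erase ∅, lam w p ∅ σ := by
        rw [Finset.add_sum_erase _ _ (Finset.empty_mem_powerset Y)]
      have h9 : ∑ U ∈ Y.powerset, g U = g ∅ + ∑ σ ∈ Y.powerset.erase ∅, g σ := by
        rw [Finset.add_sum_erase _ _ (Finset.empty_mem_powerset Y)]
      have h10 : g ∅ = 0 := by simp [hg]
      rw [h8, h9, h10, zero_add, add_sub_cancel_left, Finset.mul_sum]
      refine Finset.sum_congr rfl fun σ hσ => ?_
      have hne : σ.Nonempty := Finset.nonempty_iff_ne_empty.2 (Finset.mem_erase.1 hσ).1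
      simp only [hg]
      rw [if_pos hne]
    rw [h7]
    have h11 : lam w p ∅ ∅ ≤ θ / 2 := by
      refine hx0.trans ?_
      nlinarith
    rw [div_mul_eq_mul_div, le_div_iff₀ hθ]
    linarith

theorem capviol_cover {w : Finset X → ℝ} {p : ℝ} (hw : ∀ S, 0 ≤ w S) (hp : 0 < p) (hp1 : p ≤ 1)
    {T Nm : ℕ} (hT1 : 1 ≤ T) (hNm : 1 ≤ Nm) (hT : ∀ S, w S ≠ 0 → S.card ≤ T) {x0 : ℝ}
    (hx0 : lam w p ∅ ∅ ≤ x0) (h0 : 0 ≤ x0) (h1 : 4 ^ T * x0 ≤ 1 / 16) :
    Cov (p / 8) (260 / (Nm : ℝ))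
      {V : Finset X | cap Nm V.card ≤ lam w p V ∅} := by
  classical
  have hNr : (1 : ℝ) ≤ Nm := by exact_mod_cast hNm
  have h2T : (1 : ℝ) ≤ 2 ^ T := one_le_pow₀ (by norm_num)
  have h4T : (4 : ℝ) ^ T = 2 ^ T * 2 ^ T := by
    rw [← mul_pow]
    norm_num
  have hTr : (1 : ℝ) ≤ T := by exact_mod_cast hT1
  have hTlog : 1 + Real.log T ≤ 2 ^ T := by
    have h3 := Real.log_le_sub_one_of_pos (show (0 : ℝ) < T by linarith)
    have h4 : (T : ℝ) ≤ 2 ^ T := by exact_mod_cast (Nat.lt_two_pow_self (n := T)).le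
    linarith
  have hlogT0 : 0 ≤ Real.log T := Real.log_nonneg hTr
  have h2x : 2 ^ T * x0 ≤ 1 / 16 := by
    have : 2 ^ T * x0 ≤ 2 ^ T * (2 ^ T * x0) := by
      have h5 : 0 ≤ 2 ^ T * x0 := by positivity
      nlinarith
    rw [h4T, mul_assoc] at h1
    linarith
  have hb : ∀ j ∈ Finset.range (Fintype.card X + 1), Cov (p / 8) (10 / (Nm : ℝ) * (1 / 2) ^ j)
      {Y : Finset X | Y.card ≤ 2 ^ j * Nm ∧ ((2 ^ j * Nm : ℕ) : ℝ) ^ 3 / 8 ≤ lam w p Y ∅} := by
    intro j _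
    set Kj : ℕ := 2 ^ j * Nm with hKj
    have hKj1 : 1 ≤ Kj := Nat.mul_pos (by positivity) hNm
    have hKr : (1 : ℝ) ≤ Kj := by exact_mod_cast hKj1
    have hK3 : (1 : ℝ) ≤ (Kj : ℝ) ^ 3 := one_le_pow₀ hKr
    have hθ : (0 : ℝ) < (Kj : ℝ) ^ 3 / 8 := by positivity
    have hb := base_cover hw hp hp1 hT1 hT hKj1 hx0 h0 hθ (by nlinarith)
      (Real.log_nonneg hKr)
    refine Cov_mono hb ?_ (Set.Subset.refl _)
    have hexp : Real.exp (-Real.log Kj) = 1 / Kj := by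
      rw [Real.exp_neg, Real.exp_log (by linarith), one_div]
    have hKlog : Real.log Kj ≤ Kj := by
      have := Real.log_le_sub_one_of_pos (show (0 : ℝ) < Kj by linarith)
      linarith
    have hKlog0 : 0 ≤ Real.log Kj := Real.log_nonneg hKr
    have hA : (1 + Real.log T + Real.log Kj) * (2 ^ T * x0) ≤ (1 + Kj) / 16 := by
      have e1 : (1 + Real.log T) * (2 ^ T * x0) ≤ 1 / 16 := by
        calc (1 + Real.log T) * (2 ^ T * x0) ≤ 2 ^ T * (2 ^ T * x0) := by gcongr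
          _ = 4 ^ T * x0 := by rw [h4T]; ring
          _ ≤ _ := h1
      have e2 : Real.log Kj * (2 ^ T * x0) ≤ Kj * (1 / 16) := by gcongr
      linarith
    have hcost : 2 * (Kj : ℝ) * (1 + Real.log T + Real.log Kj) * (2 * 2 ^ T * x0 / ((Kj : ℝ) ^ 3 / 8))
        ≤ 4 / Kj := by
      have e3 : 2 * (Kj : ℝ) * (1 + Real.log T + Real.log Kj)
            * (2 * 2 ^ T * x0 / ((Kj : ℝ) ^ 3 / 8))
          = 32 * ((1 + Real.log T + Real.log Kj) * (2 ^ T * x0)) / (Kj : ℝ) ^ 2 := by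
        field_simp
        ring
      rw [e3]
      calc 32 * ((1 + Real.log T + Real.log Kj) * (2 ^ T * x0)) / (Kj : ℝ) ^ 2
          ≤ 32 * ((1 + (Kj : ℝ)) / 16) / (Kj : ℝ) ^ 2 := by gcongr
        _ ≤ 4 / (Kj : ℝ) := by
          rw [div_le_div_iff₀ (by positivity) (by linarith)]
          nlinarith
    rw [hexp]
    have hfin : 10 / (Nm : ℝ) * (1 / 2) ^ j = 10 / Kj := by
      rw [hKj]
      push_cast
      rw [one_div, inv_pow]
      field_simp
    rw [hfin]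
    have : 10 / (Kj : ℝ) = 2 * (4 / Kj + 1 / Kj) := by ring
    rw [this]
    linarith
  have hU := Cov_biUnion (X := X) (q := p / 8) (by positivity) _ _ _ hb
  refine Cov_mono hU ?_ ?_
  · rw [← Finset.mul_sum]
    have h6 : ∑ i ∈ Finset.range (Fintype.card X + 1), (1 / 2 : ℝ) ^ i ≤ 2 :=
      sum_geometric_two_le _
    calc 10 / (Nm : ℝ) * ∑ i ∈ Finset.range (Fintype.card X + 1), (1 / 2 : ℝ) ^ i
        ≤ 10 / (Nm : ℝ) * 2 := by gcongr
      _ ≤ 260 / (Nm : ℝ) := by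
        rw [div_mul_eq_mul_div]
        gcongr
        norm_num
  · intro V hV
    simp only [Set.mem_ofPred_eq] at hV
    have hex : ∃ j, V.card ≤ 2 ^ j * Nm := by
      refine ⟨V.card, ?_⟩
      have h7 : V.card < 2 ^ V.card := Nat.lt_two_pow_self
      nlinarith
    have hspec := Nat.find_spec hex
    have hmin : ∀ m < Nat.find hex, ¬ V.card ≤ 2 ^ m * Nm := fun m hm => Nat.find_min hex hm
    set j := Nat.find hex with hj
    have hjle : j ≤ Fintype.card X := by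
      refine (Nat.find_min' hex ?_ : j ≤ V.card).trans (Finset.card_le_univ V)
      have h7 : V.card < 2 ^ V.card := Nat.lt_two_pow_self
      nlinarith
    simp only [Set.mem_iUnion]
    refine ⟨j, Finset.mem_range.2 (by omega), ?_⟩
    refine ⟨hspec, le_trans ?_ hV⟩
    unfold cap
    have hkey : 2 ^ j * Nm ≤ 2 * (V.card + Nm) := by
      rcases Nat.eq_zero_or_pos j with h0' | hpos
      · rw [h0']
        omega
      · have h8 := hmin (j - 1) (by omega)
        have h9 : 2 ^ j = 2 * 2 ^ (j - 1) := by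
          conv_lhs => rw [show j = (j - 1) + 1 by omega]
          rw [pow_succ]
          ring
        rw [h9]
        have h10 : 2 ^ (j - 1) * Nm < V.card := by omega
        calc 2 * 2 ^ (j - 1) * Nm = 2 * (2 ^ (j - 1) * Nm) := by ring
          _ ≤ 2 * (V.card + Nm) := by omega
    have hkey' : ((2 ^ j * Nm : ℕ) : ℝ) ≤ 2 * ((V.card + Nm : ℕ) : ℝ) := by exact_mod_cast hkey
    calc ((2 ^ j * Nm : ℕ) : ℝ) ^ 3 / 8 ≤ (2 * ((V.card + Nm : ℕ) : ℝ)) ^ 3 / 8 := by gcongr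
      _ = ((V.card + Nm : ℕ) : ℝ) ^ 3 := by ring

end Vale.Agent.P034
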