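import Vale.Agent.P034.Level

/-! Module F2: bottom of the recursion. -/

namespace Vale.Agent.P034
open Finset
variable {X : Type*} [Fintype X] [DecidableEq X]

/-- bottom exponents -/
def a2 (b : ℕ) : ℕ := (EE (2 ^ b)) ^ (4 ^ (m0 b + 1))
def a1 (b : ℕ) : ℕ := b + 5 + 2 * (ee (2 ^ b) * 4 ^ (m0 b + 1))

private theorem EE_ge (b : ℕ) (hb : 1 ≤ b) : 2 ^ b + 15 ≤ EE (2 ^ b) := by
  have h1 : 2 ≤ 2 ^ b := by
    calc 2 = 2 ^ 1 := by norm_num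
      _ ≤ 2 ^ b := Nat.pow_le_pow_right (by norm_num) hb
  have h2 : 8 ≤ 2 ^ (2 ^ b + 1) := by
    calc 8 = 2 ^ 3 := by norm_num
      _ ≤ 2 ^ (2 ^ b + 1) := Nat.pow_le_pow_right (by norm_num) (by omega)
  have h3 : ee (2 ^ b) + 1 ≤ EE (2 ^ b) := by
    unfold EE
    exact Nat.lt_two_pow_self
  have h4 : 2 ^ b + 14 ≤ ee (2 ^ b) := by
    unfold ee
    omega
  omega

theorem num_Ng_le {b g : ℕ} (hb : 1 ≤ b) (hg1 : 4 ^ m0 b ≤ g) (hg2 : g < 4 ^ (m0 b + 1)) :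
    Ng (2 ^ b) g ≤ 2 ^ a2 b := by
  have hE := EE_ge b hb
  have hbb : b < 2 ^ b := Nat.lt_two_pow_self
  have h1 : Ng (2 ^ b) g = 2 ^ (1 + b + EE (2 ^ b) ^ g) := by
    unfold Ng ng eg
    rw [pow_add, pow_add, pow_one]
  rw [h1]
  refine Nat.pow_le_pow_right (by norm_num) ?_
  unfold a2
  have h2 : EE (2 ^ b) ^ (g + 1) ≤ EE (2 ^ b) ^ (4 ^ (m0 b + 1)) :=
    Nat.pow_le_pow_right (by omega) hg2
  refine le_trans ?_ h2
  rw [pow_succ]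
  have h3 : 1 ≤ EE (2 ^ b) ^ g := Nat.one_le_pow _ _ (by omega)
  have h4 : EE (2 ^ b) ^ g * (b + 2) ≤ EE (2 ^ b) ^ g * EE (2 ^ b) :=
    Nat.mul_le_mul_left _ (by omega)
  nlinarith

theorem num_a2 {b : ℕ} (hb : 1 ≤ b) : 2 ^ b * (32 * a2 b ^ 2) ≤ 2 ^ a1 b ∧ 2 ^ b + 12 ≤ a2 b := by
  constructor
  · refine le_of_eq ?_
    obtain ⟨N, hN⟩ : ∃ N, N = ee (2 ^ b) * 4 ^ (m0 b + 1) := ⟨_, rfl⟩
    have h1 : a2 b = 2 ^ N := by
      rw [hN]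
      unfold a2 EE
      rw [← pow_mul]
    have h2 : a1 b = b + 5 + 2 * N := by
      rw [hN]
      rfl
    rw [h1, h2, pow_add, pow_add, mul_comm 2 N, pow_mul, mul_assoc]
    norm_num
  · have hE := EE_ge b hb
    have hE1 : 0 < EE (2 ^ b) := lt_of_lt_of_le (by positivity) hE
    have h1 : EE (2 ^ b) ^ 1 ≤ EE (2 ^ b) ^ (4 ^ (m0 b + 1)) :=
      Nat.pow_le_pow_right hE1 (Nat.one_le_pow _ _ (by norm_num))
    rw [pow_one] at h1
    unfold a2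
    omega

theorem num_a1 {b : ℕ} (hb : 1 ≤ b) : 2 ^ b * (32 * a1 b ^ 2) ≤ 2 ^ (100 * 2 ^ b) ∧
    2 ^ b + 12 ≤ a1 b := by
  have hb2 : 2 * b ≤ 2 ^ b := by
    have h0 : b ≤ 2 ^ (b - 1) := by
      have : b - 1 < 2 ^ (b - 1) := Nat.lt_two_pow_self
      omega
    have h1 : 2 ^ b = 2 * 2 ^ (b - 1) := by
      rw [← pow_succ']
      congr 1
      omega
    omega
  obtain ⟨T, hT⟩ : ∃ T, T = 2 ^ b := ⟨_, rfl⟩
  rw [← hT] at hb2
  have hTlt : T < 2 ^ T := Nat.lt_two_pow_self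
  have he : ee T ≤ 2 ^ (T + 3) := by
    unfold ee
    rw [pow_succ, pow_succ, pow_succ, pow_succ]
    have h4 : 4 ≤ 2 ^ T := by
      calc 4 = 2 ^ 2 := by norm_num
        _ ≤ 2 ^ T := Nat.pow_le_pow_right (by norm_num) (by omega)
    omega
  have ha : a1 b ≤ 2 ^ (T + 39 + 4 * b) := by
    unfold a1
    rw [← hT]
    have h1 : ee T * 4 ^ (m0 b + 1) ≤ 2 ^ (T + 3) * 2 ^ (4 * b + 34) := by
      have h2 : 4 ^ (m0 b + 1) = 2 ^ (4 * b + 34) := by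
        unfold m0
        rw [show (4 : ℕ) = 2 ^ 2 by norm_num, ← pow_mul]
        congr 1
        ring
      rw [h2]
      exact Nat.mul_le_mul_right _ he
    rw [← pow_add] at h1
    have h3 : 2 ^ (T + 39 + 4 * b) = 4 * 2 ^ (T + 3 + (4 * b + 34)) := by
      rw [show T + 39 + 4 * b = (T + 3 + (4 * b + 34)) + 2 by ring, pow_add]
      ring
    rw [h3]
    have h5 : T + 3 + (4 * b + 34) < 2 ^ (T + 3 + (4 * b + 34)) := Nat.lt_two_pow_self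
    omega
  constructor
  · rw [← hT]
    have hT' : 2 ^ b = T := hT.symm
    calc T * (32 * a1 b ^ 2) ≤ T * (32 * (2 ^ (T + 39 + 4 * b)) ^ 2) := by
          refine Nat.mul_le_mul_left _ (Nat.mul_le_mul_left _ (Nat.pow_le_pow_left ha 2))
      _ = 2 ^ (b + 5 + (T + 39 + 4 * b) * 2) := by
          rw [pow_add 2 (b + 5), pow_add 2 b, pow_mul 2 (T + 39 + 4 * b), hT', mul_assoc]
          norm_num
      _ ≤ 2 ^ (100 * T) := Nat.pow_le_pow_right (by norm_num) (by omega)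
  · have h1 : ee (2 ^ b) * 1 ≤ ee (2 ^ b) * 4 ^ (m0 b + 1) :=
      Nat.mul_le_mul_left _ (Nat.one_le_pow _ _ (by norm_num))
    have h8 : 8 ≤ 2 ^ (2 ^ b + 1) := by
      calc 8 = 2 ^ 3 := by norm_num
        _ ≤ 2 ^ (2 ^ b + 1) := Nat.pow_le_pow_right (by norm_num) (by omega)
    have h2 : 2 ^ b + 14 ≤ ee (2 ^ b) := by
      unfold ee
      omega
    unfold a1
    omega

theorem lossy2 {w : Finset X → ℝ} {p : ℝ} (hw : ∀ S, 0 ≤ w S) (hp : 0 < p) (hp1 : p ≤ 1)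
    {T : ℕ} (hT1 : 1 ≤ T) (hT : ∀ S, w S ≠ 0 → S.card ≤ T) {a : ℕ} (ha : 1 ≤ a) {θ : ℝ}
    (hθ : 0 < θ) :
    Cov (p / 8) (10 * Real.exp (-(4 * a : ℝ)))
      {Y : Finset X | Y.card ≤ 2 ^ a ∧ θ ≤ lam w p Y ∅ ∧
        ∀ U ⊆ Y, U.card ≤ T * (32 * a ^ 2) → lam w p U ∅ < θ / (2 * 2 ^ T)} := by
  have h := lossy_cover hw hp hp1 hT (K := 2 ^ a) (u := 8 * a) (n := 32 * a ^ 2) hθ (by omega)
    ?_ ?_ ?_
  · refine Cov_mono h (le_of_eq ?_) (Set.Subset.refl _)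
    congr 2
    push_cast
    ring
  · have h1 : (((2 ^ a : ℕ) : ℝ) + 1) ≤ 2 ^ (a + 1) := by
      push_cast
      rw [pow_succ]
      have : (1 : ℝ) ≤ 2 ^ a := one_le_pow₀ (by norm_num)
      linarith
    have h2 : (((2 ^ a : ℕ) : ℝ) + 1) ^ (8 * a) ≤ 2 ^ (16 * a ^ 2) := by
      calc (((2 ^ a : ℕ) : ℝ) + 1) ^ (8 * a) ≤ (2 ^ (a + 1)) ^ (8 * a) :=
            pow_le_pow_left₀ (by positivity) h1 _
        _ = 2 ^ ((a + 1) * (8 * a)) := by rw [← pow_mul]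
        _ ≤ 2 ^ (16 * a ^ 2) := by
            refine pow_le_pow_right₀ (by norm_num) ?_
            nlinarith
    calc (((2 ^ a : ℕ) : ℝ) + 1) ^ (8 * a) * (1 / 2) ^ (32 * a ^ 2)
        ≤ 2 ^ (16 * a ^ 2) * (1 / 2) ^ (32 * a ^ 2) :=
          mul_le_mul_of_nonneg_right h2 (by positivity)
      _ = (1 / 2) ^ (16 * a ^ 2) := by
          rw [show 32 * a ^ 2 = 16 * a ^ 2 + 16 * a ^ 2 by ring, pow_add, ← mul_assoc, ← mul_pow]
          norm_num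
      _ ≤ (1 / 2) ^ 2 := pow_le_pow_of_le_one (by norm_num) (by norm_num) (by nlinarith)
      _ = 1 / 4 := by norm_num
  · push_cast
    rw [show (8 : ℝ) * a / 8 = a * 1 by ring, Real.exp_nat_mul]
    refine pow_le_pow_left₀ (by norm_num) ?_ _
    have := Real.exp_one_gt_d9
    linarith
  · have : a ≤ a ^ 2 := by nlinarith
    nlinarith

/-- base case with explicit numbers. -/
theorem base2 {w : Finset X → ℝ} {p : ℝ} (hw : ∀ S, 0 ≤ w S) (hp : 0 < p) (hp1 : p ≤ 1)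
    {b : ℕ} (hb : 1 ≤ b) (hT : ∀ S, w S ≠ 0 → S.card ≤ 2 ^ b)
    (h0 : lam w p ∅ ∅ ≤ (1 / 2 : ℝ) ^ (120 * 2 ^ b)) :
    Cov (p / 8) ((1 / 2 : ℝ) ^ (2 ^ b + 12))
      {Y : Finset X | Y.card ≤ 2 ^ (100 * 2 ^ b) ∧
        (1 / 2) / 4 ^ (2 ^ b) / (2 * 2 ^ (2 ^ b)) / (2 * 2 ^ (2 ^ b)) ≤ lam w p Y ∅} := by
  have hT2 : 2 ≤ 2 ^ b := by
    calc 2 = 2 ^ 1 := by norm_num
      _ ≤ 2 ^ b := Nat.pow_le_pow_right (by norm_num) hb
  obtain ⟨T, hTT⟩ : ∃ T, T = 2 ^ b := ⟨_, rfl⟩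
  rw [← hTT] at hT h0 hT2 ⊢
  have hθeq : (1 / 2 : ℝ) / 4 ^ T / (2 * 2 ^ T) / (2 * 2 ^ T) = (1 / 2) ^ (3 + 4 * T) := by
    have h4 : (4 : ℝ) ^ T = 2 ^ T * 2 ^ T := by rw [← mul_pow]; norm_num
    rw [h4, pow_add, mul_comm 4 T, pow_mul, one_div_pow (2 : ℝ) T]
    field_simp
  rw [hθeq]
  have hone : (1 : ℝ) ≤ 2 ^ T := one_le_pow₀ (by norm_num)
  have hx0eq : 2 * 2 ^ T * (1 / 2 : ℝ) ^ (120 * T) = 2 * (1 / 2) ^ (119 * T) := by
    rw [show 120 * T = T + 119 * T by ring, pow_add (1 / 2 : ℝ) T, mul_assoc, ← mul_assoc (2 ^ T),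
      ← mul_pow]
    norm_num
  have hθ : (0 : ℝ) < (1 / 2) ^ (3 + 4 * T) := by positivity
  have hsplit : (2 : ℝ) * (1 / 2) ^ (119 * T) = (1 / 2) ^ (3 + 4 * T) * (1 / 2) ^ (115 * T - 4) := by
    rw [← pow_add, show 3 + 4 * T + (115 * T - 4) = 119 * T - 1 by omega]
    rw [show 119 * T = (119 * T - 1) + 1 by omega, pow_succ]
    simp only [Nat.add_sub_cancel]
    ring
  have h := base_cover hw hp hp1 (T := T) (by omega) hT (K := 2 ^ (100 * T)) Nat.one_le_two_pow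
    (θ := (1 / 2) ^ (3 + 4 * T)) (x0 := (1 / 2) ^ (120 * T)) (x := (T : ℝ) + 14) h0
    (by positivity) hθ ?_ (by positivity)
  · refine Cov_mono h ?_ (Set.Subset.refl _)
    have hratio : 2 * 2 ^ T * (1 / 2 : ℝ) ^ (120 * T) / (1 / 2) ^ (3 + 4 * T)
        = (1 / 2) ^ (115 * T - 4) := by
      rw [hx0eq, hsplit, mul_comm, mul_div_assoc, div_self hθ.ne', mul_one]
    rw [hratio]
    have hlog : Real.log (T : ℝ) ≤ T := by
      have := Real.log_le_sub_one_of_pos (x := (T : ℝ)) (by positivity)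
      linarith
    have hexp : Real.exp (-((T : ℝ) + 14)) ≤ (1 / 2) ^ (T + 14) := by
      rw [show (-((T : ℝ) + 14)) = ((T + 14 : ℕ) : ℝ) * (-1) by push_cast; ring, Real.exp_nat_mul]
      refine pow_le_pow_left₀ (Real.exp_pos _).le ?_ _
      rw [Real.exp_neg]
      rw [inv_le_comm₀ (Real.exp_pos _) (by norm_num)]
      have := Real.exp_one_gt_d9
      norm_num
      linarith
    have hTr : (T : ℝ) ≤ 2 ^ T := by
      exact_mod_cast (Nat.lt_two_pow_self (n := T)).le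
    have h15 : 1 + Real.log (T : ℝ) + ((T : ℝ) + 14) ≤ 2 ^ (T + 5) := by
      rw [pow_add]
      norm_num
      linarith
    have hK : ((2 ^ (100 * T) : ℕ) : ℝ) * (1 / 2) ^ (115 * T - 4) = (1 / 2) ^ (15 * T - 4) := by
      push_cast
      rw [show 115 * T - 4 = 100 * T + (15 * T - 4) by omega, pow_add, ← mul_assoc, ← mul_pow]
      norm_num
    have hA : 2 * ((2 ^ (100 * T) : ℕ) : ℝ) * (1 + Real.log (T : ℝ) + ((T : ℝ) + 14)) *
        (1 / 2) ^ (115 * T - 4) ≤ (1 / 2) ^ (T + 14) := by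
      calc 2 * ((2 ^ (100 * T) : ℕ) : ℝ) * (1 + Real.log (T : ℝ) + ((T : ℝ) + 14)) *
          (1 / 2) ^ (115 * T - 4)
          = (1 + Real.log (T : ℝ) + ((T : ℝ) + 14)) * (2 *
            (((2 ^ (100 * T) : ℕ) : ℝ) * (1 / 2) ^ (115 * T - 4))) := by ring
        _ = (1 + Real.log (T : ℝ) + ((T : ℝ) + 14)) * (2 * (1 / 2) ^ (15 * T - 4)) := by rw [hK]
        _ ≤ 2 ^ (T + 5) * (2 * (1 / 2) ^ (15 * T - 4)) :=
            mul_le_mul_of_nonneg_right h15 (by positivity)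
        _ = 2 ^ (T + 6) * (1 / 2) ^ (15 * T - 4) := by
            rw [show T + 6 = (T + 5) + 1 by ring, pow_succ]; ring
        _ = (1 / 2) ^ (14 * T - 10) := by
            rw [show 15 * T - 4 = (T + 6) + (14 * T - 10) by omega, pow_add (1 / 2 : ℝ),
              ← mul_assoc, ← mul_pow]
            norm_num
        _ ≤ (1 / 2) ^ (T + 14) :=
            pow_le_pow_of_le_one (by norm_num) (by norm_num) (by omega)
    have hfin : (1 / 2 : ℝ) ^ (T + 12) = 4 * (1 / 2) ^ (T + 14) := by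
      rw [show T + 14 = (T + 12) + 2 by ring, pow_add (1 / 2 : ℝ) (T + 12)]
      ring
    rw [hfin]
    linarith
  · rw [hx0eq, hsplit]
    have : (1 / 2 : ℝ) ^ (115 * T - 4) ≤ 1 := pow_le_one₀ (by norm_num) (by norm_num)
    nlinarith

theorem num_exp {a n : ℕ} (h : n ≤ a) (hn : 4 ≤ n) :
    10 * Real.exp (-(4 * a : ℝ)) ≤ (1 / 2 : ℝ) ^ n := by
  have h1 : Real.exp (-(4 * a : ℝ)) ≤ (1 / 2 : ℝ) ^ (4 * a) := by
    rw [show (-(4 * a : ℝ)) = ((4 * a : ℕ) : ℝ) * (-1) by push_cast; ring, Real.exp_nat_mul]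
    refine pow_le_pow_left₀ (Real.exp_pos _).le ?_ _
    rw [Real.exp_neg, inv_le_comm₀ (Real.exp_pos _) (by norm_num)]
    have := Real.exp_one_gt_d9
    norm_num
    linarith
  have h2 : (1 / 2 : ℝ) ^ (4 * a) ≤ (1 / 2 : ℝ) ^ (n + 12) :=
    pow_le_pow_of_le_one (by norm_num) (by norm_num) (by omega)
  have h3 : (1 / 2 : ℝ) ^ (n + 12) = (1 / 2) ^ n * (1 / 4096) := by rw [pow_add]; norm_num
  have h4 : (0 : ℝ) ≤ (1 / 2) ^ n := by positivity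
  have h5 := h1.trans h2
  rw [h3] at h5
  linarith

theorem bottom_cover {w : Finset X → ℝ} {p : ℝ} (hw : ∀ S, 0 ≤ w S) (hp : 0 < p) (hp1 : p ≤ 1)
    {b : ℕ} (hb : 1 ≤ b) (hT : ∀ S, w S ≠ 0 → S.card ≤ 2 ^ b)
    (h0 : lam w p ∅ ∅ ≤ (1 / 2 : ℝ) ^ (120 * 2 ^ b)) :
    Cov (p / 8) (3 * (1 / 2 : ℝ) ^ (2 ^ b + 12)) (St w p (2 ^ b) (NmT (2 ^ b)) (m0 b)) := by
  have hq : (0 : ℝ) ≤ p / 8 := by positivity
  have hT1 : 1 ≤ 2 ^ b := Nat.one_le_two_pow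
  have hθ2 : (0 : ℝ) < (1 / 2) / 4 ^ (2 ^ b) := by positivity
  have hθ1 : (0 : ℝ) < (1 / 2) / 4 ^ (2 ^ b) / (2 * 2 ^ (2 ^ b)) := by positivity
  have ha2 : 1 ≤ a2 b := by have := (num_a2 hb).2; omega
  have ha1 : 1 ≤ a1 b := by have := (num_a1 hb).2; omega
  have c2 := lossy2 hw hp hp1 hT1 hT ha2 hθ2
  have c1 := lossy2 hw hp hp1 hT1 hT ha1 hθ1
  have c0 := base2 hw hp hp1 hb hT h0
  have c2' := Cov_mono c2 (num_exp (num_a2 hb).2 (by omega)) (Set.Subset.refl _)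
  have c1' := Cov_mono c1 (num_exp (num_a1 hb).2 (by omega)) (Set.Subset.refl _)
  have hU := Cov_union hq c2' (Cov_union hq c1' c0)
  have hU' := Cov_up (ℬ := St w p (2 ^ b) (NmT (2 ^ b)) (m0 b)) hU ?_
  · refine Cov_mono hU' (le_of_eq (by ring)) (Set.Subset.refl _)
  · rintro Y ⟨g, hg1, hg2, hgc, hgF⟩
    have hYc : Y.card ≤ 2 ^ a2 b := hgc.trans (num_Ng_le hb hg1 hg2)
    have hth := (num_theta hb (le_refl (m0 b))).1
    have hF := Fh_le hw hp hT ((kg (2 ^ b) g ^ BT (2 ^ b))⁻¹) (NmT (2 ^ b)) Y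
    have hl : (1 / 2) / 4 ^ (2 ^ b) ≤ lam w p Y ∅ := by
      rw [div_le_iff₀ (by positivity)]
      calc (1 / 2 : ℝ) ≤ thm (m0 b) := hth
        _ ≤ _ := hgF
        _ ≤ 4 ^ (2 ^ b) * lam w p Y ∅ := hF
        _ = _ := by ring
    by_cases hA : ∀ U ⊆ Y, U.card ≤ 2 ^ b * (32 * a2 b ^ 2) →
        lam w p U ∅ < (1 / 2) / 4 ^ (2 ^ b) / (2 * 2 ^ (2 ^ b))
    · exact ⟨Y, Or.inl ⟨hYc, hl, hA⟩, le_rfl⟩
    · push_neg at hA
      obtain ⟨U, hUY, hUc, hUl⟩ := hA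
      have hUc' : U.card ≤ 2 ^ a1 b := hUc.trans (num_a2 hb).1
      by_cases hB : ∀ V ⊆ U, V.card ≤ 2 ^ b * (32 * a1 b ^ 2) →
          lam w p V ∅ < (1 / 2) / 4 ^ (2 ^ b) / (2 * 2 ^ (2 ^ b)) / (2 * 2 ^ (2 ^ b))
      · exact ⟨U, Or.inr (Or.inl ⟨hUc', hUl, hB⟩), hUY⟩
      · push_neg at hB
        obtain ⟨V, hVU, hVc, hVl⟩ := hB
        exact ⟨V, Or.inr (Or.inr ⟨hVc.trans (num_a1 hb).1, hVl⟩), hVU.trans hUY⟩

theorem St_cover {w : Finset X → ℝ} {p : ℝ} (hw : ∀ S, 0 ≤ w S) (hp : 0 < p) (hp1 : p ≤ 1)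
    {b : ℕ} (hb : 1 ≤ b) (hT : ∀ S, w S ≠ 0 → S.card ≤ 2 ^ b)
    (h0 : lam w p ∅ ∅ ≤ (1 / 2 : ℝ) ^ (120 * 2 ^ b)) (k : ℕ) :
    Cov (p / 8) ((1 / 2 : ℝ) ^ (2 ^ b + 9) - (1 / 2 : ℝ) ^ (2 ^ b + 10 + k))
      (St w p (2 ^ b) (NmT (2 ^ b)) (m0 b + k)) := by
  have hq : (0 : ℝ) ≤ p / 8 := by positivity
  induction k with
  | zero =>
    refine Cov_mono (bottom_cover hw hp hp1 hb hT h0) ?_ (Set.Subset.refl _)
    have h1 : (1 / 2 : ℝ) ^ (2 ^ b + 12) = (1 / 2 : ℝ) ^ (2 ^ b) * (1 / 4096) := by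
      rw [pow_add]; norm_num
    have h2 : (1 / 2 : ℝ) ^ (2 ^ b + 9) = (1 / 2 : ℝ) ^ (2 ^ b) * (1 / 512) := by
      rw [pow_add]; norm_num
    have h3 : (1 / 2 : ℝ) ^ (2 ^ b + 10 + 0) = (1 / 2 : ℝ) ^ (2 ^ b) * (1 / 1024) := by
      rw [add_zero, pow_add]; norm_num
    rw [h1, h2, h3]
    have : (0 : ℝ) ≤ (1 / 2 : ℝ) ^ (2 ^ b) := by positivity
    nlinarith
  | succ k ih =>
    have hstep := level_step hb (Nat.le_add_right (m0 b) k) hw hp hp1 hT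
    have hU := Cov_union hq ih hstep
    have hU' := Cov_up (ℬ := St w p (2 ^ b) (NmT (2 ^ b)) (m0 b + (k + 1))) hU ?_
    · refine Cov_mono hU' ?_ (Set.Subset.refl _)
      have h1 : (1 / 2 : ℝ) ^ (m0 b + k + 2 ^ b + 10) ≤ (1 / 2 : ℝ) ^ (2 ^ b + 10 + (k + 1)) := by
        refine pow_le_pow_of_le_one (by norm_num) (by norm_num) ?_
        unfold m0; omega
      have h2 : (1 / 2 : ℝ) ^ (2 ^ b + 10 + k) = 2 * (1 / 2 : ℝ) ^ (2 ^ b + 10 + (k + 1)) := by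
        rw [show 2 ^ b + 10 + (k + 1) = (2 ^ b + 10 + k) + 1 by ring, pow_succ]; ring
      rw [h2]
      linarith
    · intro Y hY
      by_cases hA : ∀ U ⊆ Y, U ∉ St w p (2 ^ b) (NmT (2 ^ b)) (m0 b + k)
      · exact ⟨Y, Or.inr ⟨hY, hA⟩, le_rfl⟩
      · push_neg at hA
        obtain ⟨U, hUY, hU⟩ := hA
        exact ⟨U, Or.inl hU, hUY⟩

/-- cover of one size class. -/
theorem class_cover {w : Finset X → ℝ} {p : ℝ} (hw : ∀ S, 0 ≤ w S) (hp : 0 < p) (hp1 : p ≤ 1)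
    {b : ℕ} (hb : 1 ≤ b) (hT : ∀ S, w S ≠ 0 → S.card ≤ 2 ^ b)
    (h0 : lam w p ∅ ∅ ≤ (1 / 2 : ℝ) ^ (120 * 2 ^ b)) :
    Cov (p / 8) ((1 / 2 : ℝ) ^ (2 ^ b + 8)) {H : Finset X | 1 ≤ ∑ S ∈ H.powerset, w S} := by
  have hq : (0 : ℝ) ≤ p / 8 := by positivity
  obtain ⟨k, hk⟩ : ∃ k, Fintype.card X ≤ 4 ^ (m0 b + k) := by
    refine ⟨Fintype.card X, ?_⟩
    calc Fintype.card X ≤ 4 ^ Fintype.card X := (Nat.lt_pow_self (by norm_num)).le
      _ ≤ 4 ^ (m0 b + Fintype.card X) := Nat.pow_le_pow_right (by norm_num) (Nat.le_add_left _ _)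
  have hcap := capviol_cover (Nm := NmT (2 ^ b)) hw hp hp1 (T := 2 ^ b) Nat.one_le_two_pow
    (by unfold NmT; exact Nat.one_le_two_pow) hT h0 (by positivity) ?_
  · have hU := Cov_union hq hcap (St_cover hw hp hp1 hb hT h0 k)
    have hU' := Cov_up (ℬ := {H : Finset X | 1 ≤ ∑ S ∈ H.powerset, w S}) hU ?_
    · refine Cov_mono hU' ?_ (Set.Subset.refl _)
      have h1 : (260 : ℝ) / (NmT (2 ^ b) : ℝ) ≤ (1 / 2 : ℝ) ^ (2 ^ b + 9) := by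
        unfold NmT
        push_cast
        rw [div_le_iff₀ (by positivity)]
        have : (1 / 2 : ℝ) ^ (2 ^ b + 9) * 2 ^ (2 ^ b + 20) = 2 ^ 11 := by
          rw [show (2 : ℕ) ^ b + 20 = (2 ^ b + 9) + 11 by ring, pow_add (2 : ℝ), ← mul_assoc,
            ← mul_pow]
          norm_num
        rw [this]; norm_num
      have h2 : (1 / 2 : ℝ) ^ (2 ^ b + 8) = 2 * (1 / 2 : ℝ) ^ (2 ^ b + 9) := by
        rw [show 2 ^ b + 9 = (2 ^ b + 8) + 1 by ring, pow_succ]; ring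
      have h3 : 0 ≤ (1 / 2 : ℝ) ^ (2 ^ b + 10 + k) := by positivity
      linarith
    · intro H hH
      by_cases hW : ∀ V ⊆ H, lam w p V ∅ < cap (NmT (2 ^ b)) V.card
      · refine ⟨H, Or.inr ⟨4 ^ (m0 b + k), le_rfl, ?_, ?_, ?_⟩, le_rfl⟩
        · exact Nat.pow_lt_pow_right (by norm_num) (Nat.lt_succ_self _)
        · refine (Finset.card_le_univ H).trans (hk.trans ?_)
          unfold Ng ng eg
          calc 4 ^ (m0 b + k) ≤ 2 ^ (4 ^ (m0 b + k)) := (Nat.lt_two_pow_self).le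
            _ ≤ 2 ^ (EE (2 ^ b) ^ 4 ^ (m0 b + k)) := by
                refine Nat.pow_le_pow_right (by norm_num) ?_
                refine (Nat.lt_pow_self ?_).le
                unfold EE ee
                exact Nat.one_lt_two_pow (by positivity)
            _ ≤ 2 * 2 ^ b * 2 ^ (EE (2 ^ b) ^ 4 ^ (m0 b + k)) := by
                refine Nat.le_mul_of_pos_left _ (by positivity)
        · refine le_trans ?_ (le_Fh_top hw hp hp1 hT _ _ H hW)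
          refine le_trans ?_ hH
          unfold thm
          have : (0 : ℝ) ≤ (1 / 2 : ℝ) ^ (m0 b + k) := by positivity
          linarith
      · push_neg at hW
        obtain ⟨V, hVH, hV⟩ := hW
        exact ⟨V, Or.inl hV, hVH⟩
  · have h4 : (4 : ℝ) ^ (2 ^ b) = (1 / 2 : ℝ) ^ (118 * 2 ^ b) * 0 + 4 ^ (2 ^ b) := by ring
    have hT2 : 2 ≤ 2 ^ b := by
      calc 2 = 2 ^ 1 := by norm_num
        _ ≤ 2 ^ b := Nat.pow_le_pow_right (by norm_num) hb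
    have h5 : (4 : ℝ) ^ (2 ^ b) * (1 / 2 : ℝ) ^ (120 * 2 ^ b) = (1 / 2 : ℝ) ^ (118 * 2 ^ b) := by
      rw [show (4 : ℝ) = 2 ^ 2 by norm_num, ← pow_mul,
        show 120 * 2 ^ b = 2 * 2 ^ b + 118 * 2 ^ b by ring, pow_add, ← mul_assoc, ← mul_pow]
      norm_num
    rw [h5]
    calc (1 / 2 : ℝ) ^ (118 * 2 ^ b) ≤ (1 / 2 : ℝ) ^ 4 :=
          pow_le_pow_of_le_one (by norm_num) (by norm_num) (by omega)
      _ = 1 / 16 := by norm_num

end Vale.Agent.P034
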