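import Vale.Agent.P034.Defs

/-! Module E: the sampling chain. -/

namespace Vale.Agent.P034
open Finset
variable {X : Type*} [Fintype X] [DecidableEq X]

theorem iter_mono_aux {μ : Finset X → ℝ} (hμ : ∀ S, 0 ≤ μ S) {T : ℕ}
    (hT : ∀ S, μ S ≠ 0 → S.card ≤ T)
    (Y : Finset X) (fl : Finset X → Finset X → Prop) (n : ℕ) {φ ψ : Finset X → ℕ → ℝ} :
    ∀ k : ℕ, (∀ U ⊆ Y, U.card ≤ k + T * n → ∀ f, φ U f ≤ ψ U f) →
      ∀ U ⊆ Y, U.card ≤ k → ∀ f, ((stepE μ Y fl)^[n] φ) U f ≤ ((stepE μ Y fl)^[n] ψ) U f := by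
  induction n with
  | zero =>
    intro k h U hU hk f
    exact h U hU (by omega) f
  | succ n ih =>
    intro k h U hU hk f
    rw [Function.iterate_succ_apply', Function.iterate_succ_apply']
    have h2 := ih (k + T) (by
      intro U hU hc f
      exact h U hU (by rw [Nat.mul_succ]; omega) f)
    unfold stepE
    refine Finset.sum_le_sum (fun S _ => ?_)
    by_cases hS : μ S = 0
    · simp [hS]
    · refine mul_le_mul_of_nonneg_left ?_ (hμ S)
      refine h2 _ ?_ ?_ _
      · exact Finset.union_subset hU (Finset.inter_subset_right)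
      · have h3 := Finset.card_union_le U (S ∩ Y)
        have h4 := Finset.card_le_card (Finset.inter_subset_left : S ∩ Y ⊆ S)
        have h5 := hT S hS
        omega

theorem En_mono {μ : Finset X → ℝ} (hμ : ∀ S, 0 ≤ μ S) {T : ℕ} (hT : ∀ S, μ S ≠ 0 → S.card ≤ T)
    (Y : Finset X) (fl : Finset X → Finset X → Prop) (n : ℕ) {φ ψ : Finset X → ℕ → ℝ}
    (h : ∀ U ⊆ Y, U.card ≤ T * n → ∀ f, φ U f ≤ ψ U f) : En μ Y fl n φ ≤ En μ Y fl n ψ := by
  unfold En
  exact iter_mono_aux hμ hT Y fl n 0 (by simpa using h) ∅ (Finset.empty_subset _) (by simp) 0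

theorem iter_add_aux (μ : Finset X → ℝ) (Y : Finset X) (fl : Finset X → Finset X → Prop) (n : ℕ)
    (φ ψ : Finset X → ℕ → ℝ) :
    ((stepE μ Y fl)^[n] (fun U f => φ U f + ψ U f))
      = fun U f => ((stepE μ Y fl)^[n] φ) U f + ((stepE μ Y fl)^[n] ψ) U f := by
  induction n with
  | zero => rfl
  | succ n ih =>
    rw [Function.iterate_succ_apply', Function.iterate_succ_apply', Function.iterate_succ_apply',
      ih]
    funext U f
    unfold stepE
    rw [← Finset.sum_add_distrib]
    refine Finset.sum_congr rfl (fun S _ => ?_)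
    rw [mul_add]

theorem En_add (μ : Finset X → ℝ) (Y : Finset X) (fl : Finset X → Finset X → Prop) (n : ℕ)
    (φ ψ : Finset X → ℕ → ℝ) :
    En μ Y fl n (fun U f => φ U f + ψ U f) = En μ Y fl n φ + En μ Y fl n ψ := by
  unfold En
  rw [iter_add_aux]

theorem iter_smul_aux (μ : Finset X → ℝ) (Y : Finset X) (fl : Finset X → Finset X → Prop) (n : ℕ)
    (c : ℝ) (φ : Finset X → ℕ → ℝ) :
    ((stepE μ Y fl)^[n] (fun U f => c * φ U f))
      = fun U f => c * ((stepE μ Y fl)^[n] φ) U f := by
  induction n with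
  | zero => rfl
  | succ n ih =>
    rw [Function.iterate_succ_apply', Function.iterate_succ_apply', ih]
    funext U f
    unfold stepE
    rw [Finset.mul_sum]
    refine Finset.sum_congr rfl (fun S _ => ?_)
    ring

theorem En_smul (μ : Finset X → ℝ) (Y : Finset X) (fl : Finset X → Finset X → Prop) (n : ℕ)
    (c : ℝ) (φ : Finset X → ℕ → ℝ) :
    En μ Y fl n (fun U f => c * φ U f) = c * En μ Y fl n φ := by
  unfold En
  rw [iter_smul_aux]

theorem iter_const_aux {μ : Finset X → ℝ} (hμ1 : ∑ S, μ S = 1) (Y : Finset X)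
    (fl : Finset X → Finset X → Prop) (n : ℕ) (c : ℝ) :
    ((stepE μ Y fl)^[n] (fun _ _ => c)) = fun _ _ => c := by
  induction n with
  | zero => rfl
  | succ n ih =>
    rw [Function.iterate_succ_apply', ih]
    funext U f
    unfold stepE
    rw [← Finset.sum_mul, hμ1, one_mul]

theorem En_const {μ : Finset X → ℝ} (hμ1 : ∑ S, μ S = 1) (Y : Finset X)
    (fl : Finset X → Finset X → Prop) (n : ℕ) (c : ℝ) :
    En μ Y fl n (fun _ _ => c) = c := by
  unfold En
  rw [iter_const_aux hμ1]

/-- `E_{n+1} φ = E_n (stepE φ)`. -/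
theorem En_succ (μ : Finset X → ℝ) (Y : Finset X) (fl : Finset X → Finset X → Prop) (n : ℕ)
    (φ : Finset X → ℕ → ℝ) : En μ Y fl (n + 1) φ = En μ Y fl n (stepE μ Y fl φ) := by
  unfold En
  rw [Function.iterate_succ_apply]

open Classical in
theorem iter_subset_aux (μ : Finset X → ℝ) (Y : Finset X) (fl : Finset X → Finset X → Prop)
    (n : ℕ) (V : Finset X) :
    ((stepE μ Y fl)^[n] (fun U _ => if U ⊆ V then 1 else 0))
      = fun U _ => if U ⊆ V then
        (∑ S ∈ univ.filter (fun S : Finset X => S ∩ Y ⊆ V), μ S) ^ n else 0 := by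
  induction n with
  | zero => simp
  | succ n ih =>
    rw [Function.iterate_succ_apply', ih]
    funext U f
    show ∑ S, μ S * (if U ∪ (S ∩ Y) ⊆ V then
        (∑ S ∈ univ.filter (fun S : Finset X => S ∩ Y ⊆ V), μ S) ^ n else 0) = _
    set c : ℝ := (∑ S ∈ univ.filter (fun S : Finset X => S ∩ Y ⊆ V), μ S) with hc
    by_cases hU : U ⊆ V
    · rw [if_pos hU, pow_succ, mul_comm (c ^ n) c]
      nth_rewrite 2 [hc]
      rw [Finset.sum_mul, Finset.sum_filter]
      refine Finset.sum_congr rfl (fun S _ => ?_)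
      by_cases hS : S ∩ Y ⊆ V
      · rw [if_pos (Finset.union_subset hU hS), if_pos hS]
      · rw [if_neg (fun h => hS ((Finset.union_subset_iff.mp h).2)), if_neg hS]
        simp
    · rw [if_neg hU]
      refine Finset.sum_eq_zero (fun S _ => ?_)
      rw [if_neg (fun h => hU ((Finset.union_subset_iff.mp h).1)), mul_zero]

open Classical in
theorem En_subset (μ : Finset X → ℝ) (Y : Finset X) (fl : Finset X → Finset X → Prop) (n : ℕ)
    (V : Finset X) :
    En μ Y fl n (fun U _ => if U ⊆ V then 1 else 0)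
      = (∑ S ∈ univ.filter (fun S : Finset X => S ∩ Y ⊆ V), μ S) ^ n := by
  unfold En
  rw [iter_subset_aux]
  simp

theorem iter_notMem_aux (μ : Finset X → ℝ) (Y : Finset X) (fl : Finset X → Finset X → Prop)
    (n : ℕ) {z : X} (hz : z ∈ Y) :
    ((stepE μ Y fl)^[n] (fun U _ => if z ∈ U then 0 else 1))
      = fun U _ => if z ∈ U then 0 else
        (∑ S ∈ univ.filter (fun S : Finset X => z ∉ S), μ S) ^ n := by
  induction n with
  | zero => simp
  | succ n ih =>
    rw [Function.iterate_succ_apply', ih]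
    funext U f
    show ∑ S, μ S * (if z ∈ U ∪ (S ∩ Y) then 0 else
        (∑ S ∈ univ.filter (fun S : Finset X => z ∉ S), μ S) ^ n) = _
    set c : ℝ := (∑ S ∈ univ.filter (fun S : Finset X => z ∉ S), μ S) with hc
    by_cases hU : z ∈ U
    · rw [if_pos hU]
      refine Finset.sum_eq_zero (fun S _ => ?_)
      rw [if_pos (Finset.mem_union_left _ hU), mul_zero]
    · rw [if_neg hU, pow_succ, mul_comm (c ^ n) c]
      nth_rewrite 2 [hc]
      rw [Finset.sum_mul, Finset.sum_filter]
      refine Finset.sum_congr rfl (fun S _ => ?_)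
      by_cases hS : z ∈ S
      · rw [if_pos (Finset.mem_union_right _ (Finset.mem_inter.mpr ⟨hS, hz⟩)),
          if_neg (fun h => h hS)]
        simp
      · rw [if_neg, if_pos hS]
        intro h
        rcases Finset.mem_union.mp h with h | h
        · exact hU h
        · exact hS (Finset.mem_inter.mp h).1

theorem En_notMem (μ : Finset X → ℝ) (Y : Finset X) (fl : Finset X → Finset X → Prop) (n : ℕ)
    {z : X} (hz : z ∈ Y) :
    En μ Y fl n (fun U _ => if z ∈ U then 0 else 1)
      = (∑ S ∈ univ.filter (fun S : Finset X => z ∉ S), μ S) ^ n := by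
  unfold En
  rw [iter_notMem_aux μ Y fl n hz]
  simp

open Classical in
theorem En_flags {μ : Finset X → ℝ} (hμ1 : ∑ S, μ S = 1) (Y : Finset X)
    (fl : Finset X → Finset X → Prop) (n : ℕ) :
    En μ Y fl n (fun _ f => (f : ℝ))
      = ∑ j ∈ range n, En μ Y fl j
          (fun U _ => ∑ S ∈ univ.filter (fun S : Finset X => fl U S), μ S) := by
  induction n with
  | zero => simp [En]
  | succ n ih =>
    rw [En_succ, Finset.sum_range_succ, ← ih, ← En_add]
    congr 1
    funext U f
    unfold stepE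
    rw [Finset.sum_filter]
    have h1 : (f : ℝ) = ∑ S, μ S * (f : ℝ) := by rw [← Finset.sum_mul, hμ1, one_mul]
    rw [h1, ← Finset.sum_add_distrib]
    refine Finset.sum_congr rfl (fun S _ => ?_)
    by_cases h : fl U S
    · simp only [if_pos h]; push_cast; ring
    · simp only [if_neg h]; ring

theorem geom_le (K u : ℕ) : ∑ i ∈ range u, K ^ i ≤ (K + 1) ^ u := by
  induction u with
  | zero => simp
  | succ u ih =>
    rw [Finset.sum_range_succ']
    have h1 : ∑ i ∈ range u, K ^ (i + 1) = K * ∑ i ∈ range u, K ^ i := by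
      rw [Finset.mul_sum]
      exact Finset.sum_congr rfl (fun i _ => by ring)
    rw [h1, pow_zero]
    have h2 : 1 ≤ (K + 1) ^ u := Nat.one_le_pow _ _ (Nat.succ_pos K)
    calc K * ∑ i ∈ range u, K ^ i + 1 ≤ K * (K + 1) ^ u + (K + 1) ^ u :=
          Nat.add_le_add (Nat.mul_le_mul_left K ih) h2
      _ = (K + 1) ^ (u + 1) := by ring

theorem card_small_subsets (Y : Finset X) (u K : ℕ) (hK : Y.card ≤ K) :
    (((Y.powerset.filter (fun V => V.card < u)).card : ℕ) : ℝ) ≤ ((K : ℝ) + 1) ^ u := by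
  have h1 : (Y.powerset.filter (fun V => V.card < u)).card ≤ ∑ i ∈ range u, K ^ i := by
    induction u with
    | zero => simp
    | succ u ih =>
      have h2 : Y.powerset.filter (fun V => V.card < u + 1)
          ⊆ Y.powerset.filter (fun V => V.card < u) ∪ Y.powersetCard u := by
        intro V hV
        rw [Finset.mem_filter, Finset.mem_powerset] at hV
        rw [Finset.mem_union, Finset.mem_filter, Finset.mem_powerset, Finset.mem_powersetCard]
        by_cases h : V.card < u
        · exact Or.inl ⟨hV.1, h⟩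
        · exact Or.inr ⟨hV.1, by omega⟩
      rw [Finset.sum_range_succ]
      calc (Y.powerset.filter (fun V => V.card < u + 1)).card
          ≤ _ := Finset.card_le_card h2
        _ ≤ (Y.powerset.filter (fun V => V.card < u)).card + (Y.powersetCard u).card :=
            Finset.card_union_le _ _
        _ ≤ _ := by
            refine Nat.add_le_add ih ?_
            rw [Finset.card_powersetCard]
            exact (Nat.choose_le_pow _ _).trans (Nat.pow_le_pow_left hK u)
  exact_mod_cast h1.trans (geom_le K u)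

/-- lower bound for the discounted flag functional restricted to large unions. -/
theorem chain_lower {μ : Finset X → ℝ} (hμ : ∀ S, 0 ≤ μ S) (hμ1 : ∑ S, μ S = 1) {T : ℕ}
    (hT : ∀ S, μ S ≠ 0 → S.card ≤ T) {Y : Finset X} (fl : Finset X → Finset X → Prop)
    {n u K M : ℕ} {δ ξ : ℝ} (hK : Y.card ≤ K) (hδ0 : 0 ≤ δ) (hδ1 : δ ≤ 1)
    (hV : ∀ V ⊆ Y, V.card < u →
      ∑ S ∈ univ.filter (fun S : Finset X => S ∩ Y ⊆ V), μ S ≤ 1 - δ)
    (hn : ((K : ℝ) + 1) ^ u * (1 - δ) ^ n ≤ 1 / 4) (hM : 1 ≤ M)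
    (hfl : En μ Y fl n (fun _ f => (f : ℝ)) ≤ M / 2) (hξ0 : 0 < ξ) (hξ1 : ξ ≤ 1) :
    (1 / 4) * ξ ^ M ≤ En μ Y fl n (fun U f => (if u ≤ U.card then 1 else 0) * ξ ^ f) := by
  classical
  have hM0 : (0 : ℝ) < M := by exact_mod_cast hM
  -- the comparison function
  set small : Finset (Finset X) := Y.powerset.filter (fun V => V.card < u) with hsmall
  have hcomp : En μ Y fl n (fun U f => (ξ ^ M + (-(ξ ^ M / M)) * (f : ℝ)) +
        (-(ξ ^ M)) * ∑ V ∈ small, (if U ⊆ V then (1 : ℝ) else 0))
      ≤ En μ Y fl n (fun U f => (if u ≤ U.card then 1 else 0) * ξ ^ f) := by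
    refine En_mono hμ hT Y fl n (fun U hU _ f => ?_)
    have hξM : 0 < ξ ^ M := by positivity
    have hξf : 0 < ξ ^ f := by positivity
    by_cases hc : u ≤ U.card
    · rw [if_pos hc, one_mul]
      have h1 : 0 ≤ ∑ V ∈ small, (if U ⊆ V then (1 : ℝ) else 0) :=
        Finset.sum_nonneg (fun V _ => by split_ifs <;> norm_num)
      have h2 : (ξ ^ M + (-(ξ ^ M / M)) * (f : ℝ)) ≤ ξ ^ f := by
        by_cases hf : M ≤ f
        · have h3 : (M : ℝ) ≤ f := by exact_mod_cast hf
          have h4 : ξ ^ M / M * M ≤ ξ ^ M / M * f :=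
            mul_le_mul_of_nonneg_left h3 (by positivity)
          rw [div_mul_cancel₀ _ hM0.ne'] at h4
          linarith
        · have h3 : ξ ^ M ≤ ξ ^ f := pow_le_pow_of_le_one hξ0.le hξ1 (by omega)
          have h4 : 0 ≤ ξ ^ M / M * f := by positivity
          linarith
      nlinarith
    · rw [if_neg hc, zero_mul]
      have h1 : (1 : ℝ) ≤ ∑ V ∈ small, (if U ⊆ V then (1 : ℝ) else 0) := by
        have hmem : U ∈ small := by
          rw [hsmall, Finset.mem_filter, Finset.mem_powerset]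
          exact ⟨hU, by omega⟩
        have := Finset.single_le_sum (f := fun V => if U ⊆ V then (1 : ℝ) else 0)
          (fun V _ => by split_ifs <;> norm_num) hmem
        simpa using this
      have h4 : 0 ≤ ξ ^ M / M * f := by positivity
      nlinarith
  refine le_trans ?_ hcomp
  rw [En_add, En_add, En_const hμ1, En_smul, En_smul]
  -- expectation of the sum over small sets
  have hS : En μ Y fl n (fun U _ => ∑ V ∈ small, (if U ⊆ V then (1 : ℝ) else 0)) ≤ 1 / 4 := by
    have h1 : ∀ s : Finset (Finset X),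
        En μ Y fl n (fun U _ => ∑ V ∈ s, (if U ⊆ V then (1 : ℝ) else 0))
          = ∑ V ∈ s, En μ Y fl n (fun U _ => if U ⊆ V then (1 : ℝ) else 0) := by
      intro s
      induction s using Finset.induction_on with
      | empty =>
        simp only [Finset.sum_empty]
        exact En_const hμ1 Y fl n 0
      | insert a s ha ih =>
        simp only [Finset.sum_insert ha]
        rw [En_add, ih]
    rw [h1]
    have h2 : ∀ V ∈ small, En μ Y fl n (fun U _ => if U ⊆ V then (1 : ℝ) else 0)
        ≤ (1 - δ) ^ n := by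
      intro V hVs
      rw [En_subset]
      rw [hsmall, Finset.mem_filter, Finset.mem_powerset] at hVs
      exact pow_le_pow_left₀ (Finset.sum_nonneg (fun S _ => hμ S)) (hV V hVs.1 hVs.2) n
    calc ∑ V ∈ small, En μ Y fl n (fun U _ => if U ⊆ V then (1 : ℝ) else 0)
        ≤ ∑ V ∈ small, (1 - δ) ^ n := Finset.sum_le_sum h2
      _ = small.card * (1 - δ) ^ n := by rw [Finset.sum_const, nsmul_eq_mul]
      _ ≤ ((K : ℝ) + 1) ^ u * (1 - δ) ^ n :=
          mul_le_mul_of_nonneg_right (card_small_subsets Y u K hK)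
            (pow_nonneg (by linarith) n)
      _ ≤ 1 / 4 := hn
  have hξM : 0 < ξ ^ M := by positivity
  have h5 : ξ ^ M / M * En μ Y fl n (fun _ f => (f : ℝ)) ≤ ξ ^ M / M * (M / 2) :=
    mul_le_mul_of_nonneg_left hfl (by positivity)
  have h6 : ξ ^ M / M * (M / 2) = ξ ^ M / 2 := by field_simp
  have h7 : ξ ^ M * En μ Y fl n (fun U _ => ∑ V ∈ small, (if U ⊆ V then (1 : ℝ) else 0))
      ≤ ξ ^ M * (1 / 4) := mul_le_mul_of_nonneg_left hS hξM.le
  rw [h6] at h5
  linarith

end Vale.Agent.P034
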