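import Vale.Agent.P034.Wgt
import Vale.Agent.P034.Rounding
import Vale.Agent.P034.Cover

/-! Module G2: cover from the sampling chain. -/

namespace Vale.Agent.P034
open Finset
variable {X : Type*} [Fintype X] [DecidableEq X]

open Classical in
theorem chain_cover {q : ℝ} (hq0 : 0 < q) (hq1 : q ≤ 1) {P : Finset X → Prop}
    {ω : Finset X → Finset X → ℝ} (hω : ∀ U σ, 0 ≤ ω U σ) {ρ : ℝ} (hρ : 0 ≤ ρ)
    (hcost : ∀ U, P U →
      ∑ σ ∈ univ.filter (fun σ : Finset X => Disjoint σ U), ω U σ * q ^ σ.card ≤ ρ)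
    {T n u K M : ℕ} {δ ξ : ℝ} (hδ0 : 0 ≤ δ) (hδ1 : δ ≤ 1) (hξ0 : 0 < ξ) (hξ1 : ξ ≤ 1)
    (hu : 1 ≤ u) (hM : 1 ≤ M)
    (hn : ((K : ℝ) + 1) ^ u * (1 - δ) ^ n ≤ 1 / 4) (hρn : ρ ^ n ≤ (1 / 4) * ξ ^ M)
    (hKu : (K : ℝ) ≤ Real.exp ((u : ℝ) / 8))
    (𝒴 : Set (Finset X))
    (h𝒴 : ∀ Y ∈ 𝒴, Y.card ≤ K ∧ (∀ U ⊆ Y, U.card ≤ T * n → P U) ∧
      ∃ (μ : Finset X → ℝ) (fl : Finset X → Finset X → Prop), (∀ S, 0 ≤ μ S) ∧ ∑ S, μ S = 1 ∧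
        (∀ S, μ S ≠ 0 → S.card ≤ T) ∧
        (∀ V ⊆ Y, V.card < u →
          ∑ S ∈ univ.filter (fun S : Finset X => S ∩ Y ⊆ V), μ S ≤ 1 - δ) ∧
        (∀ U ⊆ Y, U.card ≤ T * n → ∀ σ ⊆ Y \ U,
          ∑ S ∈ univ.filter (fun S : Finset X => (S ∩ Y) \ U = σ),
            μ S * (if fl U S then ξ else 1) ≤ ω U σ) ∧
        En μ Y fl n (fun _ f => (f : ℝ)) ≤ M / 2) :
    Cov (q / 8) (10 * Real.exp (-(u : ℝ) / 2)) 𝒴 := by
  have hξM : 0 < ξ ^ M := pow_pos hξ0 M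
  set g : Finset X → ℝ := fun U =>
    4 * (ξ ^ M)⁻¹ * (wgt P ω n U * (if u ≤ U.card then 1 else 0)) with hg
  have hc0 : 0 ≤ 4 * (ξ ^ M)⁻¹ := by positivity
  have hind : ∀ U : Finset X, (0 : ℝ) ≤ (if u ≤ U.card then 1 else 0) := by
    intro U; split_ifs <;> norm_num
  have hg0 : ∀ U, 0 ≤ g U := fun U =>
    mul_nonneg hc0 (mul_nonneg (wgt_nonneg hω n U) (hind U))
  have hsupp : ∀ U, g U ≠ 0 → u ≤ U.card := by
    intro U hU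
    by_contra hcon
    exact hU (by simp only [hg, if_neg hcon]; ring)
  have hγ : ∑ U, g U * q ^ U.card ≤ 1 := by
    have h1 : ∑ U, g U * q ^ U.card ≤ ∑ U, 4 * (ξ ^ M)⁻¹ * (wgt P ω n U * q ^ U.card) := by
      refine Finset.sum_le_sum (fun U _ => ?_)
      have hq : 0 ≤ q ^ U.card := pow_nonneg hq0.le _
      have hw := wgt_nonneg (P := P) hω n U
      have h2 : wgt P ω n U * (if u ≤ U.card then 1 else 0) ≤ wgt P ω n U := by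
        split_ifs
        · simp
        · simpa using hw
      calc g U * q ^ U.card
          = 4 * (ξ ^ M)⁻¹ * ((wgt P ω n U * (if u ≤ U.card then 1 else 0)) * q ^ U.card) := by
            simp only [hg]; ring
        _ ≤ 4 * (ξ ^ M)⁻¹ * (wgt P ω n U * q ^ U.card) :=
            mul_le_mul_of_nonneg_left (mul_le_mul_of_nonneg_right h2 hq) hc0
    rw [← Finset.mul_sum] at h1
    have h3 := wgt_cost (P := P) hq0.le hω hρ hcost n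
    calc ∑ U, g U * q ^ U.card ≤ 4 * (ξ ^ M)⁻¹ * ∑ U, wgt P ω n U * q ^ U.card := h1
      _ ≤ 4 * (ξ ^ M)⁻¹ * ((1 / 4) * ξ ^ M) :=
          mul_le_mul_of_nonneg_left (h3.trans hρn) hc0
      _ = 1 := by field_simp
  refine Cov_mono (roundBig hq0 hq1 g hg0 hu hsupp hγ hKu) le_rfl ?_
  intro Y hY
  obtain ⟨hYK, hP, μ, fl, hμ, hμ1, hT, hV, hdom, hfl⟩ := h𝒴 Y hY
  refine ⟨hYK, ?_⟩
  have h1 := chain_lower hμ hμ1 hT fl hYK hδ0 hδ1 hV hn hM hfl hξ0 hξ1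
  have h2 := wgt_lower hω hμ hT hξ0 hP hdom (fun U => if u ≤ U.card then 1 else 0) hind
  calc (1 : ℝ) = 4 * (ξ ^ M)⁻¹ * ((1 / 4) * ξ ^ M) := by field_simp
    _ ≤ 4 * (ξ ^ M)⁻¹ * ∑ U ∈ Y.powerset, wgt P ω n U * (if u ≤ U.card then 1 else 0) :=
        mul_le_mul_of_nonneg_left (h1.trans h2) hc0
    _ = ∑ U ∈ Y.powerset, g U := by rw [Finset.mul_sum]

end Vale.Agent.P034
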