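import Vale.Agent.P034.Defs

/-! Module L: laminar families and the ring lemma. -/

set_option linter.unusedSectionVars false

namespace Vale.Agent.P034
open Finset
variable {X : Type*} [Fintype X] [DecidableEq X]

theorem ell_mono {𝒩 𝒩' : Finset (Finset X)} (h : 𝒩 ⊆ 𝒩') : ell 𝒩 ≤ ell 𝒩' := by
  classical
  unfold ell
  apply Finset.sup_mono
  intro L hL
  rw [mem_filter, mem_powerset] at hL ⊢
  exact ⟨hL.1.trans h, hL.2⟩

theorem card_le_ell {L 𝒩 : Finset (Finset X)} (h : L ⊆ 𝒩) (hL : IsLam L) : L.card ≤ ell 𝒩 := by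
  classical
  unfold ell
  apply Finset.le_sup (f := Finset.card)
  rw [mem_filter, mem_powerset]
  exact ⟨h, hL⟩

theorem exists_ell (𝒩 : Finset (Finset X)) : ∃ L ⊆ 𝒩, IsLam L ∧ L.card = ell 𝒩 := by
  classical
  have hne : (𝒩.powerset.filter (fun ℒ => IsLam ℒ)).Nonempty := by
    refine ⟨∅, ?_⟩
    rw [mem_filter]
    refine ⟨by simp, ?_⟩
    intro A hA
    simp at hA
  obtain ⟨L, hL, hLe⟩ := Finset.exists_mem_eq_sup _ hne Finset.card
  rw [mem_filter, mem_powerset] at hL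
  refine ⟨L, hL.1, hL.2, ?_⟩
  unfold ell
  convert hLe.symm

theorem IsLam.subset {L L' : Finset (Finset X)} (h : IsLam L) (h' : L' ⊆ L) : IsLam L' :=
  fun A hA B hB => h A (h' hA) B (h' hB)

theorem IsLam.insert' {L : Finset (Finset X)} (h : IsLam L) (M : Finset X)
    (hM : ∀ N ∈ L, Disjoint N M ∨ M ⊆ N) : IsLam (insert M L) := by
  intro A hA B hB
  rw [mem_insert] at hA hB
  rcases hA with rfl | hA
  · rcases hB with rfl | hB
    · right; left; exact Finset.Subset.refl _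
    · rcases hM B hB with h1 | h1
      · left; exact h1.symm
      · right; left; exact h1
  · rcases hB with rfl | hB
    · rcases hM A hA with h1 | h1
      · left; exact h1
      · right; right; exact h1
    · exact h A hA B hB

theorem IsLam.image_sdiff {L : Finset (Finset X)} (h : IsLam L) (M : Finset X) :
    IsLam (L.image (fun N => N \ M)) := by
  intro A hA B hB
  rw [mem_image] at hA hB
  obtain ⟨A', hA', rfl⟩ := hA
  obtain ⟨B', hB', rfl⟩ := hB
  rcases h A' hA' B' hB' with h1 | h1 | h1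
  · left
    exact Finset.disjoint_of_subset_left sdiff_subset
      (Finset.disjoint_of_subset_right sdiff_subset h1)
  · right; left
    exact Finset.sdiff_subset_sdiff h1 (Finset.Subset.refl _)
  · right; right
    exact Finset.sdiff_subset_sdiff h1 (Finset.Subset.refl _)

/-- structure of collisions -/
theorem collision {M A B : Finset X} (hA : Disjoint A M ∨ M ⊆ A) (hB : Disjoint B M ∨ M ⊆ B)
    (hAB : A \ M = B \ M) (hne : A ≠ B) :
    (Disjoint A M ∧ B = A ∪ M) ∨ (Disjoint B M ∧ A = B ∪ M) := by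
  rcases hA with hA | hA
  · rcases hB with hB | hB
    · exfalso
      apply hne
      rw [Finset.sdiff_eq_self_of_disjoint hA, Finset.sdiff_eq_self_of_disjoint hB] at hAB
      exact hAB
    · left
      refine ⟨hA, ?_⟩
      rw [Finset.sdiff_eq_self_of_disjoint hA] at hAB
      rw [hAB]
      exact (Finset.sdiff_union_of_subset hB).symm
  · rcases hB with hB | hB
    · right
      refine ⟨hB, ?_⟩
      rw [Finset.sdiff_eq_self_of_disjoint hB] at hAB
      rw [← hAB]
      exact (Finset.sdiff_union_of_subset hA).symm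
    · exfalso
      apply hne
      rw [← Finset.sdiff_union_of_subset hA, ← Finset.sdiff_union_of_subset hB, hAB]

/-- two collisions coincide -/
theorem collision_unique {L : Finset (Finset X)} (h : IsLam L) (hne : ∀ N ∈ L, N.Nonempty)
    {M N₁ N₃ : Finset X} (hM : M.Nonempty) (h1 : N₁ ∈ L) (h1' : N₁ ∪ M ∈ L) (d1 : Disjoint N₁ M)
    (h3 : N₃ ∈ L) (h3' : N₃ ∪ M ∈ L) (d3 : Disjoint N₃ M) : N₁ = N₃ := by
  -- general half
  have key : ∀ P Q : Finset X, P ∈ L → Q ∈ L → P ∪ M ∈ L → Disjoint P M → Disjoint Q M →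
      P ∪ M ⊆ Q ∪ M → P = Q := by
    intro P Q hP hQ hPM dP dQ hsub
    have hPQ : P ⊆ Q := by
      intro x hx
      have : x ∈ Q ∪ M := hsub (mem_union_left _ hx)
      rcases mem_union.1 this with h' | h'
      · exact h'
      · exact absurd h' (Finset.disjoint_left.1 dP hx)
    rcases h Q hQ (P ∪ M) hPM with h' | h' | h'
    · exfalso
      obtain ⟨x, hx⟩ := hne P hP
      exact Finset.disjoint_left.1 h' (hPQ hx) (mem_union_left _ hx)
    · apply Finset.Subset.antisymm hPQ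
      intro x hx
      rcases mem_union.1 (h' hx) with h'' | h''
      · exact h''
      · exact absurd h'' (Finset.disjoint_left.1 dQ hx)
    · exfalso
      obtain ⟨x, hx⟩ := hM
      exact Finset.disjoint_left.1 dQ (h' (mem_union_right _ hx)) hx
  rcases h (N₁ ∪ M) h1' (N₃ ∪ M) h3' with h' | h' | h'
  · exfalso
    obtain ⟨x, hx⟩ := hM
    exact Finset.disjoint_left.1 h' (mem_union_right _ hx) (mem_union_right _ hx)
  · exact key N₁ N₃ h1 h3 h1' d1 d3 h'
  · exact (key N₃ N₁ h3 h1 h3' d3 d1 h').symm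

theorem card_image_sdiff {L : Finset (Finset X)} (h : IsLam L) (hne : ∀ N ∈ L, N.Nonempty)
    {M : Finset X} (hM : M.Nonempty) (hd : ∀ N ∈ L, Disjoint N M ∨ M ⊆ N) :
    L.card ≤ (L.image (fun N => N \ M)).card + 1 := by
  classical
  by_cases hinj : Set.InjOn (fun N : Finset X => N \ M) (L : Set (Finset X))
  · rw [Finset.card_image_of_injOn hinj]
    omega
  · -- there is a collision
    have hex : ∃ N₁ ∈ L, N₁ ∪ M ∈ L ∧ Disjoint N₁ M := by
      unfold Set.InjOn at hinj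
      push Not at hinj
      obtain ⟨A, hA, B, hB, hAB, hne'⟩ := hinj
      rw [mem_coe] at hA hB
      rcases collision (hd A hA) (hd B hB) hAB hne' with ⟨h1, h2⟩ | ⟨h1, h2⟩
      · exact ⟨A, hA, h2 ▸ hB, h1⟩
      · exact ⟨B, hB, h2 ▸ hA, h1⟩
    obtain ⟨N₁, hN₁, hN₁', d1⟩ := hex
    have hinj' : Set.InjOn (fun N : Finset X => N \ M) ((L.erase N₁ : Finset (Finset X)) :
        Set (Finset X)) := by
      intro A hA B hB hAB
      rw [mem_coe, mem_erase] at hA hB
      by_contra hne'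
      rcases collision (hd A hA.2) (hd B hB.2) hAB hne' with ⟨h1, h2⟩ | ⟨h1, h2⟩
      · apply hA.1
        exact (collision_unique h hne hM hN₁ hN₁' d1 hA.2 (h2 ▸ hB.2) h1).symm
      · apply hB.1
        exact (collision_unique h hne hM hN₁ hN₁' d1 hB.2 (h2 ▸ hA.2) h1).symm
    have h1 : (L.erase N₁).card ≤ (L.image (fun N => N \ M)).card := by
      rw [← Finset.card_image_of_injOn hinj']
      exact Finset.card_le_card (Finset.image_subset_image (Finset.erase_subset _ _))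
    have h2 : L.card = (L.erase N₁).card + 1 := (Finset.card_erase_add_one hN₁).symm
    omega

theorem lam_card_le (E : Finset X) : ∀ L : Finset (Finset X), IsLam L →
    (∀ N ∈ L, N ⊆ E ∧ N.Nonempty) → L.card ≤ 2 * E.card := by
  classical
  induction E using Finset.induction_on with
  | empty =>
    intro L _ hL
    have : L = ∅ := by
      rw [Finset.eq_empty_iff_forall_notMem]
      intro N hN
      obtain ⟨h1, h2⟩ := hL N hN
      rw [Finset.subset_empty] at h1
      rw [h1] at h2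
      exact Finset.not_nonempty_empty h2
    simp [this]
  | insert x E hx ih =>
    intro L hlam hL
    have hlam1 : IsLam (L.erase {x}) := hlam.subset (Finset.erase_subset _ _)
    have hd : ∀ N ∈ L.erase {x}, Disjoint N {x} ∨ {x} ⊆ N := by
      intro N _
      by_cases hxN : x ∈ N
      · right; simpa using hxN
      · left; simpa using hxN
    have h1 := card_image_sdiff hlam1 (fun N hN => (hL N (mem_of_mem_erase hN)).2)
      (M := {x}) (by simp) hd
    have h2 := ih ((L.erase {x}).image (fun N => N \ {x})) (hlam1.image_sdiff _) (by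
      intro N hN
      rw [mem_image] at hN
      obtain ⟨N', hN', rfl⟩ := hN
      rw [mem_erase] at hN'
      obtain ⟨h3, h4⟩ := hL N' hN'.2
      constructor
      · intro y hy
        rw [mem_sdiff, mem_singleton] at hy
        rcases mem_insert.1 (h3 hy.1) with h5 | h5
        · exact absurd h5 hy.2
        · exact h5
      · rw [Finset.sdiff_nonempty]
        intro h5
        rcases Finset.subset_singleton_iff.1 h5 with h6 | h6
        · rw [h6] at h4
          exact Finset.not_nonempty_empty h4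
        · exact hN'.1 h6)
    have h3 : L.card ≤ (L.erase {x}).card + 1 := by
      have := Finset.pred_card_le_card_erase (s := L) (a := ({x} : Finset X))
      omega
    rw [Finset.card_insert_of_notMem hx]
    omega

theorem ell_le {E : Finset X} {𝒩 : Finset (Finset X)} (h : ∀ N ∈ 𝒩, N ⊆ E ∧ N.Nonempty) :
    ell 𝒩 ≤ 2 * E.card := by
  obtain ⟨L, hL, hlam, hc⟩ := exists_ell 𝒩
  rw [← hc]
  exact lam_card_le E L hlam (fun N hN => h N (hL hN))

theorem pow_bound {a b A B : ℕ} (h1 : a + 1 ≤ A) (h2 : B ≤ b + 1) :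
    (4 : ℝ) ^ a / 2 ^ b ≤ (4 ^ A / 2 ^ B) / 2 := by
  have e1 : (4 : ℝ) ^ a / 2 ^ b = (4 ^ (a + 1) / 2 ^ (b + 1)) / 2 := by
    rw [pow_succ, pow_succ]
    field_simp
    ring
  rw [e1]
  apply div_le_div_of_nonneg_right _ (by norm_num)
  apply div_le_div₀ (by positivity)
  · exact pow_le_pow_right₀ (by norm_num) h1
  · positivity
  · exact pow_le_pow_right₀ (by norm_num) h2

open Classical in
theorem ring_state (E : Finset X) (𝒯 : Finset (Finset X)) (hE : ∀ A ∈ 𝒯, A ⊆ E)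
    (hU : ∀ A ∈ 𝒯, ∀ B ∈ 𝒯, A ∪ B ∈ 𝒯) (hI : ∀ A ∈ 𝒯, ∀ B ∈ 𝒯, A ∩ B ∈ 𝒯)
    (τ : Finset X) (L : Finset (Finset X)) (hτ : τ ∈ 𝒯) (hlam : IsLam L)
    (hL : ∀ N ∈ L, N.Nonempty ∧ Disjoint N τ ∧ τ ∪ N ∈ 𝒯) :
    ∑ σ ∈ 𝒯.filter (fun σ => τ ⊆ σ ∧ ∀ N ∈ L, ¬ N ⊆ σ),
      (4 : ℝ) ^ (E \ σ).card / 2 ^ ell (resid 𝒯 E σ) ≤ 4 ^ (E \ τ).card / 2 ^ L.card := by
  by_cases hcase : ∃ M : Finset X, (M.Nonempty ∧ Disjoint M τ ∧ τ ∪ M ∈ 𝒯) ∧
      (∀ M' : Finset X, (M'.Nonempty ∧ Disjoint M' τ ∧ τ ∪ M' ∈ 𝒯) → M' ⊆ M → M' = M) ∧ M ∉ L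
  · obtain ⟨M, ⟨hM1, hM2, hM3⟩, hmin, hML⟩ := hcase
    have hd : ∀ N ∈ L, Disjoint N M ∨ M ⊆ N := by
      intro N hN
      obtain ⟨hN1, hN2, hN3⟩ := hL N hN
      by_cases hNM : (N ∩ M).Nonempty
      · right
        have h1 : (N ∩ M) = M := by
          apply hmin _ ⟨hNM, ?_, ?_⟩ inter_subset_right
          · exact Finset.disjoint_of_subset_left inter_subset_left hN2
          · have := hI _ hN3 _ hM3
            rwa [← Finset.union_inter_distrib_left] at this
        rw [← h1]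
        exact inter_subset_left
      · left
        rw [Finset.not_nonempty_iff_eq_empty] at hNM
        exact Finset.disjoint_iff_inter_eq_empty.2 hNM
    have hcardE : (E \ (τ ∪ M)).card + 1 ≤ (E \ τ).card := by
      apply Finset.card_lt_card
      rw [Finset.ssubset_iff_of_subset (Finset.sdiff_subset_sdiff (Finset.Subset.refl _)
        Finset.subset_union_left)]
      obtain ⟨x, hx⟩ := hM1
      refine ⟨x, ?_, ?_⟩
      · rw [mem_sdiff]
        exact ⟨hE _ hM3 (mem_union_right _ hx), Finset.disjoint_left.1 hM2 hx⟩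
      · rw [mem_sdiff]
        intro h
        exact h.2 (mem_union_right _ hx)
    -- split the sum
    have hsplit : 𝒯.filter (fun σ => τ ⊆ σ ∧ ∀ N ∈ L, ¬ N ⊆ σ) =
        𝒯.filter (fun σ => τ ⊆ σ ∧ ∀ N ∈ insert M L, ¬ N ⊆ σ) ∪
        𝒯.filter (fun σ => τ ∪ M ⊆ σ ∧ ∀ N ∈ L.image (fun N => N \ M), ¬ N ⊆ σ) := by
      ext σ
      simp only [mem_filter, mem_union, mem_insert, mem_image]
      constructor
      · rintro ⟨h1, h2, h3⟩
        by_cases hMσ : M ⊆ σ
        · right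
          refine ⟨h1, Finset.union_subset h2 hMσ, ?_⟩
          rintro N ⟨N', hN', rfl⟩ h4
          apply h3 N' hN'
          intro x hx
          by_cases hxM : x ∈ M
          · exact hMσ hxM
          · exact h4 (mem_sdiff.2 ⟨hx, hxM⟩)
        · left
          refine ⟨h1, h2, ?_⟩
          rintro N (rfl | hN)
          · exact hMσ
          · exact h3 N hN
      · rintro (⟨h1, h2, h3⟩ | ⟨h1, h2, h3⟩)
        · exact ⟨h1, h2, fun N hN => h3 N (Or.inr hN)⟩
        · refine ⟨h1, Finset.subset_union_left.trans h2, ?_⟩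
          intro N hN h4
          exact h3 _ ⟨N, hN, rfl⟩ (sdiff_subset.trans h4)
    have hterm0 : ∀ σ : Finset X, 0 ≤ (4 : ℝ) ^ (E \ σ).card / 2 ^ ell (resid 𝒯 E σ) := by
      intro σ
      positivity
    have h1 := ring_state E 𝒯 hE hU hI τ (insert M L) hτ (hlam.insert' M hd) (by
      intro N hN
      rw [mem_insert] at hN
      rcases hN with rfl | hN
      · exact ⟨hM1, hM2, hM3⟩
      · exact hL N hN)
    have h2 := ring_state E 𝒯 hE hU hI (τ ∪ M) (L.image (fun N => N \ M)) hM3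
      (hlam.image_sdiff M) (by
      intro N hN
      rw [mem_image] at hN
      obtain ⟨N', hN', rfl⟩ := hN
      obtain ⟨hN1, hN2, hN3⟩ := hL N' hN'
      refine ⟨?_, ?_, ?_⟩
      · rcases hd N' hN' with h3 | h3
        · rw [Finset.sdiff_eq_self_of_disjoint h3]
          exact hN1
        · rw [Finset.sdiff_nonempty]
          intro h4
          exact hML ((Finset.Subset.antisymm h3 h4) ▸ hN')
      · rw [Finset.disjoint_union_right]
        exact ⟨Finset.disjoint_of_subset_left sdiff_subset hN2, Finset.sdiff_disjoint⟩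
      · have := hU _ hM3 _ hN3
        convert this using 1
        ext x
        simp only [mem_union, mem_sdiff]
        tauto)
    rw [hsplit]
    have h3 : ∑ σ ∈ 𝒯.filter (fun σ => τ ⊆ σ ∧ ∀ N ∈ insert M L, ¬ N ⊆ σ) ∪
        𝒯.filter (fun σ => τ ∪ M ⊆ σ ∧ ∀ N ∈ L.image (fun N => N \ M), ¬ N ⊆ σ),
        (4 : ℝ) ^ (E \ σ).card / 2 ^ ell (resid 𝒯 E σ) ≤
        ∑ σ ∈ 𝒯.filter (fun σ => τ ⊆ σ ∧ ∀ N ∈ insert M L, ¬ N ⊆ σ),
          (4 : ℝ) ^ (E \ σ).card / 2 ^ ell (resid 𝒯 E σ) +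
        ∑ σ ∈ 𝒯.filter (fun σ => τ ∪ M ⊆ σ ∧ ∀ N ∈ L.image (fun N => N \ M), ¬ N ⊆ σ),
          (4 : ℝ) ^ (E \ σ).card / 2 ^ ell (resid 𝒯 E σ) := by
      rw [← Finset.sum_union_inter]
      have : 0 ≤ ∑ σ ∈ (𝒯.filter (fun σ => τ ⊆ σ ∧ ∀ N ∈ insert M L, ¬ N ⊆ σ)) ∩
        (𝒯.filter (fun σ => τ ∪ M ⊆ σ ∧ ∀ N ∈ L.image (fun N => N \ M), ¬ N ⊆ σ)),
        (4 : ℝ) ^ (E \ σ).card / 2 ^ ell (resid 𝒯 E σ) :=
        Finset.sum_nonneg (fun σ _ => hterm0 σ)
      linarith
    refine h3.trans ?_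
    have h4 : (insert M L).card = L.card + 1 := Finset.card_insert_of_notMem hML
    rw [h4] at h1
    have h5 : (4 : ℝ) ^ (E \ τ).card / 2 ^ (L.card + 1) = (4 ^ (E \ τ).card / 2 ^ L.card) / 2 := by
      rw [pow_succ]
      field_simp
    have h6 := pow_bound hcardE (card_image_sdiff hlam (fun N hN => (hL N hN).1) hM1 hd)
    linarith
  · -- all minimal sets are in L
    have hsub : 𝒯.filter (fun σ => τ ⊆ σ ∧ ∀ N ∈ L, ¬ N ⊆ σ) ⊆ {τ} := by
      intro σ hσ
      rw [mem_filter] at hσ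
      obtain ⟨h1, h2, h3⟩ := hσ
      rw [mem_singleton]
      by_contra hne
      have hne' : (σ \ τ).Nonempty := by
        rw [Finset.sdiff_nonempty]
        intro h4
        exact hne (Finset.Subset.antisymm h4 h2)
      have hmem : (σ \ τ) ∈ (σ \ τ).powerset.filter
          (fun M => M.Nonempty ∧ Disjoint M τ ∧ τ ∪ M ∈ 𝒯) := by
        rw [mem_filter, mem_powerset]
        refine ⟨Finset.Subset.refl _, hne', Finset.sdiff_disjoint, ?_⟩
        rw [Finset.union_sdiff_of_subset h2]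
        exact h1
      obtain ⟨M, hM, hMmin⟩ := Finset.exists_min_image _ Finset.card ⟨_, hmem⟩
      rw [mem_filter, mem_powerset] at hM
      apply hcase
      refine ⟨M, hM.2, ?_, ?_⟩
      · intro M' hM' hsub'
        apply Finset.eq_of_subset_of_card_le hsub'
        apply hMmin
        rw [mem_filter, mem_powerset]
        exact ⟨hsub'.trans hM.1, hM'⟩
      · intro hML
        exact h3 M hML (hM.1.trans sdiff_subset)
    have hLr : L ⊆ resid 𝒯 E τ := by
      intro N hN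
      obtain ⟨hN1, hN2, hN3⟩ := hL N hN
      unfold resid
      rw [mem_filter, mem_powerset]
      refine ⟨?_, hN1, hN3⟩
      intro x hx
      rw [mem_sdiff]
      exact ⟨hE _ hN3 (mem_union_right _ hx), Finset.disjoint_left.1 hN2 hx⟩
    have hLe : L.card ≤ ell (resid 𝒯 E τ) := card_le_ell hLr hlam
    calc ∑ σ ∈ 𝒯.filter (fun σ => τ ⊆ σ ∧ ∀ N ∈ L, ¬ N ⊆ σ),
          (4 : ℝ) ^ (E \ σ).card / 2 ^ ell (resid 𝒯 E σ)
        ≤ ∑ σ ∈ {τ}, (4 : ℝ) ^ (E \ σ).card / 2 ^ ell (resid 𝒯 E σ) :=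
          Finset.sum_le_sum_of_subset_of_nonneg hsub (fun σ _ _ => by positivity)
      _ = (4 : ℝ) ^ (E \ τ).card / 2 ^ ell (resid 𝒯 E τ) := by rw [Finset.sum_singleton]
      _ ≤ 4 ^ (E \ τ).card / 2 ^ L.card := by
          apply div_le_div_of_nonneg_left (by positivity) (by positivity)
          exact pow_le_pow_right₀ (by norm_num) hLe
termination_by ((E \ τ).card, (Lᶜ).card)
decreasing_by
  · apply Prod.Lex.right
    apply Finset.card_lt_card
    rw [Finset.ssubset_iff_of_subset (Finset.compl_subset_compl.2 (Finset.subset_insert _ _))]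
    exact ⟨M, by simpa using hML, by simp⟩
  · apply Prod.Lex.left
    exact hcardE

open Classical in
theorem ring_lemma (E : Finset X) (𝒯 : Finset (Finset X)) (hE : ∀ A ∈ 𝒯, A ⊆ E) (h0 : ∅ ∈ 𝒯)
    (hU : ∀ A ∈ 𝒯, ∀ B ∈ 𝒯, A ∪ B ∈ 𝒯) (hI : ∀ A ∈ 𝒯, ∀ B ∈ 𝒯, A ∩ B ∈ 𝒯)
    (𝒩 : Finset (Finset X)) (h𝒩 : ∀ N ∈ 𝒩, N ∈ 𝒯 ∧ N.Nonempty) :
    ∑ σ ∈ 𝒯.filter (fun σ => ∀ N ∈ 𝒩, ¬ N ⊆ σ),
      (4 : ℝ) ^ (E \ σ).card / 2 ^ ell (resid 𝒯 E σ) ≤ 4 ^ E.card / 2 ^ ell 𝒩 := by
  obtain ⟨L, hL, hlam, hc⟩ := exists_ell 𝒩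
  have h := ring_state E 𝒯 hE hU hI ∅ L h0 hlam (by
    intro N hN
    obtain ⟨h1, h2⟩ := h𝒩 N (hL hN)
    refine ⟨h2, by simp, by simpa using h1⟩)
  rw [Finset.sdiff_empty, hc] at h
  refine le_trans ?_ h
  apply Finset.sum_le_sum_of_subset_of_nonneg
  · intro σ hσ
    rw [mem_filter] at hσ ⊢
    exact ⟨hσ.1, by simp, fun N hN => hσ.2 N (hL hN)⟩
  · intro σ _ _
    positivity

end Vale.Agent.P034
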