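import Vale.Agent.P034.Defs
import Vale.Agent.P034.Laminar

/-! Module M: basic facts on `lam`, `Good`, `Wt`, `Fh`. -/

set_option linter.unusedSectionVars false

namespace Vale.Agent.P034
open Finset
variable {X : Type*} [Fintype X] [DecidableEq X]

theorem lam_nonneg {w : Finset X → ℝ} {p : ℝ} (hw : ∀ S, 0 ≤ w S) (hp : 0 < p)
    (V A : Finset X) : 0 ≤ lam w p V A := by
  unfold lam
  exact Finset.sum_nonneg (fun S _ => mul_nonneg (hw S) (by positivity))

theorem lam_empty_eq (w : Finset X → ℝ) (p : ℝ) (V : Finset X) :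
    lam w p V ∅ = ∑ S, w S * p ^ (S \ V).card := by
  unfold lam
  simp

/-- general monotonicity -/
theorem lam_le_lam {w : Finset X → ℝ} {p : ℝ} (hw : ∀ S, 0 ≤ w S) (hp : 0 < p) (hp1 : p ≤ 1)
    {U A Y A' : Finset X} (hA : A' ⊆ A) (hUY : U ∪ A ⊆ Y ∪ A') : lam w p U A ≤ lam w p Y A' := by
  unfold lam
  calc ∑ S ∈ univ.filter (fun S : Finset X => A ⊆ S), w S * p ^ (S \ (U ∪ A)).card
      ≤ ∑ S ∈ univ.filter (fun S : Finset X => A ⊆ S), w S * p ^ (S \ (Y ∪ A')).card := by
        apply Finset.sum_le_sum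
        intro S _
        apply mul_le_mul_of_nonneg_left _ (hw S)
        apply pow_le_pow_of_le_one hp.le hp1
        exact Finset.card_le_card (Finset.sdiff_subset_sdiff (Finset.Subset.refl _) hUY)
    _ ≤ ∑ S ∈ univ.filter (fun S : Finset X => A' ⊆ S), w S * p ^ (S \ (Y ∪ A')).card := by
        apply Finset.sum_le_sum_of_subset_of_nonneg
        · intro S hS
          rw [mem_filter] at hS ⊢
          exact ⟨hS.1, hA.trans hS.2⟩
        · intro S _ _
          exact mul_nonneg (hw S) (by positivity)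

theorem card_sdiff_union_aux {S V A : Finset X} (hA : A ⊆ S) (hd : Disjoint A V) :
    (S \ (V ∪ A)).card + A.card = (S \ V).card := by
  have h1 : S \ (V ∪ A) = (S \ V) \ A := by
    ext x; simp only [mem_sdiff, mem_union]; tauto
  have h2 : A ⊆ S \ V := by
    intro x hx
    rw [mem_sdiff]
    exact ⟨hA hx, Finset.disjoint_left.1 hd hx⟩
  rw [h1, Finset.card_sdiff_of_subset h2]
  have := Finset.card_le_card h2
  omega

/-- the exchange of summation: cost at `p` of the weights `lam w p V ·`. -/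
theorem sum_lam_mul {w : Finset X → ℝ} {p : ℝ} (V : Finset X) :
    ∑ A ∈ univ.filter (fun A : Finset X => Disjoint A V), lam w p V A * p ^ A.card
      = ∑ S, w S * (2 * p) ^ (S \ V).card := by
  unfold lam
  simp_rw [Finset.sum_mul]
  rw [Finset.sum_comm' (t' := univ) (s' := fun S => (S \ V).powerset)]
  · apply Finset.sum_congr rfl
    intro S _
    have : ∀ A ∈ (S \ V).powerset, w S * p ^ (S \ (V ∪ A)).card * p ^ A.card
        = w S * p ^ (S \ V).card := by
      intro A hA
      rw [mem_powerset] at hA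
      have h1 : A ⊆ S := hA.trans sdiff_subset
      have h2 : Disjoint A V :=
        Finset.disjoint_of_subset_left hA Finset.sdiff_disjoint
      rw [mul_assoc, ← pow_add, card_sdiff_union_aux h1 h2]
    rw [Finset.sum_congr rfl this, Finset.sum_const, Finset.card_powerset, mul_pow]
    simp only [nsmul_eq_mul, Nat.cast_pow, Nat.cast_ofNat]
    ring
  · intro A S
    simp only [mem_filter, mem_univ, true_and, mem_powerset]
    constructor
    · rintro ⟨h1, h2⟩
      refine ⟨?_, trivial⟩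
      intro x hx
      rw [mem_sdiff]
      exact ⟨h2 hx, Finset.disjoint_left.1 h1 hx⟩
    · rintro ⟨h1, _⟩
      exact ⟨Finset.disjoint_of_subset_left h1 Finset.sdiff_disjoint, h1.trans sdiff_subset⟩

theorem sum_lam_le {w : Finset X → ℝ} {p : ℝ} (hw : ∀ S, 0 ≤ w S) (hp : 0 < p) {T : ℕ}
    (hT : ∀ S, w S ≠ 0 → S.card ≤ T) (V : Finset X) :
    ∑ A ∈ univ.filter (fun A : Finset X => Disjoint A V), lam w p V A * p ^ A.card
      ≤ 2 ^ T * lam w p V ∅ := by
  rw [sum_lam_mul, lam_empty_eq, Finset.mul_sum]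
  apply Finset.sum_le_sum
  intro S _
  by_cases h0 : w S = 0
  · rw [h0]; simp
  · have h1 : (S \ V).card ≤ T := (Finset.card_le_card sdiff_subset).trans (hT S h0)
    have h2 : (2 : ℝ) ^ (S \ V).card ≤ 2 ^ T := pow_le_pow_right₀ (by norm_num) h1
    rw [mul_pow]
    have h3 : 0 ≤ w S * p ^ (S \ V).card := mul_nonneg (hw S) (by positivity)
    calc w S * (2 ^ (S \ V).card * p ^ (S \ V).card)
        = 2 ^ (S \ V).card * (w S * p ^ (S \ V).card) := by ring
      _ ≤ 2 ^ T * (w S * p ^ (S \ V).card) := mul_le_mul_of_nonneg_right h2 h3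

theorem lam_empty_le_sum {w : Finset X → ℝ} {p : ℝ} (hw : ∀ S, 0 ≤ w S) (hp : 0 < p)
    (Y : Finset X) : lam w p Y ∅ ≤ ∑ σ ∈ Y.powerset, lam w p ∅ σ := by
  rw [lam_empty_eq]
  unfold lam
  simp_rw [Finset.sum_filter]
  rw [Finset.sum_comm]
  apply Finset.sum_le_sum
  intro S _
  have h1 : S ∩ Y ∈ Y.powerset := by
    rw [mem_powerset]; exact inter_subset_right
  have h2 : w S * p ^ (S \ Y).card =
      (if S ∩ Y ⊆ S then w S * p ^ (S \ (∅ ∪ (S ∩ Y))).card else 0) := by
    rw [if_pos inter_subset_left]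
    congr 3
    ext x
    simp only [mem_sdiff, mem_union, mem_inter, Finset.notMem_empty, false_or]
    tauto
  rw [h2]
  apply Finset.single_le_sum (f := fun σ => (if σ ⊆ S then w S * p ^ (S \ (∅ ∪ σ)).card else 0))
    _ h1
  intro σ _
  split_ifs
  · exact mul_nonneg (hw S) (by positivity)
  · exact le_refl _

/-- mass of the samples with given new label set is at most `lam U σ`. -/
theorem sum_label_le_lam {w : Finset X → ℝ} {p : ℝ} (hw : ∀ S, 0 ≤ w S) (hp : 0 < p)
    {U Y σ : Finset X} (hUY : U ⊆ Y) :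
    ∑ S ∈ univ.filter (fun S : Finset X => (S ∩ Y) \ U = σ), w S * p ^ (S \ Y).card
      ≤ lam w p U σ := by
  unfold lam
  have h1 : ∀ S ∈ univ.filter (fun S : Finset X => (S ∩ Y) \ U = σ),
      w S * p ^ (S \ Y).card = w S * p ^ (S \ (U ∪ σ)).card := by
    intro S hS
    rw [mem_filter] at hS
    congr 3
    ext x
    rw [← hS.2]
    simp only [mem_sdiff, mem_union, mem_inter]
    constructor
    · rintro ⟨h1, h2⟩
      refine ⟨h1, ?_⟩
      rintro (h3 | ⟨⟨_, h4⟩, _⟩)
      · exact h2 (hUY h3)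
      · exact h2 h4
    · rintro ⟨h1, h2⟩
      refine ⟨h1, ?_⟩
      intro h3
      apply h2
      by_cases h4 : x ∈ U
      · exact Or.inl h4
      · exact Or.inr ⟨⟨h1, h3⟩, h4⟩
  rw [Finset.sum_congr rfl h1]
  apply Finset.sum_le_sum_of_subset_of_nonneg
  · intro S hS
    rw [mem_filter] at hS ⊢
    refine ⟨hS.1, ?_⟩
    rw [← hS.2]
    exact sdiff_subset.trans inter_subset_left
  · intro S _ _
    exact mul_nonneg (hw S) (by positivity)

theorem Good_anti {w : Finset X → ℝ} {p : ℝ} {T Nm : ℕ} {U Y S : Finset X} (hUY : U ⊆ Y)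
    (h : Good w p T Nm Y S) : Good w p T Nm U S :=
  fun V' hV' A hA => h V' (hV'.trans hUY) A hA

theorem Wt_nonneg (w : Finset X → ℝ) (p τ : ℝ) (V S : Finset X) : 0 ≤ Wt w p τ V S := by
  unfold Wt; positivity

theorem Wt_ge_one (w : Finset X → ℝ) (p τ : ℝ) (V S : Finset X) : 1 ≤ Wt w p τ V S := by
  unfold Wt
  have h : ell (heavy w p τ V S) ≤ 2 * (S \ V).card := by
    apply ell_le
    intro N hN
    unfold heavy at hN
    rw [mem_filter, mem_powerset] at hN
    exact ⟨hN.1, hN.2.1⟩
  rw [le_div_iff₀ (by positivity), one_mul]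
  calc (2 : ℝ) ^ ell (heavy w p τ V S) ≤ 2 ^ (2 * (S \ V).card) :=
        pow_le_pow_right₀ (by norm_num) h
    _ = 4 ^ (S \ V).card := by rw [pow_mul]; norm_num

theorem Wt_le {w : Finset X → ℝ} {p τ : ℝ} {V S : Finset X} {T : ℕ} (hS : S.card ≤ T) :
    Wt w p τ V S ≤ 4 ^ T := by
  unfold Wt
  have h1 : (S \ V).card ≤ T := (Finset.card_le_card sdiff_subset).trans hS
  calc (4 : ℝ) ^ (S \ V).card / 2 ^ ell (heavy w p τ V S) ≤ 4 ^ (S \ V).card :=
        div_le_self (by positivity) (one_le_pow₀ (by norm_num))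
    _ ≤ 4 ^ T := pow_le_pow_right₀ (by norm_num) h1

theorem Fh_nonneg {w : Finset X → ℝ} {p : ℝ} (hw : ∀ S, 0 ≤ w S) (hp : 0 < p) (τ : ℝ)
    (T Nm : ℕ) (V : Finset X) : 0 ≤ Fh w p τ T Nm V := by
  unfold Fh
  exact Finset.sum_nonneg (fun S _ => mul_nonneg (mul_nonneg (hw S) (by positivity))
    (Wt_nonneg _ _ _ _ _))

theorem Fh_le {w : Finset X → ℝ} {p : ℝ} (hw : ∀ S, 0 ≤ w S) (hp : 0 < p) {T : ℕ}
    (hT : ∀ S, w S ≠ 0 → S.card ≤ T) (τ : ℝ) (Nm : ℕ) (V : Finset X) :
    Fh w p τ T Nm V ≤ 4 ^ T * lam w p V ∅ := by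
  classical
  rw [lam_empty_eq, Finset.mul_sum]
  unfold Fh
  calc _ ≤ ∑ S ∈ univ.filter (fun S => Good w p T Nm V S), 4 ^ T * (w S * p ^ (S \ V).card) := by
        apply Finset.sum_le_sum
        intro S _
        by_cases h0 : w S = 0
        · rw [h0]; simp
        · rw [mul_comm (4 ^ T : ℝ)]
          exact mul_le_mul_of_nonneg_left (Wt_le (hT S h0))
            (mul_nonneg (hw S) (by positivity))
    _ ≤ _ := by
        apply Finset.sum_le_sum_of_subset_of_nonneg (Finset.filter_subset _ _)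
        intro S _ _
        exact mul_nonneg (by positivity) (mul_nonneg (hw S) (by positivity))

/-- top state -/
theorem le_Fh_top {w : Finset X → ℝ} {p : ℝ} (hw : ∀ S, 0 ≤ w S) (hp : 0 < p) (hp1 : p ≤ 1)
    {T : ℕ} (hT : ∀ S, w S ≠ 0 → S.card ≤ T) (τ : ℝ) (Nm : ℕ) (H : Finset X)
    (hW : ∀ V ⊆ H, lam w p V ∅ < cap Nm V.card) :
    ∑ S ∈ H.powerset, w S ≤ Fh w p τ T Nm H := by
  classical
  unfold Fh
  rw [Finset.sum_filter]
  calc ∑ S ∈ H.powerset, w S
      ≤ ∑ S ∈ H.powerset, (if Good w p T Nm H S then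
          w S * p ^ (S \ H).card * Wt w p τ H S else 0) := by
        apply Finset.sum_le_sum
        intro S hS
        rw [mem_powerset] at hS
        by_cases h0 : w S = 0
        · rw [h0]; simp
        · have hG : Good w p T Nm H S := by
            intro V' hV' A hA
            have hAS : A ⊆ S := hA.trans sdiff_subset
            have h1 : lam w p V' A ≤ lam w p (V' ∪ A) ∅ :=
              lam_le_lam hw hp hp1 (Finset.empty_subset _) (by simp)
            have h2 : lam w p (V' ∪ A) ∅ < cap Nm (V' ∪ A).card :=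
              hW _ (Finset.union_subset hV' (hAS.trans hS))
            have h3 : (V' ∪ A).card ≤ V'.card + T :=
              (Finset.card_union_le _ _).trans
                (Nat.add_le_add_left ((Finset.card_le_card hAS).trans (hT S h0)) _)
            have h4 : cap Nm (V' ∪ A).card ≤ cap Nm (V'.card + T) := by
              unfold cap
              apply pow_le_pow_left₀ (by positivity)
              exact_mod_cast Nat.add_le_add_right h3 _
            linarith
          rw [if_pos hG]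
          have h5 : S \ H = ∅ := Finset.sdiff_eq_empty_iff_subset.2 hS
          rw [h5, Finset.card_empty, pow_zero, mul_one]
          exact le_mul_of_one_le_right (hw S) (Wt_ge_one _ _ _ _ _)
    _ ≤ ∑ S, (if Good w p T Nm H S then w S * p ^ (S \ H).card * Wt w p τ H S else 0) := by
        apply Finset.sum_le_sum_of_subset_of_nonneg (Finset.subset_univ _)
        intro S _ _
        split_ifs
        · exact mul_nonneg (mul_nonneg (hw S) (by positivity)) (Wt_nonneg _ _ _ _ _)
        · exact le_refl _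

/-- a state with positive functional has `lam V ∅` capped on all subsets. -/
theorem cap_of_Fh_pos {w : Finset X → ℝ} {p τ : ℝ} {T Nm : ℕ} {Y : Finset X}
    (h : 0 < Fh w p τ T Nm Y) : ∀ V ⊆ Y, lam w p V ∅ < cap Nm (V.card + T) := by
  classical
  intro V hV
  unfold Fh at h
  obtain ⟨S, hS, _⟩ : ∃ S ∈ univ.filter (fun S => Good w p T Nm Y S),
      w S * p ^ (S \ Y).card * Wt w p τ Y S ≠ 0 := by
    by_contra hcon
    push Not at hcon
    rw [Finset.sum_eq_zero hcon] at h
    exact lt_irrefl _ h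
  rw [mem_filter] at hS
  exact hS.2 V hV ∅ (Finset.empty_subset _)

end Vale.Agent.P034
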