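import Vale.Agent.P034.Laminar
import Vale.Agent.P034.LamBasics

/-! Module C: ring of heavy sets and the label sum bound. -/

namespace Vale.Agent.P034
open Finset
variable {X : Type*} [Fintype X] [DecidableEq X]

private theorem inv_pow_anti {κ : ℝ} (hκ1 : 1 ≤ κ) {a b : ℕ} (h : a ≤ b) :
    (κ ^ b)⁻¹ ≤ (κ ^ a)⁻¹ := by
  have h0 : 0 < κ := by linarith
  exact inv_anti₀ (pow_pos h0 a) (pow_le_pow_right₀ hκ1 h)

/-- an empty scale. -/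
private theorem gap_scale {κ : ℝ} (hκ1 : 1 ≤ κ) {T : ℕ} (E : Finset X) (hE : E.card ≤ T)
    (f : Finset X → ℝ) :
    ∃ i ≤ 2 ^ T, ∀ A ⊆ E, (κ ^ (3 ^ (i + 1)))⁻¹ ≤ f A → (κ ^ (3 ^ i))⁻¹ ≤ f A := by
  by_contra hcon
  push Not at hcon
  choose! g hg1 hg2 hg3 using hcon
  have hmaps : ∀ i ∈ Finset.range (2 ^ T + 1), g i ∈ E.powerset := by
    intro i hi
    rw [Finset.mem_range] at hi
    rw [Finset.mem_powerset]
    exact hg1 i (by omega)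
  have hcard : E.powerset.card < (Finset.range (2 ^ T + 1)).card := by
    rw [Finset.card_powerset, Finset.card_range]
    have : 2 ^ E.card ≤ 2 ^ T := Nat.pow_le_pow_right (by norm_num) hE
    omega
  obtain ⟨i, hi, j, hj, hij, hgij⟩ := Finset.exists_ne_map_eq_of_card_lt_of_maps_to hcard hmaps
  rw [Finset.mem_range] at hi hj
  have key : ∀ i j : ℕ, i ≤ 2 ^ T → j ≤ 2 ^ T → i < j → g i = g j → False := by
    intro i j hi hj hlt he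
    have h1 := hg2 i hi
    have h2 := hg3 j hj
    rw [← he] at h2
    have h3 : (κ ^ (3 ^ j))⁻¹ ≤ (κ ^ (3 ^ (i + 1)))⁻¹ :=
      inv_pow_anti hκ1 (Nat.pow_le_pow_right (by norm_num) (by omega))
    linarith
  rcases lt_or_gt_of_ne hij with h | h
  · exact key i j (by omega) (by omega) h hgij
  · exact key j i (by omega) (by omega) h hgij.symm

theorem label_sum {w : Finset X → ℝ} {p : ℝ} (hw : ∀ S, 0 ≤ w S) (hp : 0 < p)
    {T : ℕ} {S U : Finset X} (hS : S.card ≤ T) {Θ ε κ τ : ℝ}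
    (hΘ : ∀ A ⊆ S \ U, lam w p U A ≤ Θ) (hbad : ¬ Bad w p ε U S) (hε : 0 < ε) (hΘ0 : 0 < Θ)
    (hκ1 : 1 ≤ κ) (hκ : Θ ≤ ε * κ) (hτ : κ⁻¹ ≤ τ) :
    ∑ σ ∈ Reg w p κ τ U S,
      (4 : ℝ) ^ ((S \ U) \ σ).card / 2 ^ ell (hres w p ((κ ^ BT T)⁻¹) U σ S)
      ≤ Wt w p τ U S := by
  classical
  have hκ0 : 0 < κ := by linarith
  obtain ⟨i, hi, hgap⟩ := gap_scale hκ1 (S \ U) ((Finset.card_le_card Finset.sdiff_subset).trans hS)
    (fun A => lam w p U A)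
  set b : ℕ := 3 ^ i with hb
  have hb1 : 1 ≤ b := Nat.one_le_pow _ _ (by norm_num)
  have hbBT : b ≤ BT T := by
    unfold BT
    exact Nat.pow_le_pow_right (by norm_num) hi
  have h3b : 3 ^ (i + 1) = 3 * b := by rw [hb, pow_succ]; ring
  rw [h3b] at hgap
  have hpos : ∀ n : ℕ, 0 < (κ ^ n)⁻¹ := fun n => inv_pos.mpr (pow_pos hκ0 n)
  -- the key closure estimate
  have hclos : ∀ A ⊆ S \ U, ∀ B ⊆ S \ U, (κ ^ b)⁻¹ ≤ lam w p U A → (κ ^ b)⁻¹ ≤ lam w p U B →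
      (κ ^ b)⁻¹ ≤ lam w p U (A ∪ B) ∧ (κ ^ b)⁻¹ ≤ lam w p U (A ∩ B) := by
    intro A hA B hB h1 h2
    have h3 : ε * (lam w p U A * lam w p U B) ≤ lam w p U (A ∪ B) * lam w p U (A ∩ B) := by
      by_contra hcon
      exact hbad ⟨A, hA, B, hB, not_le.mp hcon⟩
    have h4 : (κ ^ b)⁻¹ * (κ ^ b)⁻¹ ≤ lam w p U A * lam w p U B :=
      mul_le_mul h1 h2 (hpos b).le ((hpos b).le.trans h1)
    have hAB : A ∪ B ⊆ S \ U := Finset.union_subset hA hB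
    have hAB' : A ∩ B ⊆ S \ U := Finset.inter_subset_left.trans hA
    have h5 : (κ ^ (3 * b))⁻¹ * Θ ≤ ε * ((κ ^ b)⁻¹ * (κ ^ b)⁻¹) := by
      have h6 : (κ ^ (3 * b))⁻¹ ≤ (κ ^ (2 * b + 1))⁻¹ := inv_pow_anti hκ1 (by omega)
      have h7 : (κ ^ (2 * b + 1))⁻¹ * κ = (κ ^ b)⁻¹ * (κ ^ b)⁻¹ := by
        rw [pow_succ, two_mul, pow_add]
        field_simp
      calc (κ ^ (3 * b))⁻¹ * Θ ≤ (κ ^ (2 * b + 1))⁻¹ * Θ :=
            mul_le_mul_of_nonneg_right h6 hΘ0.le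
        _ ≤ (κ ^ (2 * b + 1))⁻¹ * (ε * κ) := mul_le_mul_of_nonneg_left hκ (hpos _).le
        _ = ε * ((κ ^ (2 * b + 1))⁻¹ * κ) := by ring
        _ = ε * ((κ ^ b)⁻¹ * (κ ^ b)⁻¹) := by rw [h7]
    have h8 : (κ ^ (3 * b))⁻¹ * Θ ≤ lam w p U (A ∪ B) * lam w p U (A ∩ B) :=
      h5.trans ((mul_le_mul_of_nonneg_left h4 hε.le).trans h3)
    constructor
    · refine hgap _ hAB ?_
      have h9 : lam w p U (A ∪ B) * lam w p U (A ∩ B) ≤ lam w p U (A ∪ B) * Θ :=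
        mul_le_mul_of_nonneg_left (hΘ _ hAB') (lam_nonneg hw hp U _)
      exact le_of_mul_le_mul_right (h8.trans h9) hΘ0
    · refine hgap _ hAB' ?_
      have h9 : lam w p U (A ∪ B) * lam w p U (A ∩ B) ≤ Θ * lam w p U (A ∩ B) :=
        mul_le_mul_of_nonneg_right (hΘ _ hAB) (lam_nonneg hw hp U _)
      have h10 := h8.trans h9
      rw [mul_comm Θ] at h10
      exact le_of_mul_le_mul_right h10 hΘ0
  set 𝒯 : Finset (Finset X) :=
    (S \ U).powerset.filter (fun A => A = ∅ ∨ (κ ^ b)⁻¹ ≤ lam w p U A) with h𝒯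
  have hmem : ∀ A, A ∈ 𝒯 ↔ A ⊆ S \ U ∧ (A = ∅ ∨ (κ ^ b)⁻¹ ≤ lam w p U A) := by
    intro A
    rw [h𝒯, Finset.mem_filter, Finset.mem_powerset]
  have hE : ∀ A ∈ 𝒯, A ⊆ S \ U := fun A hA => ((hmem A).mp hA).1
  have h0 : ∅ ∈ 𝒯 := (hmem ∅).mpr ⟨Finset.empty_subset _, Or.inl rfl⟩
  have hU' : ∀ A ∈ 𝒯, ∀ B ∈ 𝒯, A ∪ B ∈ 𝒯 := by
    intro A hA B hB
    rw [hmem] at hA hB ⊢
    refine ⟨Finset.union_subset hA.1 hB.1, ?_⟩
    rcases hA.2 with rfl | hA2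
    · rw [Finset.empty_union]; exact hB.2
    · rcases hB.2 with rfl | hB2
      · rw [Finset.union_empty]; exact Or.inr hA2
      · exact Or.inr (hclos A hA.1 B hB.1 hA2 hB2).1
  have hI' : ∀ A ∈ 𝒯, ∀ B ∈ 𝒯, A ∩ B ∈ 𝒯 := by
    intro A hA B hB
    rw [hmem] at hA hB ⊢
    refine ⟨Finset.inter_subset_left.trans hA.1, ?_⟩
    rcases hA.2 with rfl | hA2
    · rw [Finset.empty_inter]; exact Or.inl rfl
    · rcases hB.2 with rfl | hB2
      · rw [Finset.inter_empty]; exact Or.inl rfl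
      · exact Or.inr (hclos A hA.1 B hB.1 hA2 hB2).2
  have hκb : (κ ^ b)⁻¹ ≤ κ⁻¹ := by
    have := inv_pow_anti hκ1 hb1
    rwa [pow_one] at this
  have h𝒩 : ∀ N ∈ heavy w p τ U S, N ∈ 𝒯 ∧ N.Nonempty := by
    intro N hN
    unfold heavy at hN
    rw [Finset.mem_filter, Finset.mem_powerset] at hN
    exact ⟨(hmem N).mpr ⟨hN.1, Or.inr (hκb.trans (hτ.trans hN.2.2))⟩, hN.2.1⟩
  have hring := ring_lemma (S \ U) 𝒯 hE h0 hU' hI' (heavy w p τ U S) h𝒩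
  have hsub : Reg w p κ τ U S ⊆ 𝒯.filter (fun σ => ∀ N ∈ heavy w p τ U S, ¬ N ⊆ σ) := by
    intro σ hσ
    unfold Reg at hσ
    rw [Finset.mem_filter, Finset.mem_powerset] at hσ
    rw [Finset.mem_filter]
    refine ⟨(hmem σ).mpr ⟨hσ.1, ?_⟩, hσ.2.2⟩
    rcases hσ.2.1 with h | h
    · exact Or.inl h
    · exact Or.inr (hκb.trans h)
  have hterm : ∀ σ ∈ Reg w p κ τ U S,
      (4 : ℝ) ^ ((S \ U) \ σ).card / 2 ^ ell (hres w p ((κ ^ BT T)⁻¹) U σ S)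
      ≤ (4 : ℝ) ^ ((S \ U) \ σ).card / 2 ^ ell (resid 𝒯 (S \ U) σ) := by
    intro σ hσ
    refine div_le_div_of_nonneg_left (by positivity) (by positivity) ?_
    refine pow_le_pow_right₀ (by norm_num) (ell_mono ?_)
    intro M hM
    unfold resid at hM
    unfold hres
    rw [Finset.mem_filter, Finset.mem_powerset] at hM ⊢
    refine ⟨hM.1, hM.2.1, ?_⟩
    have h6 := ((hmem _).mp hM.2.2).2
    rcases h6 with h6 | h6
    · exfalso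
      obtain ⟨x, hx⟩ := hM.2.1
      have : x ∈ σ ∪ M := Finset.mem_union_right _ hx
      rw [h6] at this
      exact Finset.notMem_empty x this
    · exact (inv_pow_anti hκ1 hbBT).trans h6
  calc ∑ σ ∈ Reg w p κ τ U S,
      (4 : ℝ) ^ ((S \ U) \ σ).card / 2 ^ ell (hres w p ((κ ^ BT T)⁻¹) U σ S)
      ≤ ∑ σ ∈ Reg w p κ τ U S,
        (4 : ℝ) ^ ((S \ U) \ σ).card / 2 ^ ell (resid 𝒯 (S \ U) σ) := Finset.sum_le_sum hterm
    _ ≤ ∑ σ ∈ 𝒯.filter (fun σ => ∀ N ∈ heavy w p τ U S, ¬ N ⊆ σ),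
        (4 : ℝ) ^ ((S \ U) \ σ).card / 2 ^ ell (resid 𝒯 (S \ U) σ) :=
        Finset.sum_le_sum_of_subset_of_nonneg hsub (fun _ _ _ => by positivity)
    _ ≤ 4 ^ (S \ U).card / 2 ^ ell (heavy w p τ U S) := by
        refine le_trans (le_of_eq ?_) hring
        refine Finset.sum_congr ?_ (fun _ _ => rfl)
        ext σ
        simp only [Finset.mem_filter]
    _ = Wt w p τ U S := by unfold Wt; rfl

end Vale.Agent.P034
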