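import Mathlib

/-! # P034: integral versus fractional expectation thresholds.  Working definitions. -/

namespace Vale.Agent.P034

open Finset

section Defs

variable {X : Type*} [Fintype X] [DecidableEq X]

/-- `Cov q c 𝒜`: some family of cost at most `c` at `q` covers every member of `𝒜`. -/
def Cov (q c : ℝ) (𝒜 : Set (Finset X)) : Prop :=
  ∃ 𝒢 : Finset (Finset X), ∑ G ∈ 𝒢, q ^ G.card ≤ c ∧ ∀ A ∈ 𝒜, ∃ G ∈ 𝒢, G ⊆ A

/-- `lam w p V A = ∑_{S ⊇ A} w(S) p^{|S \ (V ∪ A)|}`. -/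
noncomputable def lam (w : Finset X → ℝ) (p : ℝ) (V A : Finset X) : ℝ :=
  ∑ S ∈ univ.filter (fun S : Finset X => A ⊆ S), w S * p ^ (S \ (V ∪ A)).card

/-- Laminar families. -/
def IsLam (ℒ : Finset (Finset X)) : Prop :=
  ∀ A ∈ ℒ, ∀ B ∈ ℒ, Disjoint A B ∨ A ⊆ B ∨ B ⊆ A

open Classical in
/-- largest size of a laminar subfamily. -/
noncomputable def ell (𝒩 : Finset (Finset X)) : ℕ :=
  (𝒩.powerset.filter (fun ℒ => IsLam ℒ)).sup Finset.card

open Classical in
/-- residual family of a ring `𝒯` of subsets of `E` above `σ`. -/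
noncomputable def resid (𝒯 : Finset (Finset X)) (E σ : Finset X) : Finset (Finset X) :=
  (E \ σ).powerset.filter (fun M => M.Nonempty ∧ σ ∪ M ∈ 𝒯)

open Classical in
/-- heavy subsets of `S \ V`. -/
noncomputable def heavy (w : Finset X → ℝ) (p τ : ℝ) (V S : Finset X) : Finset (Finset X) :=
  (S \ V).powerset.filter (fun N => N.Nonempty ∧ τ ≤ lam w p V N)

open Classical in
/-- residual heavy sets given found labels `σ`. -/
noncomputable def hres (w : Finset X → ℝ) (p τ : ℝ) (U σ S : Finset X) : Finset (Finset X) :=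
  ((S \ U) \ σ).powerset.filter (fun M => M.Nonempty ∧ τ ≤ lam w p U (σ ∪ M))

/-- label weight. -/
noncomputable def Wt (w : Finset X → ℝ) (p τ : ℝ) (V S : Finset X) : ℝ :=
  4 ^ (S \ V).card / 2 ^ ell (heavy w p τ V S)

/-- size-dependent cap. -/
noncomputable def cap (Nm : ℕ) (k : ℕ) : ℝ := ((k + Nm : ℕ) : ℝ) ^ 3

/-- `S` has no superheavy part relative to subsets of `V`. -/
def Good (w : Finset X → ℝ) (p : ℝ) (T Nm : ℕ) (V S : Finset X) : Prop :=
  ∀ V' ⊆ V, ∀ A ⊆ S \ V', lam w p V' A < cap Nm (V'.card + T)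

open Classical in
/-- the state functional. -/
noncomputable def Fh (w : Finset X → ℝ) (p τ : ℝ) (T Nm : ℕ) (V : Finset X) : ℝ :=
  ∑ S ∈ univ.filter (fun S => Good w p T Nm V S), w S * p ^ (S \ V).card * Wt w p τ V S

/-- failure of approximate submodularity inside `S`. -/
def Bad (w : Finset X → ℝ) (p ε : ℝ) (U S : Finset X) : Prop :=
  ∃ A ⊆ S \ U, ∃ B ⊆ S \ U,
    lam w p U (A ∪ B) * lam w p U (A ∩ B) < ε * (lam w p U A * lam w p U B)

open Classical in
/-- regular labels. -/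
noncomputable def Reg (w : Finset X → ℝ) (p κ τ : ℝ) (U S : Finset X) : Finset (Finset X) :=
  (S \ U).powerset.filter
    (fun σ => (σ = ∅ ∨ κ⁻¹ ≤ lam w p U σ) ∧ ∀ N ∈ heavy w p τ U S, ¬ N ⊆ σ)

/-- exponent bound. -/
def BT (T : ℕ) : ℕ := 3 ^ (2 ^ T)

open Classical in
/-- one-step expectation operator of the sampling chain (`fl U S` is the flag event). -/
noncomputable def stepE (μ : Finset X → ℝ) (Y : Finset X) (fl : Finset X → Finset X → Prop)
    (φ : Finset X → ℕ → ℝ) : Finset X → ℕ → ℝ :=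
  fun U f => ∑ S, μ S * φ (U ∪ (S ∩ Y)) (if fl U S then f + 1 else f)

/-- expectation after `n` samples started from `(∅, 0)`. -/
noncomputable def En (μ : Finset X → ℝ) (Y : Finset X) (fl : Finset X → Finset X → Prop)
    (n : ℕ) (φ : Finset X → ℕ → ℝ) : ℝ := ((stepE μ Y fl)^[n] φ) ∅ 0

open Classical in
/-- iterated covering weights; `P U` is admissibility. -/
noncomputable def wgt (P : Finset X → Prop) (ω : Finset X → Finset X → ℝ) :
    ℕ → Finset X → ℝ
  | 0 => fun U => if U = ∅ then 1 else 0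
  | n + 1 => fun U' => ∑ U ∈ U'.powerset, if P U then wgt P ω n U * ω U (U' \ U) else 0

/-- `𝒜 U` contains `l` disjoint members inside `Y`. -/
def HasDisj (𝒜 : Finset X → Finset (Finset X)) (l : ℕ) (U Y : Finset X) : Prop :=
  ∃ I ⊆ 𝒜 U, I.card = l ∧ (∀ A ∈ I, ∀ B ∈ I, A ≠ B → Disjoint A B) ∧ ∀ A ∈ I, A ⊆ Y

open Classical in
/-- heavy sets disjoint from `U` of size at most `T`. -/
noncomputable def HF (w : Finset X → ℝ) (p τ : ℝ) (T : ℕ) (U : Finset X) : Finset (Finset X) :=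
  univ.filter (fun A : Finset X => A.Nonempty ∧ Disjoint A U ∧ A.card ≤ T ∧ τ ≤ lam w p U A)

end Defs

end Vale.Agent.P034
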