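import Vale.Agent.P034.Wgt
import Vale.Agent.P034.Rounding
import Vale.Agent.P034.Cover

/-! Module H: covers from many disjoint heavy sets; hitting sets otherwise. -/

namespace Vale.Agent.P034
open Finset
variable {X : Type*} [Fintype X] [DecidableEq X]

theorem hitting_set {𝒜 : Finset X → Finset (Finset X)} {l T : ℕ} {U Y : Finset X}
    (hT : ∀ A ∈ 𝒜 U, A.card ≤ T ∧ A.Nonempty ∧ Disjoint A U) (hl : 1 ≤ l)
    (h : ¬ HasDisj 𝒜 l U Y) :
    ∃ Z ⊆ Y \ U, Z.card ≤ T * l ∧ ∀ A ∈ 𝒜 U, A ⊆ Y → ¬ Disjoint A Z := by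
  classical
  -- pairwise disjoint subfamilies inside `Y`
  set ℱ : Finset (Finset (Finset X)) := (𝒜 U).powerset.filter
    (fun I => (∀ A ∈ I, ∀ B ∈ I, A ≠ B → Disjoint A B) ∧ ∀ A ∈ I, A ⊆ Y) with hℱ
  have hne : ℱ.Nonempty := ⟨∅, by rw [hℱ, mem_filter]; simp⟩
  obtain ⟨I, hI, hmax⟩ := exists_max_image ℱ Finset.card hne
  rw [hℱ, mem_filter, mem_powerset] at hI
  obtain ⟨hIA, hId, hIY⟩ := hI
  have hcard : I.card < l := by
    by_contra hcon
    obtain ⟨J, hJI, hJ⟩ := exists_subset_card_eq (not_lt.1 hcon)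
    exact h ⟨J, hJI.trans hIA, hJ, fun A hA B hB => hId A (hJI hA) B (hJI hB),
      fun A hA => hIY A (hJI hA)⟩
  refine ⟨I.biUnion id, ?_, ?_, ?_⟩
  · intro x hx
    rw [mem_biUnion] at hx
    obtain ⟨A, hA, hxA⟩ := hx
    rw [mem_sdiff]
    exact ⟨hIY A hA hxA, fun hxU => (disjoint_left.1 (hT A (hIA hA)).2.2 hxA hxU)⟩
  · calc (I.biUnion id).card ≤ ∑ A ∈ I, (id A).card := card_biUnion_le
      _ ≤ ∑ A ∈ I, T := sum_le_sum fun A hA => (hT A (hIA hA)).1
      _ = I.card * T := by rw [sum_const, smul_eq_mul]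
      _ ≤ T * l := by rw [mul_comm]; exact Nat.mul_le_mul le_rfl hcard.le
  · intro A hA hAY hdis
    have hAI : A ∉ I := by
      intro hAI
      have h1 : A ⊆ I.biUnion id := subset_biUnion_of_mem id hAI
      have h2 : Disjoint A A := disjoint_of_subset_right h1 hdis
      rw [disjoint_self] at h2
      exact (hT A hA).2.1.ne_empty h2
    have hins : insert A I ∈ ℱ := by
      rw [hℱ, mem_filter, mem_powerset]
      refine ⟨insert_subset hA hIA, ?_, ?_⟩
      · intro B hB C hC hBC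
        rw [mem_insert] at hB hC
        rcases hB with rfl | hB <;> rcases hC with rfl | hC
        · exact absurd rfl hBC
        · exact disjoint_of_subset_right (subset_biUnion_of_mem id hC) hdis
        · exact (disjoint_of_subset_right (subset_biUnion_of_mem id hB) hdis).symm
        · exact hId B hB C hC hBC
      · intro B hB
        rw [mem_insert] at hB
        rcases hB with rfl | hB
        · exact hAY
        · exact hIY B hB
    have := hmax _ hins
    rw [card_insert_of_notMem hAI] at this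
    omega

open Classical in
/-- pairwise disjoint subfamilies with `l` members. -/
noncomputable def hfam (𝒜 : Finset X → Finset (Finset X)) (l : ℕ) (U : Finset X) :
    Finset (Finset (Finset X)) :=
  (𝒜 U).powerset.filter (fun I => I.card = l ∧ ∀ A ∈ I, ∀ B ∈ I, A ≠ B → Disjoint A B)

open Classical in
theorem hfam_card_union {I : Finset (Finset X)} (hd : ∀ A ∈ I, ∀ B ∈ I, A ≠ B → Disjoint A B) :
    (I.biUnion id).card = ∑ A ∈ I, A.card :=
  card_biUnion fun A hA B hB hAB => hd A hA B hB hAB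

theorem hfam_sum_le {q : ℝ} (hq0 : 0 < q) {𝒜 : Finset X → Finset (Finset X)} {l : ℕ}
    {U : Finset X} {D : ℝ} (hD : ∑ A ∈ 𝒜 U, q ^ A.card ≤ D)
    (hdisj : ∀ A ∈ 𝒜 U, Disjoint A U) :
    ∑ I ∈ hfam 𝒜 l U, q ^ (U ∪ I.biUnion id).card ≤
      q ^ U.card * Real.exp (-(l : ℝ) + 3 * D) := by
  classical
  have hD0 : 0 ≤ D := le_trans (sum_nonneg fun A _ => by positivity) hD
  have h1 : ∀ I ∈ hfam 𝒜 l U, q ^ (U ∪ I.biUnion id).card =
      q ^ U.card * (Real.exp (-(l:ℝ)) * ∏ A ∈ I, (Real.exp 1 * q ^ A.card)) := by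
    intro I hI
    unfold hfam at hI
    rw [mem_filter, mem_powerset] at hI
    obtain ⟨hIA, hIl, hId⟩ := hI
    have hdU : Disjoint U (I.biUnion id) := by
      rw [disjoint_biUnion_right]
      intro A hA
      exact (hdisj A (hIA hA)).symm
    rw [card_union_of_disjoint hdU, hfam_card_union hId, pow_add, ← prod_pow_eq_pow_sum,
      prod_mul_distrib, prod_const, hIl, ← Real.exp_nat_mul, mul_one, ← mul_assoc (Real.exp _),
      ← Real.exp_add, neg_add_cancel, Real.exp_zero, one_mul]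
  rw [sum_congr rfl h1, ← mul_sum, ← mul_sum]
  refine mul_le_mul_of_nonneg_left ?_ (by positivity)
  rw [Real.exp_add]
  refine mul_le_mul_of_nonneg_left ?_ (Real.exp_pos _).le
  calc ∑ I ∈ hfam 𝒜 l U, ∏ A ∈ I, (Real.exp 1 * q ^ A.card)
      ≤ ∑ I ∈ (𝒜 U).powerset, ∏ A ∈ I, (Real.exp 1 * q ^ A.card) := by
        refine sum_le_sum_of_subset_of_nonneg (filter_subset _ _) fun I _ _ => ?_
        exact prod_nonneg fun A _ => by positivity
    _ = ∏ A ∈ 𝒜 U, (1 + Real.exp 1 * q ^ A.card) := by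
        rw [prod_one_add]
    _ ≤ ∏ A ∈ 𝒜 U, Real.exp (Real.exp 1 * q ^ A.card) := by
        refine prod_le_prod (fun A _ => by positivity) fun A _ => ?_
        rw [add_comm]; exact Real.add_one_le_exp _
    _ = Real.exp (∑ A ∈ 𝒜 U, Real.exp 1 * q ^ A.card) := (Real.exp_sum _ _).symm
    _ ≤ Real.exp (3 * D) := by
        apply Real.exp_le_exp.2
        rw [← mul_sum]
        have he : Real.exp 1 ≤ 3 := by have := Real.exp_one_lt_d9; linarith
        calc Real.exp 1 * ∑ A ∈ 𝒜 U, q ^ A.card ≤ Real.exp 1 * D := by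
              exact mul_le_mul_of_nonneg_left hD (Real.exp_pos _).le
          _ ≤ 3 * D := mul_le_mul_of_nonneg_right he hD0

open Classical in
/-- the rounding weights. -/
noncomputable def hitg (P : Finset X → Prop) (ω : Finset X → Finset X → ℝ)
    (𝒜 : Finset X → Finset (Finset X)) (l j : ℕ) (c : ℝ) (U' : Finset X) : ℝ :=
  c⁻¹ * ∑ U, (if P U then wgt P ω j U * ∑ I ∈ hfam 𝒜 l U,
    (if U ∪ I.biUnion id = U' then (1:ℝ) else 0) else 0)

open Classical in
theorem hit_cover {q : ℝ} (hq0 : 0 < q) (hq1 : q ≤ 1) {P : Finset X → Prop}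
    {ω : Finset X → Finset X → ℝ} (hω : ∀ U σ, 0 ≤ ω U σ) {Γ D : ℝ} (hΓ : 0 ≤ Γ)
    (hcost : ∀ U, P U →
      ∑ σ ∈ univ.filter (fun σ : Finset X => Disjoint σ U), ω U σ * q ^ σ.card ≤ Γ)
    {𝒜 : Finset X → Finset (Finset X)} (h𝒜 : ∀ U, ∀ A ∈ 𝒜 U, A.Nonempty ∧ Disjoint A U)
    (hD : ∀ U, P U → ∑ A ∈ 𝒜 U, q ^ A.card ≤ D)
    {T j u K l : ℕ} {c : ℝ} (hu : 1 ≤ u) (hul : u ≤ l) (hc : 0 < c)
    (hbound : Γ ^ j * Real.exp (-(l : ℝ) + 3 * D) ≤ c)
    (hKu : (K : ℝ) ≤ Real.exp ((u : ℝ) / 8))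
    (𝒴 : Set (Finset X))
    (h𝒴 : ∀ Y ∈ 𝒴, Y.card ≤ K ∧ (∀ U ⊆ Y, U.card ≤ T * j → P U) ∧
      ∃ (μ : Finset X → ℝ) (fl : Finset X → Finset X → Prop), (∀ S, 0 ≤ μ S) ∧ ∑ S, μ S = 1 ∧
        (∀ S, μ S ≠ 0 → S.card ≤ T) ∧
        (∀ U ⊆ Y, U.card ≤ T * j → ∀ σ ⊆ Y \ U,
          ∑ S ∈ univ.filter (fun S : Finset X => (S ∩ Y) \ U = σ), μ S ≤ ω U σ) ∧
        c ≤ En μ Y fl j (fun U _ => if HasDisj 𝒜 l U Y then 1 else 0)) :
    Cov (q / 8) (10 * Real.exp (-(u : ℝ) / 2)) 𝒴 := by
  have hwn : ∀ U, 0 ≤ wgt P ω j U := fun U => wgt_nonneg hω j U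
  have hg0 : ∀ U, 0 ≤ hitg P ω 𝒜 l j c U := by
    intro U'
    unfold hitg
    refine mul_nonneg (inv_nonneg.2 hc.le) (sum_nonneg fun U _ => ?_)
    split_ifs
    · refine mul_nonneg (hwn U) (sum_nonneg fun I _ => ?_)
      split_ifs <;> norm_num
    · exact le_rfl
  have hsupp : ∀ U', hitg P ω 𝒜 l j c U' ≠ 0 → u ≤ U'.card := by
    intro U' hU'
    unfold hitg at hU'
    have h1 := right_ne_zero_of_mul hU'
    obtain ⟨U, -, hU⟩ := exists_ne_zero_of_sum_ne_zero h1
    by_cases hP : P U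
    · rw [if_pos hP] at hU
      obtain ⟨I, hI, hI2⟩ := exists_ne_zero_of_sum_ne_zero (right_ne_zero_of_mul hU)
      have heq : U ∪ I.biUnion id = U' := by
        by_contra hne
        rw [if_neg hne] at hI2
        exact hI2 rfl
      unfold hfam at hI
      rw [mem_filter, mem_powerset] at hI
      obtain ⟨hIA, hIl, hId⟩ := hI
      have h2 : l ≤ (I.biUnion id).card := by
        rw [hfam_card_union hId, ← hIl, card_eq_sum_ones]
        exact sum_le_sum fun A hA => card_pos.2 (h𝒜 U A (hIA hA)).1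
      calc u ≤ l := hul
        _ ≤ (I.biUnion id).card := h2
        _ ≤ (U ∪ I.biUnion id).card := card_le_card subset_union_right
        _ = U'.card := by rw [heq]
    · rw [if_neg hP] at hU
      exact absurd rfl hU
  -- cost
  have hγ : ∑ U', hitg P ω 𝒜 l j c U' * q ^ U'.card ≤ 1 := by
    have e1 : ∑ U', hitg P ω 𝒜 l j c U' * q ^ U'.card =
        c⁻¹ * ∑ U, (if P U then wgt P ω j U *
          ∑ I ∈ hfam 𝒜 l U, q ^ (U ∪ I.biUnion id).card else 0) := by
      unfold hitg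
      simp_rw [mul_assoc, sum_mul]
      rw [← mul_sum, sum_comm]
      congr 1
      refine sum_congr rfl fun U _ => ?_
      by_cases hP : P U
      · simp only [if_pos hP]
        simp_rw [mul_assoc, sum_mul]
        rw [← mul_sum, sum_comm]
        congr 1
        refine sum_congr rfl fun I _ => ?_
        rw [sum_eq_single (U ∪ I.biUnion id)]
        · simp
        · intro b _ hb
          rw [if_neg hb.symm, zero_mul]
        · intro hb; exact absurd (mem_univ _) hb
      · simp [if_neg hP]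
    rw [e1]
    have e2 : ∑ U, (if P U then wgt P ω j U *
          ∑ I ∈ hfam 𝒜 l U, q ^ (U ∪ I.biUnion id).card else 0) ≤
        ∑ U, (wgt P ω j U * q ^ U.card) * Real.exp (-(l : ℝ) + 3 * D) := by
      refine sum_le_sum fun U _ => ?_
      split_ifs with hP
      · have h3 := hfam_sum_le hq0 (l := l) (hD U hP) (fun A hA => (h𝒜 U A hA).2)
        calc _ ≤ wgt P ω j U * (q ^ U.card * Real.exp (-(l : ℝ) + 3 * D)) :=
              mul_le_mul_of_nonneg_left h3 (hwn U)
          _ = _ := by ring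
      · exact mul_nonneg (mul_nonneg (hwn U) (by positivity)) (Real.exp_pos _).le
    have e3 := wgt_cost (P := P) (ω := ω) hq0.le hω hΓ hcost j
    rw [← sum_mul] at e2
    have e4 : (∑ U, wgt P ω j U * q ^ U.card) * Real.exp (-(l : ℝ) + 3 * D) ≤ c :=
      (mul_le_mul_of_nonneg_right e3 (Real.exp_pos _).le).trans hbound
    rw [inv_mul_le_iff₀ hc, mul_one]
    exact e2.trans e4
  have hround := roundBig hq0 hq1 (hitg P ω 𝒜 l j c) hg0 hu hsupp hγ hKu
  refine Cov_mono hround le_rfl ?_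
  intro Y hY
  obtain ⟨hYK, hYP, μ, fl, hμ0, hμ1, hμT, hdom, hE⟩ := h𝒴 Y hY
  refine ⟨hYK, ?_⟩
  -- lower bound
  set φ : Finset X → ℝ := fun U => if P U ∧ HasDisj 𝒜 l U Y then 1 else 0 with hφ
  have hφ0 : ∀ U, 0 ≤ φ U := by
    intro U; simp only [hφ]; split_ifs <;> norm_num
  have hlow := wgt_lower (P := P) hω hμ0 hμT (Y := Y) (fl := fl) (ξ := 1) one_pos (n := j) hYP
    (by
      intro U hU hUc σ hσ
      have := hdom U hU hUc σ hσ
      simpa using this) φ hφ0
  have hE2 : En μ Y fl j (fun U _ => if HasDisj 𝒜 l U Y then 1 else 0) ≤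
      En μ Y fl j (fun U f => φ U * (1:ℝ) ^ f) := by
    refine En_mono hμ0 hμT Y fl j fun U hU hUc f => ?_
    simp only [hφ, one_pow, mul_one]
    by_cases hd : HasDisj 𝒜 l U Y
    · rw [if_pos hd, if_pos ⟨hYP U hU hUc, hd⟩]
    · rw [if_neg hd]; split_ifs <;> norm_num
  have hchain : c ≤ ∑ U ∈ Y.powerset, wgt P ω j U * φ U := hE.trans (hE2.trans hlow)
  -- compare with the sum of `hitg`
  have hcmp : ∑ U ∈ Y.powerset, wgt P ω j U * φ U ≤
      c * ∑ U' ∈ Y.powerset, hitg P ω 𝒜 l j c U' := by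
    have e1 : c * ∑ U' ∈ Y.powerset, hitg P ω 𝒜 l j c U' =
        ∑ U, (if P U then wgt P ω j U * ∑ I ∈ hfam 𝒜 l U,
          (if U ∪ I.biUnion id ⊆ Y then (1:ℝ) else 0) else 0) := by
      unfold hitg
      rw [← mul_sum, ← mul_assoc, mul_inv_cancel₀ hc.ne', one_mul, sum_comm]
      refine sum_congr rfl fun U _ => ?_
      by_cases hP : P U
      · simp only [if_pos hP]
        rw [← mul_sum, sum_comm]
        congr 1
        refine sum_congr rfl fun I _ => ?_
        rw [sum_ite_eq]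
        simp only [mem_powerset]
      · simp [if_neg hP]
    rw [e1]
    calc ∑ U ∈ Y.powerset, wgt P ω j U * φ U
        ≤ ∑ U ∈ Y.powerset, (if P U then wgt P ω j U * ∑ I ∈ hfam 𝒜 l U,
          (if U ∪ I.biUnion id ⊆ Y then (1:ℝ) else 0) else 0) := by
          refine sum_le_sum fun U hU => ?_
          rw [mem_powerset] at hU
          have hs0 : 0 ≤ ∑ I ∈ hfam 𝒜 l U, (if U ∪ I.biUnion id ⊆ Y then (1:ℝ) else 0) :=
            sum_nonneg fun I _ => by split_ifs <;> norm_num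
          simp only [hφ]
          by_cases hP : P U
          · rw [if_pos hP]
            refine mul_le_mul_of_nonneg_left ?_ (hwn U)
            by_cases hd : HasDisj 𝒜 l U Y
            · rw [if_pos ⟨hP, hd⟩]
              obtain ⟨I, hIA, hIl, hId, hIY⟩ := hd
              have hI : I ∈ hfam 𝒜 l U := by
                unfold hfam; rw [mem_filter, mem_powerset]; exact ⟨hIA, hIl, hId⟩
              have h2 : U ∪ I.biUnion id ⊆ Y :=
                union_subset hU (biUnion_subset.2 fun A hA => hIY A hA)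
              calc (1:ℝ) = (if U ∪ I.biUnion id ⊆ Y then (1:ℝ) else 0) := by rw [if_pos h2]
                _ ≤ _ := single_le_sum
                    (f := fun I : Finset (Finset X) =>
                      (if U ∪ I.biUnion id ⊆ Y then (1:ℝ) else 0))
                    (fun I _ => by split_ifs <;> norm_num) hI
            · rw [if_neg (fun h => hd h.2)]
              exact hs0
          · rw [if_neg hP, if_neg (fun h => hP h.1), mul_zero]
      _ ≤ _ := by
          refine sum_le_sum_of_subset_of_nonneg (subset_univ _) fun U _ _ => ?_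
          split_ifs
          · exact mul_nonneg (hwn U) (sum_nonneg fun I _ => by split_ifs <;> norm_num)
          · exact le_rfl
  have hfin : c ≤ c * ∑ U' ∈ Y.powerset, hitg P ω 𝒜 l j c U' := hchain.trans hcmp
  by_contra hcon
  rw [not_le] at hcon
  nlinarith

end Vale.Agent.P034
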