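import Vale.Agent.P034.Down1
import Vale.Agent.P034.Chain
import Vale.Agent.P034.Hit

/-! Module D3: heavy families, failure probability of a step, expected number of flags. -/

namespace Vale.Agent.P034
open Finset
variable {X : Type*} [Fintype X] [DecidableEq X]

theorem HF_cost {w : Finset X → ℝ} {p : ℝ} (hw : ∀ S, 0 ≤ w S) (hp : 0 < p)
    {T : ℕ} (hT : ∀ S, w S ≠ 0 → S.card ≤ T) {τ' : ℝ} (hτ : 0 < τ') (U : Finset X) :
    ∑ A ∈ HF w p τ' T U, p ^ A.card ≤ τ'⁻¹ * (2 ^ T * lam w p U ∅) := by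
  classical
  refine le_trans ?_ (mul_le_mul_of_nonneg_left (sum_lam_le hw hp hT U) (inv_nonneg.mpr hτ.le))
  rw [Finset.mul_sum]
  calc ∑ A ∈ HF w p τ' T U, p ^ A.card
      ≤ ∑ A ∈ HF w p τ' T U, τ'⁻¹ * (lam w p U A * p ^ A.card) := by
        apply Finset.sum_le_sum
        intro A hA
        unfold HF at hA
        have h1 := (Finset.mem_filter.mp hA).2.2.2.2
        have h2 : 1 ≤ τ'⁻¹ * lam w p U A := by
          rw [inv_mul_eq_div, le_div_iff₀ hτ, one_mul]
          exact h1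
        have h3 : 0 ≤ p ^ A.card := by positivity
        calc p ^ A.card = 1 * p ^ A.card := (one_mul _).symm
          _ ≤ (τ'⁻¹ * lam w p U A) * p ^ A.card := mul_le_mul_of_nonneg_right h2 h3
          _ = τ'⁻¹ * (lam w p U A * p ^ A.card) := by ring
    _ ≤ ∑ A ∈ univ.filter (fun A : Finset X => Disjoint A U),
        τ'⁻¹ * (lam w p U A * p ^ A.card) := by
        apply Finset.sum_le_sum_of_subset_of_nonneg
        · intro A hA
          unfold HF at hA
          rw [Finset.mem_filter] at hA ⊢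
          exact ⟨Finset.mem_univ _, hA.2.2.1⟩
        · intro A _ _
          exact mul_nonneg (inv_nonneg.mpr hτ.le)
            (mul_nonneg (lam_nonneg hw hp U A) (by positivity))

open Classical in
/-- if `U` has no `l` disjoint heavy sets in `Y`, new labels rarely contain a heavy set. -/
theorem afail_le {w : Finset X → ℝ} {p τ' : ℝ} {μ : Finset X → ℝ} (hμ : ∀ S, 0 ≤ μ S) {T l : ℕ}
    (hT : ∀ S, μ S ≠ 0 → S.card ≤ T) (hl : 1 ≤ l) {h : ℝ} (hh : 0 ≤ h) {Y U : Finset X}
    (hU : U ⊆ Y) (hD : ¬ HasDisj (HF w p τ' T) l U Y) :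
    ∑ S ∈ univ.filter (fun S : Finset X => ∃ N ∈ heavy w p τ' U S, N ⊆ (S ∩ Y) \ U), μ S
      ≤ T * l * h + ∑ z ∈ Y.filter (fun z => h ≤ ∑ S ∈ univ.filter (fun S => z ∈ S), μ S),
          (if z ∈ U then 0 else ∑ S ∈ univ.filter (fun S : Finset X => z ∈ S), μ S) := by
  have hHF : ∀ A ∈ HF w p τ' T U, A.card ≤ T ∧ A.Nonempty ∧ Disjoint A U := by
    intro A hA
    unfold HF at hA
    have h1 := (Finset.mem_filter.mp hA).2
    exact ⟨h1.2.2.1, h1.1, h1.2.1⟩
  obtain ⟨Z, hZ, hZc, hZhit⟩ := hitting_set (𝒜 := HF w p τ' T) hHF hl hD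
  set m : X → ℝ := fun z => ∑ S ∈ univ.filter (fun S : Finset X => z ∈ S), μ S with hm
  have hm0 : ∀ z, 0 ≤ m z := fun z => Finset.sum_nonneg (fun S _ => hμ S)
  -- union bound
  have h1 : ∑ S ∈ univ.filter (fun S : Finset X => ∃ N ∈ heavy w p τ' U S, N ⊆ (S ∩ Y) \ U), μ S
      ≤ ∑ z ∈ Z, m z := by
    have h2 : ∑ z ∈ Z, m z = ∑ S, μ S * ((Z.filter (fun z => z ∈ S)).card : ℝ) := by
      simp only [hm, Finset.sum_filter]
      rw [Finset.sum_comm]
      apply Finset.sum_congr rfl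
      intro S _
      rw [← Finset.sum_filter, Finset.sum_const, nsmul_eq_mul]
      ring
    rw [h2, Finset.sum_filter]
    apply Finset.sum_le_sum
    intro S _
    split_ifs with hS
    · by_cases h0 : μ S = 0
      · rw [h0]; simp
      obtain ⟨N, hN, hNs⟩ := hS
      unfold heavy at hN
      rw [Finset.mem_filter, Finset.mem_powerset] at hN
      have hNS : N ⊆ S := hN.1.trans Finset.sdiff_subset
      have hNH : N ∈ HF w p τ' T U := by
        unfold HF
        rw [Finset.mem_filter]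
        refine ⟨Finset.mem_univ _, hN.2.1, ?_, (Finset.card_le_card hNS).trans (hT S h0), hN.2.2⟩
        rw [Finset.disjoint_left]
        intro a ha haU
        exact (Finset.mem_sdiff.mp (hN.1 ha)).2 haU
      have hNY : N ⊆ Y := fun a ha =>
        (Finset.mem_inter.mp (Finset.mem_sdiff.mp (hNs ha)).1).2
      have h3 := hZhit N hNH hNY
      rw [Finset.disjoint_left] at h3
      push Not at h3
      obtain ⟨z, hzN, hzZ⟩ := h3
      have h4 : 1 ≤ (Z.filter (fun z => z ∈ S)).card := by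
        apply Finset.card_pos.mpr
        exact ⟨z, Finset.mem_filter.mpr ⟨hzZ, hNS hzN⟩⟩
      have h5 : (1 : ℝ) ≤ ((Z.filter (fun z => z ∈ S)).card : ℝ) := by exact_mod_cast h4
      have := hμ S
      nlinarith
    · exact mul_nonneg (hμ S) (Nat.cast_nonneg _)
  refine h1.trans ?_
  rw [← Finset.sum_filter_add_sum_filter_not Z (fun z => h ≤ m z), add_comm]
  apply add_le_add
  · calc ∑ z ∈ Z.filter (fun z => ¬ h ≤ m z), m z
        ≤ ∑ z ∈ Z.filter (fun z => ¬ h ≤ m z), h :=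
          Finset.sum_le_sum (fun z hz => (not_le.mp (Finset.mem_filter.mp hz).2).le)
      _ = ((Z.filter (fun z => ¬ h ≤ m z)).card : ℝ) * h := by
          rw [Finset.sum_const, nsmul_eq_mul]
      _ ≤ ((T * l : ℕ) : ℝ) * h := by
          apply mul_le_mul_of_nonneg_right _ hh
          exact_mod_cast (Finset.card_le_card (Finset.filter_subset _ _)).trans hZc
      _ = T * l * h := by push_cast; ring
  · calc ∑ z ∈ Z.filter (fun z => h ≤ m z), m z
        = ∑ z ∈ Z.filter (fun z => h ≤ m z), (if z ∈ U then 0 else m z) := by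
          apply Finset.sum_congr rfl
          intro z hz
          have hzU : z ∉ U := (Finset.mem_sdiff.mp (hZ (Finset.mem_filter.mp hz).1)).2
          rw [if_neg hzU]
      _ ≤ ∑ z ∈ Y.filter (fun z => h ≤ m z), (if z ∈ U then 0 else m z) := by
          apply Finset.sum_le_sum_of_subset_of_nonneg
          · intro z hz
            rw [Finset.mem_filter] at hz ⊢
            exact ⟨(Finset.mem_sdiff.mp (hZ hz.1)).1, hz.2⟩
          · intro z _ _
            split_ifs
            · exact le_rfl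
            · exact hm0 z

theorem En_sum' {β : Type*} (μ : Finset X → ℝ) (Y : Finset X) (fl : Finset X → Finset X → Prop)
    (n : ℕ) (s : Finset β) (φ : β → Finset X → ℕ → ℝ) :
    En μ Y fl n (fun U f => ∑ b ∈ s, φ b U f) = ∑ b ∈ s, En μ Y fl n (φ b) := by
  classical
  induction s using Finset.induction_on with
  | empty =>
    simp only [Finset.sum_empty]
    have := En_smul μ Y fl n 0 (fun _ _ => 0)
    simpa using this
  | insert b s hb ih =>
    rw [Finset.sum_insert hb]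
    have h1 : (fun (U : Finset X) (f : ℕ) => ∑ c ∈ insert b s, φ c U f)
        = fun U f => φ b U f + ∑ c ∈ s, φ c U f := by
      funext U f
      rw [Finset.sum_insert hb]
    rw [h1, En_add, ih]

/-- marginal of a point -/
noncomputable def mrg (μ : Finset X → ℝ) (z : X) : ℝ :=
  ∑ S ∈ univ.filter (fun S : Finset X => z ∈ S), μ S

open Classical in
/-- probability of a flag -/
noncomputable def pfl (μ : Finset X → ℝ) (fl : Finset X → Finset X → Prop) (U : Finset X) : ℝ :=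
  ∑ S ∈ univ.filter (fun S : Finset X => fl U S), μ S

theorem mrg_nonneg {μ : Finset X → ℝ} (hμ : ∀ S, 0 ≤ μ S) (z : X) : 0 ≤ mrg μ z :=
  Finset.sum_nonneg (fun S _ => hμ S)

open Classical in
theorem pfl_le_one {μ : Finset X → ℝ} (hμ : ∀ S, 0 ≤ μ S)
    (hμ1 : ∑ S, μ S = 1) (fl : Finset X → Finset X → Prop) (U : Finset X) : pfl μ fl U ≤ 1 := by
  rw [← hμ1]
  exact Finset.sum_le_sum_of_subset_of_nonneg (Finset.subset_univ _) (fun S _ _ => hμ S)

open Classical in
theorem pfl_split {w : Finset X → ℝ} {p κ τ' : ℝ} {μ : Finset X → ℝ} (hμ : ∀ S, 0 ≤ μ S)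
    {Y : Finset X} (U : Finset X) :
    pfl μ (fun U S => (S ∩ Y) \ U ∉ Reg w p κ τ' U S) U
      ≤ ∑ S ∈ univ.filter (fun S : Finset X => ((S ∩ Y) \ U).Nonempty ∧
            lam w p U ((S ∩ Y) \ U) < κ⁻¹), μ S
          + ∑ S ∈ univ.filter (fun S : Finset X => ∃ N ∈ heavy w p τ' U S,
            N ⊆ (S ∩ Y) \ U), μ S := by
  unfold pfl
  rw [Finset.sum_filter, Finset.sum_filter, Finset.sum_filter, ← Finset.sum_add_distrib]
  apply Finset.sum_le_sum
  intro S _
  have hμS := hμ S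
  by_cases hf : (S ∩ Y) \ U ∉ Reg w p κ τ' U S
  · rw [if_pos hf]
    by_cases hlight : ((S ∩ Y) \ U).Nonempty ∧ lam w p U ((S ∩ Y) \ U) < κ⁻¹
    · rw [if_pos hlight]
      split_ifs <;> linarith
    · have hheavy : ∃ N ∈ heavy w p τ' U S, N ⊆ (S ∩ Y) \ U := by
        by_contra hno
        apply hf
        unfold Reg
        rw [Finset.mem_filter, Finset.mem_powerset]
        refine ⟨Finset.sdiff_subset_sdiff Finset.inter_subset_left (Finset.Subset.refl _),
          ?_, ?_⟩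
        · by_cases hem : (S ∩ Y) \ U = ∅
          · exact Or.inl hem
          · right
            by_contra hc
            push Not at hc
            exact hlight ⟨Finset.nonempty_iff_ne_empty.mpr hem, hc⟩
        · intro N hN hsub
          exact hno ⟨N, hN, hsub⟩
      rw [if_neg hlight, if_pos hheavy]
      linarith
  · rw [if_neg hf]
    split_ifs <;> linarith

open Classical in
theorem pfl_pt {w : Finset X → ℝ} {p κ τ' : ℝ} {μ : Finset X → ℝ} (hμ : ∀ S, 0 ≤ μ S)
    (hμ1 : ∑ S, μ S = 1) {T l : ℕ} (hT : ∀ S, μ S ≠ 0 → S.card ≤ T) (hl : 1 ≤ l)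
    {h η : ℝ} (hh : 0 ≤ h) (hη : 0 < η) {Y : Finset X}
    (hB : ∀ U ⊆ Y, ∑ S ∈ univ.filter (fun S : Finset X => ((S ∩ Y) \ U).Nonempty ∧
        lam w p U ((S ∩ Y) \ U) < κ⁻¹), μ S ≤ η / 16) {U : Finset X} (hU : U ⊆ Y) :
    pfl μ (fun U S => (S ∩ Y) \ U ∉ Reg w p κ τ' U S) U ≤ (η / 16 + T * l * h)
        + ((if HasDisj (HF w p τ' T) l U Y then 1 else 0)
          + ∑ z ∈ Y.filter (fun z => h ≤ mrg μ z), mrg μ z * (if z ∈ U then 0 else 1)) := by
  have e2 := hB U hU
  by_cases hD : HasDisj (HF w p τ' T) l U Y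
  · have e3 := pfl_le_one hμ hμ1 (fun U S => (S ∩ Y) \ U ∉ Reg w p κ τ' U S) U
    have e4 : 0 ≤ ∑ z ∈ Y.filter (fun z => h ≤ mrg μ z), mrg μ z * (if z ∈ U then (0 : ℝ) else 1) :=
      Finset.sum_nonneg (fun z _ => mul_nonneg (mrg_nonneg hμ z) (by split_ifs <;> norm_num))
    rw [if_pos hD]
    have e5 : (0 : ℝ) ≤ T * l * h := by positivity
    linarith
  · rw [if_neg hD]
    have e1 := pfl_split (w := w) (p := p) (κ := κ) (τ' := τ') hμ (Y := Y) U
    have e3 := afail_le (w := w) (p := p) (τ' := τ') hμ hT hl hh hU hD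
    have e4 : ∑ z ∈ Y.filter (fun z => h ≤ mrg μ z), mrg μ z * (if z ∈ U then (0 : ℝ) else 1)
        = ∑ z ∈ Y.filter (fun z => h ≤ mrg μ z), (if z ∈ U then 0 else mrg μ z) := by
      apply Finset.sum_congr rfl
      intro z _
      split_ifs <;> ring
    rw [e4]
    unfold mrg
    linarith

open Classical in
theorem En_pt {w : Finset X → ℝ} {p τ' : ℝ} {μ : Finset X → ℝ}
    (hμ1 : ∑ S, μ S = 1) {T l : ℕ}
    {h : ℝ} (c : ℝ) {Y : Finset X} (fl : Finset X → Finset X → Prop) (j : ℕ) :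
    En μ Y fl j (fun U _ => c
        + ((if HasDisj (HF w p τ' T) l U Y then 1 else 0)
          + ∑ z ∈ Y.filter (fun z => h ≤ mrg μ z), mrg μ z * (if z ∈ U then 0 else 1)))
        = c
          + (En μ Y fl j (fun U _ => if HasDisj (HF w p τ' T) l U Y then 1 else 0)
          + ∑ z ∈ Y.filter (fun z => h ≤ mrg μ z), mrg μ z * (1 - mrg μ z) ^ j) := by
  rw [En_add μ Y fl j (fun _ _ => c), En_const hμ1, En_add, En_sum']
  congr 2
  apply Finset.sum_congr rfl
  intro z hz
  have hzY : z ∈ Y := (Finset.mem_filter.mp hz).1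
  rw [En_smul, En_notMem μ Y fl j hzY]
  congr 2
  have e1 : ∑ S ∈ univ.filter (fun S : Finset X => z ∈ S), μ S
      + ∑ S ∈ univ.filter (fun S : Finset X => ¬ z ∈ S), μ S = 1 := by
    rw [Finset.sum_filter_add_sum_filter_not, hμ1]
  unfold mrg
  linarith

/-- splitting the time sum -/
theorem time_sum {n : ℕ} {η : ℝ} (hη : 0 < η) (hn : 16 ≤ η * n) (a : ℕ → ℝ)
    (h1 : ∀ j, a j ≤ 1) (h2 : ∀ j < n, η * n / 8 ≤ (j : ℝ) → a j ≤ 5 * η / 16) :
    ∑ j ∈ range n, a j ≤ η * n / 2 := by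
  classical
  set x : ℝ := η * n / 8 with hx
  rw [← Finset.sum_filter_add_sum_filter_not (range n) (fun j : ℕ => (j : ℝ) < x)]
  have s1 : ∑ j ∈ (range n).filter (fun j : ℕ => (j : ℝ) < x), a j ≤ x + 1 := by
    calc ∑ j ∈ (range n).filter (fun j : ℕ => (j : ℝ) < x), a j
        ≤ ∑ j ∈ (range n).filter (fun j : ℕ => (j : ℝ) < x), (1 : ℝ) :=
          Finset.sum_le_sum (fun j _ => h1 j)
      _ = (((range n).filter (fun j : ℕ => (j : ℝ) < x)).card : ℝ) := by simp
      _ ≤ (⌈x⌉₊ : ℝ) := by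
          have : (range n).filter (fun j : ℕ => (j : ℝ) < x) ⊆ range ⌈x⌉₊ := by
            intro j hj
            rw [Finset.mem_filter] at hj
            rw [Finset.mem_range]
            exact Nat.lt_ceil.mpr hj.2
          have h1 := Finset.card_le_card this
          rw [Finset.card_range] at h1
          exact_mod_cast h1
      _ ≤ x + 1 := by
          have hx0 : 0 ≤ x := by rw [hx]; positivity
          exact (Nat.ceil_lt_add_one hx0).le
  have s2 : ∑ j ∈ (range n).filter (fun j : ℕ => ¬ (j : ℝ) < x), a j ≤ n * (5 * η / 16) := by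
    calc ∑ j ∈ (range n).filter (fun j : ℕ => ¬ (j : ℝ) < x), a j
        ≤ ∑ j ∈ (range n).filter (fun j : ℕ => ¬ (j : ℝ) < x), (5 * η / 16) := by
          apply Finset.sum_le_sum
          intro j hj
          rw [Finset.mem_filter, Finset.mem_range] at hj
          exact h2 j hj.1 (not_lt.mp hj.2)
      _ = (((range n).filter (fun j : ℕ => ¬ (j : ℝ) < x)).card : ℝ) * (5 * η / 16) := by
          rw [Finset.sum_const, nsmul_eq_mul]
      _ ≤ n * (5 * η / 16) := by
          apply mul_le_mul_of_nonneg_right _ (by positivity)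
          have := Finset.card_le_card (Finset.filter_subset (fun j : ℕ => ¬ (j : ℝ) < x) (range n))
          rw [Finset.card_range] at this
          exact_mod_cast this
  have s3 : x + 1 + n * (5 * η / 16) ≤ η * n / 2 := by
    rw [hx]; nlinarith
  exact (add_le_add s1 s2).trans s3

open Classical in
theorem flags_bound {w : Finset X → ℝ} {p κ τ' : ℝ} {μ : Finset X → ℝ} (hμ : ∀ S, 0 ≤ μ S)
    (hμ1 : ∑ S, μ S = 1) {T l n : ℕ} (hT : ∀ S, μ S ≠ 0 → S.card ≤ T) (hl : 1 ≤ l)
    {h η : ℝ} (hh : 0 ≤ h) (hη : 0 < η) {Y : Finset X}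
    (hB : ∀ U ⊆ Y, ∑ S ∈ univ.filter (fun S : Finset X => ((S ∩ Y) \ U).Nonempty ∧
        lam w p U ((S ∩ Y) \ U) < κ⁻¹), μ S ≤ η / 16)
    (hHD : ∀ j < n, En μ Y (fun U S => (S ∩ Y) \ U ∉ Reg w p κ τ' U S) j
        (fun U _ => if HasDisj (HF w p τ' T) l U Y then 1 else 0) ≤ η / 8)
    (hM : ∀ j : ℕ, η * n / 8 ≤ j →
      ∑ z ∈ Y.filter (fun z => h ≤ ∑ S ∈ univ.filter (fun S => z ∈ S), μ S),
        (∑ S ∈ univ.filter (fun S : Finset X => z ∈ S), μ S) *
          (1 - ∑ S ∈ univ.filter (fun S : Finset X => z ∈ S), μ S) ^ j ≤ η / 16)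
    (hZ : T * l * h ≤ η / 16) (hn : 16 ≤ η * n) :
    En μ Y (fun U S => (S ∩ Y) \ U ∉ Reg w p κ τ' U S) n (fun _ f => (f : ℝ)) ≤ η * n / 2 := by
  rw [En_flags hμ1]
  refine time_sum hη hn (fun j => En μ Y (fun U S => (S ∩ Y) \ U ∉ Reg w p κ τ' U S) j
    (fun U _ => pfl μ (fun U S => (S ∩ Y) \ U ∉ Reg w p κ τ' U S) U)) ?_ ?_
  · intro j
    show En μ Y _ j _ ≤ 1
    refine (En_mono hμ hT Y _ j (ψ := fun _ _ => 1) ?_).trans
      (le_of_eq (En_const hμ1 Y _ j 1))
    intro U _ _ _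
    exact pfl_le_one hμ hμ1 _ U
  · intro j hj hjn
    show En μ Y _ j _ ≤ _
    have h1 := En_mono hμ hT Y (fun U S => (S ∩ Y) \ U ∉ Reg w p κ τ' U S) j
      (φ := fun U _ => pfl μ (fun U S => (S ∩ Y) \ U ∉ Reg w p κ τ' U S) U)
      (ψ := fun U _ => (η / 16 + T * l * h)
        + ((if HasDisj (HF w p τ' T) l U Y then 1 else 0)
          + ∑ z ∈ Y.filter (fun z => h ≤ mrg μ z), mrg μ z * (if z ∈ U then 0 else 1)))
      (fun U hU _ _ => pfl_pt hμ hμ1 hT hl hh hη hB hU)
    rw [En_pt hμ1] at h1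
    have h3 := hHD j hj
    have h4 : ∑ z ∈ Y.filter (fun z => h ≤ mrg μ z), mrg μ z * (1 - mrg μ z) ^ j ≤ η / 16 :=
      hM j hjn
    linarith

end Vale.Agent.P034
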