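import Vale.Agent.P034.Defs

/-! Module P: pigeonhole over scales. -/

namespace Vale.Agent.P034
open Finset
variable {X : Type*} [Fintype X] [DecidableEq X]

theorem pigeon {Y : Finset X} (m : X → ℝ) (hm0 : ∀ z ∈ Y, 0 ≤ m z) (hm1 : ∀ z ∈ Y, m z ≤ 1)
    {T R : ℕ} (hsum : ∑ z ∈ Y, m z ≤ T) {η : ℝ} (hη : 0 < η)
    (hR : 32 * (T : ℝ) < R * η) (n : ℕ → ℕ) (h : ℕ → ℝ) (hpos : ∀ i, 0 < h i)
    (hanti : ∀ i, h (i + 1) ≤ h i)
    (hgrow : ∀ i, i + 1 < R → ((i : ℝ) + 2) * 8 ≤ η * h i * n (i + 1)) :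
    ∃ i < R, ∀ j : ℕ, η * n i / 8 ≤ j →
      ∑ z ∈ Y.filter (fun z => h i ≤ m z), m z * (1 - m z) ^ j ≤ η / 16 := by
  classical
  by_contra hcon
  push Not at hcon
  have hex : ∀ i, ∃ j : ℕ, i < R → (η * n i / 8 ≤ j ∧
      η / 16 < ∑ z ∈ Y.filter (fun z => h i ≤ m z), m z * (1 - m z) ^ j) := by
    intro i
    by_cases hi : i < R
    · obtain ⟨j, hj1, hj2⟩ := hcon i hi
      exact ⟨j, fun _ => ⟨hj1, hj2⟩⟩
    · exact ⟨0, fun h => absurd h hi⟩
  choose j hj using hex
  have hant : Antitone h := antitone_nat_of_succ_le hanti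
  have hterm : ∀ z ∈ Y, ∀ i < R, (if h i ≤ m z then (1 - m z) ^ (j i) else 0) ≤
      (if (h i ≤ m z ∧ ∀ k < i, m z < h k) then (1 : ℝ) else 0) + (1 / 2) ^ (i + 1) := by
    intro z hz i hi
    have h0 : 0 ≤ 1 - m z := by linarith [hm1 z hz]
    have h1 : 1 - m z ≤ 1 := by linarith [hm0 z hz]
    by_cases hc : h i ≤ m z
    · rw [if_pos hc]
      by_cases hk : ∀ k < i, m z < h k
      · rw [if_pos ⟨hc, hk⟩]
        have : (1 - m z) ^ (j i) ≤ 1 := pow_le_one₀ h0 h1
        have h2 : (0 : ℝ) ≤ (1 / 2) ^ (i + 1) := by positivity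
        linarith
      · rw [if_neg (fun hh => hk hh.2)]
        push Not at hk
        obtain ⟨k, hki, hk⟩ := hk
        obtain ⟨i', rfl⟩ : ∃ i', i = i' + 1 := ⟨i - 1, by omega⟩
        have hi' : h i' ≤ m z := le_trans (hant (by omega)) hk
        have hg := hgrow i' hi
        have hj1 := (hj (i' + 1) hi).1
        have hmj : (i' : ℝ) + 2 ≤ m z * (j (i' + 1) : ℝ) := by
          have e1 : (i' : ℝ) + 2 ≤ h i' * (η * n (i' + 1) / 8) := by nlinarith
          have e2 : h i' * (η * n (i' + 1) / 8) ≤ h i' * (j (i' + 1) : ℝ) :=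
            mul_le_mul_of_nonneg_left hj1 (hpos i').le
          have e3 : h i' * (j (i' + 1) : ℝ) ≤ m z * (j (i' + 1) : ℝ) :=
            mul_le_mul_of_nonneg_right hi' (Nat.cast_nonneg _)
          linarith
        have hexp : (1 - m z) ^ (j (i' + 1)) ≤ Real.exp (-(m z * (j (i' + 1) : ℝ))) := by
          have e1 : 1 - m z ≤ Real.exp (-(m z)) := by
            have := Real.add_one_le_exp (-(m z)); linarith
          calc (1 - m z) ^ (j (i' + 1)) ≤ (Real.exp (-(m z))) ^ (j (i' + 1)) :=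
                pow_le_pow_left₀ h0 e1 _
            _ = Real.exp (-(m z * (j (i' + 1) : ℝ))) := by
                rw [← Real.exp_nat_mul]; congr 1; ring
        have hhalf : Real.exp (-(1 : ℝ)) ≤ 1 / 2 := by
          rw [Real.exp_neg, one_div]
          exact inv_anti₀ (by norm_num) (by linarith [Real.exp_one_gt_d9])
        calc (1 - m z) ^ (j (i' + 1)) ≤ Real.exp (-(m z * (j (i' + 1) : ℝ))) := hexp
          _ ≤ Real.exp (-((i' : ℝ) + 2)) := Real.exp_le_exp.mpr (by linarith)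
          _ = (Real.exp (-(1 : ℝ))) ^ (i' + 1 + 1) := by
              rw [← Real.exp_nat_mul]; congr 1; push_cast; ring
          _ ≤ (1 / 2) ^ (i' + 1 + 1) := pow_le_pow_left₀ (Real.exp_pos _).le hhalf _
          _ = 0 + (1 / 2) ^ (i' + 1 + 1) := by ring
    · rw [if_neg hc]
      positivity
  have hfirst : ∀ z, ∑ i ∈ range R,
      (if (h i ≤ m z ∧ ∀ k < i, m z < h k) then (1 : ℝ) else 0) ≤ 1 := by
    intro z
    rw [← Finset.sum_filter, Finset.sum_const, nsmul_eq_mul, mul_one]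
    have : ((range R).filter (fun i => h i ≤ m z ∧ ∀ k < i, m z < h k)).card ≤ 1 := by
      rw [Finset.card_le_one]
      intro a ha b hb
      simp only [mem_filter] at ha hb
      rcases lt_trichotomy a b with hab | hab | hab
      · exact absurd (hb.2.2 a hab) (not_lt.mpr ha.2.1)
      · exact hab
      · exact absurd (ha.2.2 b hab) (not_lt.mpr hb.2.1)
    exact_mod_cast this
  have hgeom : ∑ i ∈ range R, ((1 : ℝ) / 2) ^ (i + 1) ≤ 1 := by
    have : ∀ N : ℕ, ∑ i ∈ range N, ((1 : ℝ) / 2) ^ (i + 1) = 1 - (1 / 2) ^ N := by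
      intro N
      induction N with
      | zero => simp
      | succ N ih => rw [Finset.sum_range_succ, ih]; ring
    rw [this]
    have : (0 : ℝ) ≤ (1 / 2) ^ R := by positivity
    linarith
  have hz2 : ∀ z ∈ Y, ∑ i ∈ range R, (if h i ≤ m z then (1 - m z) ^ (j i) else 0) ≤ 2 := by
    intro z hz
    calc ∑ i ∈ range R, (if h i ≤ m z then (1 - m z) ^ (j i) else 0)
        ≤ ∑ i ∈ range R, ((if (h i ≤ m z ∧ ∀ k < i, m z < h k) then (1 : ℝ) else 0)
            + (1 / 2) ^ (i + 1)) :=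
          Finset.sum_le_sum (fun i hi => hterm z hz i (Finset.mem_range.mp hi))
      _ ≤ 2 := by rw [Finset.sum_add_distrib]; linarith [hfirst z]
  have hlow : (R : ℝ) * (η / 16) ≤ ∑ i ∈ range R,
      ∑ z ∈ Y.filter (fun z => h i ≤ m z), m z * (1 - m z) ^ (j i) := by
    calc (R : ℝ) * (η / 16) = ∑ i ∈ range R, η / 16 := by simp
      _ ≤ _ := Finset.sum_le_sum (fun i hi => ((hj i (Finset.mem_range.mp hi)).2).le)
  have hup : ∑ i ∈ range R, ∑ z ∈ Y.filter (fun z => h i ≤ m z), m z * (1 - m z) ^ (j i)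
      ≤ 2 * T := by
    calc ∑ i ∈ range R, ∑ z ∈ Y.filter (fun z => h i ≤ m z), m z * (1 - m z) ^ (j i)
        = ∑ i ∈ range R, ∑ z ∈ Y, m z * (if h i ≤ m z then (1 - m z) ^ (j i) else 0) := by
          refine Finset.sum_congr rfl (fun i _ => ?_)
          rw [Finset.sum_filter]
          refine Finset.sum_congr rfl (fun z _ => ?_)
          split_ifs <;> simp
      _ = ∑ z ∈ Y, m z * ∑ i ∈ range R, (if h i ≤ m z then (1 - m z) ^ (j i) else 0) := by
          rw [Finset.sum_comm]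
          refine Finset.sum_congr rfl (fun z _ => ?_)
          rw [Finset.mul_sum]
      _ ≤ ∑ z ∈ Y, m z * 2 :=
          Finset.sum_le_sum (fun z hz => mul_le_mul_of_nonneg_left (hz2 z hz) (hm0 z hz))
      _ = 2 * ∑ z ∈ Y, m z := by rw [← Finset.sum_mul]; ring
      _ ≤ 2 * T := by linarith
  nlinarith

end Vale.Agent.P034
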