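import Vale.Agent.P034.Down2
import Vale.Agent.P034.Down3
import Vale.Agent.P034.ChainCover
import Vale.Agent.P034.Pigeon

/-! Module D: the down step. -/

namespace Vale.Agent.P034
open Finset
variable {X : Type*} [Fintype X] [DecidableEq X]

theorem dn_cap_mono {Nm a b : ℕ} (h : a ≤ b) : cap Nm a ≤ cap Nm b := by
  unfold cap
  have h1 : ((a + Nm : ℕ) : ℝ) ≤ ((b + Nm : ℕ) : ℝ) := by exact_mod_cast Nat.add_le_add_right h Nm
  exact pow_le_pow_left₀ (Nat.cast_nonneg _) h1 3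

/-- admissibility of a small union. -/
def dnP (w : Finset X → ℝ) (p τ' : ℝ) (T Nm : ℕ) (θ δ Θ : ℝ) (U : Finset X) : Prop :=
  Fh w p τ' T Nm U < (1 - δ) * θ ∧ lam w p U ∅ ≤ Θ ∧ cap Nm (U.card + T) ≤ Θ

theorem down_cover {w : Finset X → ℝ} {p : ℝ} (hw : ∀ S, 0 ≤ w S) (hp : 0 < p) (hp1 : p ≤ 1)
    {T Nm : ℕ} (hT1 : 1 ≤ T) (hT : ∀ S, w S ≠ 0 → S.card ≤ T)
    {K u R : ℕ} {κ θ δ ε ξ η : ℝ} (n l M : ℕ → ℕ) (κs Θs h : ℕ → ℝ)
    (hθ0 : 1 / 2 ≤ θ) (hδ0 : 0 < δ) (hδ1 : δ ≤ 1) (hε : 0 < ε)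
    (hξ0 : 0 < ξ) (hξ1 : ξ ≤ 1) (hη0 : 0 < η) (hη1 : η ≤ 1) (hu : 1 ≤ u)
    (N1 : ∀ i < R, cap Nm (T * n i + T) ≤ Θs i)
    (N2 : ∀ i < R, Θs i ≤ ε * κ)
    (N3 : ∀ i < R, 1 ≤ κs i ∧ κs i ^ BT T ≤ κ)
    (N4 : ∀ i < R, 2 * 64 ^ T * ε * Θs i ≤ δ / 4)
    (N5 : ξ * 8 ^ T ≤ δ / 4)
    (N6 : ∀ i < R, (1 - δ / 2) ^ n i ≤ (1 / 4) * ξ ^ M i)
    (N7 : ∀ i < R, ((K : ℝ) + 1) ^ u * (1 - δ) ^ n i ≤ 1 / 4)
    (N8 : (K : ℝ) ≤ Real.exp ((u : ℝ) / 8))
    (N9a : ∀ i < R, 16 ≤ η * n i) (N9b : 16 ≤ η * ((K : ℝ) + 1)) (N9c : ∀ i < R, η * n i ≤ M i)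
    (N10 : ∀ i < R, ((8 : ℝ) ^ T) ^ n i *
      Real.exp (-(l i : ℝ) + 3 * (κs i ^ BT T * (2 ^ T * Θs i))) ≤ η / 8)
    (N11 : ∀ i < R, u ≤ l i ∧ u ≤ T * n i)
    (N12a : ∀ i < R, (T : ℝ) * l i * h i ≤ η / 16) (N12b : ∀ i, 0 < h i)
    (N12c : ∀ i, h (i + 1) ≤ h i)
    (N12d : ∀ i, i + 1 < R → ((i : ℝ) + 2) * 8 ≤ η * h i * n (i + 1))
    (N13 : 32 * (T : ℝ) < R * η)
    (N14 : 2 * 4 ^ T * ((K : ℝ) + 1) ^ (T + 1) ≤ κ) :
    Cov (p / 8) ((∑ i ∈ range R, ((n i : ℝ) + 1)) * (10 * Real.exp (-(u : ℝ) / 2)))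
      {Y : Finset X | Y.card ≤ K ∧ θ ≤ Fh w p ((κ ^ BT T)⁻¹) T Nm Y ∧
        ∀ i < R, ∀ U ⊆ Y, U.card ≤ T * n i →
          Fh w p ((κs i ^ BT T)⁻¹) T Nm U < (1 - δ) * θ} := by
  classical
  have hθpos : 0 < θ := by linarith
  set τ : ℝ := (κ ^ BT T)⁻¹ with hτdef
  set τs : ℕ → ℝ := fun i => (κs i ^ BT T)⁻¹ with hτsdef
  set 𝒴 : Set (Finset X) := {Y : Finset X | Y.card ≤ K ∧ θ ≤ Fh w p τ T Nm Y ∧
        ∀ i < R, ∀ U ⊆ Y, U.card ≤ T * n i → Fh w p (τs i) T Nm U < (1 - δ) * θ} with h𝒴def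
  -- the flag event
  set fl : ℕ → Finset X → Finset X → Finset X → Prop :=
    fun i Y U S => (S ∩ Y) \ U ∉ Reg w p κ (τs i) U S with hfldef
  set μ : Finset X → Finset X → ℝ := fun Y => muY w p τ T Nm Y with hμdef
  set C : ℝ := 10 * Real.exp (-(u : ℝ) / 2) with hC
  -- basic numerics
  have hκ1 : 1 ≤ κ := by
    refine le_trans ?_ N14
    have h1 : (1:ℝ) ≤ 4 ^ T := one_le_pow₀ (by norm_num)
    have h2 : (1:ℝ) ≤ ((K : ℝ) + 1) ^ (T + 1) :=
      one_le_pow₀ (by have : (0:ℝ) ≤ K := Nat.cast_nonneg K; linarith)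
    nlinarith
  have hκBT : κ ≤ κ ^ BT T := by
    have h1 : 1 ≤ BT T := Nat.one_le_pow _ _ (by norm_num)
    calc κ = κ ^ 1 := (pow_one κ).symm
      _ ≤ κ ^ BT T := pow_le_pow_right₀ hκ1 h1
  have hτs_pos : ∀ i < R, 0 < τs i := fun i hi => by
    have := (N3 i hi).1
    simp only [hτsdef]; positivity
  have hτκ : ∀ i < R, κ⁻¹ ≤ τs i := by
    intro i hi
    have h1 := N3 i hi
    exact inv_anti₀ (by have := h1.1; positivity) h1.2
  have hττ : ∀ i < R, τ ≤ τs i := by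
    intro i hi
    refine le_trans ?_ (hτκ i hi)
    exact inv_anti₀ (by linarith) hκBT
  have hFpos : ∀ Y ∈ 𝒴, 0 < Fh w p τ T Nm Y := fun Y hY => hθpos.trans_le hY.2.1
  -- admissibility
  have hP : ∀ i < R, ∀ Y ∈ 𝒴, ∀ U ⊆ Y, U.card ≤ T * n i →
      dnP w p (τs i) T Nm θ δ (Θs i) U := by
    intro i hi Y hY U hU hUc
    have hcap : cap Nm (U.card + T) ≤ Θs i :=
      (dn_cap_mono (Nat.add_le_add_right hUc T)).trans (N1 i hi)
    exact ⟨hY.2.2 i hi U hU hUc, ((cap_of_Fh_pos (hFpos Y hY) U hU).le.trans hcap), hcap⟩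
  have h1δ : (1 - δ) * θ ≤ θ := by nlinarith
  -- covers of type A
  have hA : ∀ i < R, ∀ j < n i, Cov (p / 8) C {Y : Finset X | Y ∈ 𝒴 ∧
      η / 8 ≤ En (μ Y) Y (fl i Y) j
        (fun U _ => if HasDisj (HF w p (τs i) T) (l i) U Y then 1 else 0)} := by
    intro i hi j hj
    refine hit_cover (P := dnP w p (τs i) T Nm θ δ (Θs i)) (ω := omA w p T Nm θ)
      (Γ := 8 ^ T) (D := κs i ^ BT T * (2 ^ T * Θs i)) (𝒜 := HF w p (τs i) T)
      (T := T) (j := j) (u := u) (K := K) (l := l i) (c := η / 8) hp hp1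
      (fun U σ => omA_nonneg hw hp hθpos T Nm U σ) (by positivity) ?_ ?_ ?_ hu (N11 i hi).1
      (by positivity) ?_ N8 _ ?_
    · intro U hU
      exact cost_all hw hp hT hθpos (hU.1.le.trans h1δ)
    · intro U A hA
      unfold HF at hA
      rw [mem_filter] at hA
      exact ⟨hA.2.1, hA.2.2.1⟩
    · intro U hU
      refine (HF_cost hw hp hT (hτs_pos i hi) U).trans ?_
      have h1 : (τs i)⁻¹ = κs i ^ BT T := by simp only [hτsdef, inv_inv]
      rw [h1]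
      have h2 : 0 ≤ κs i ^ BT T := by have := (N3 i hi).1; positivity
      exact mul_le_mul_of_nonneg_left (mul_le_mul_of_nonneg_left hU.2.1 (by positivity)) h2
    · refine le_trans ?_ (N10 i hi)
      refine mul_le_mul_of_nonneg_right ?_ (Real.exp_pos _).le
      exact pow_le_pow_right₀ (one_le_pow₀ (by norm_num)) hj.le
    · rintro Y ⟨hY, hE⟩
      refine ⟨hY.1, fun U hU hUc => hP i hi Y hY U hU
        (hUc.trans (Nat.mul_le_mul_left T hj.le)), μ Y, fl i Y,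
        fun S => muY_nonneg hw hp τ T Nm Y S, muY_sum (hFpos Y hY), muY_supp hT, ?_, hE⟩
      intro U hU _ σ hσ
      exact dom_all hw hp hT hθpos hY.2.1 hU hσ
  -- covers of type B
  have hB : ∀ i < R, Cov (p / 8) C {Y : Finset X | Y ∈ 𝒴 ∧
      En (μ Y) Y (fl i Y) (n i) (fun _ f => (f : ℝ)) ≤ M i / 2} := by
    intro i hi
    have hM1 : 1 ≤ M i := by
      have h1 := N9a i hi
      have h2 := N9c i hi
      have h3 : (1:ℝ) ≤ M i := by linarith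
      exact_mod_cast h3
    refine chain_cover (P := dnP w p (τs i) T Nm θ δ (Θs i))
      (ω := om w p κ (τs i) ε ξ T Nm θ) (ρ := 1 - δ / 2) (T := T) (n := n i) (u := u) (K := K)
      (M := M i) (δ := δ) (ξ := ξ) hp hp1
      (fun U σ => om_nonneg hw hp hθpos κ (τs i) ε hξ0.le T Nm U σ) (by linarith) ?_
      hδ0.le hδ1 hξ0 hξ1 hu hM1 (N7 i hi) (N6 i hi) N8 _ ?_
    · intro U hU
      have c1 := cost_reg hw hp hT hθpos hε hκ1 (N2 i hi) (hτκ i hi) hU.2.2 hU.1.le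
      have c2 := cost_bad hw hp hT hθ0 hε hU.2.2
      have c3 := cost_all (Nm := Nm) (τ' := τs i) hw hp hT hθpos (hU.1.le.trans h1δ)
      have e : ∑ σ ∈ univ.filter (fun σ : Finset X => Disjoint σ U),
          om w p κ (τs i) ε ξ T Nm θ U σ * p ^ σ.card =
          ∑ σ ∈ univ.filter (fun σ : Finset X => Disjoint σ U),
            omR w p κ (τs i) ε T Nm θ U σ * p ^ σ.card +
          ∑ σ ∈ univ.filter (fun σ : Finset X => Disjoint σ U),
            omB w p ε T Nm θ U σ * p ^ σ.card +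
          ξ * ∑ σ ∈ univ.filter (fun σ : Finset X => Disjoint σ U),
            omA w p T Nm θ U σ * p ^ σ.card := by
        rw [mul_sum, ← sum_add_distrib, ← sum_add_distrib]
        refine sum_congr rfl fun σ _ => ?_
        unfold om; ring
      rw [e]
      have c4 := N4 i hi
      have c5 : ξ * ∑ σ ∈ univ.filter (fun σ : Finset X => Disjoint σ U),
            omA w p T Nm θ U σ * p ^ σ.card ≤ ξ * 8 ^ T :=
        mul_le_mul_of_nonneg_left c3 hξ0.le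
      linarith
    · rintro Y ⟨hY, hE⟩
      refine ⟨hY.1, fun U hU hUc => hP i hi Y hY U hU hUc, μ Y, fl i Y,
        fun S => muY_nonneg hw hp τ T Nm Y S, muY_sum (hFpos Y hY), muY_supp hT, ?_, ?_, hE⟩
      · intro V hV hVu
        exact muY_small hw hp hp1 (hττ i hi) hθpos hV hY.2.1
          (hY.2.2 i hi V hV (hVu.le.trans (N11 i hi).2))
      · intro U hU _ σ hσ
        refine le_trans (le_of_eq (sum_congr rfl fun S _ => ?_))
          (dom_step (κ := κ) (τ' := τs i) (ε := ε) hw hp hp1 hT hθpos hξ0 hξ1 hY.2.1 hU hσ)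
        by_cases hfl : (S ∩ Y) \ U ∉ Reg w p κ (τs i) U S
        · have hfl' : fl i Y U S := hfl
          rw [if_pos hfl', if_pos hfl]
        · have hfl' : ¬ fl i Y U S := hfl
          rw [if_neg hfl', if_neg hfl]
  -- union of all the classes
  have hU : Cov (p / 8) (∑ i ∈ range R, (∑ _j ∈ range (n i), C + C))
      (⋃ i ∈ range R, ((⋃ j ∈ range (n i), {Y : Finset X | Y ∈ 𝒴 ∧
      η / 8 ≤ En (μ Y) Y (fl i Y) j
        (fun U _ => if HasDisj (HF w p (τs i) T) (l i) U Y then 1 else 0)}) ∪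
        {Y : Finset X | Y ∈ 𝒴 ∧ En (μ Y) Y (fl i Y) (n i) (fun _ f => (f : ℝ)) ≤ M i / 2})) := by
    refine Cov_biUnion (by positivity) _ _ _ fun i hi => ?_
    rw [mem_range] at hi
    refine Cov_union (by positivity) ?_ (hB i hi)
    refine Cov_biUnion (by positivity) _ _ _ fun j hj => ?_
    rw [mem_range] at hj
    exact hA i hi j hj
  refine Cov_mono hU (le_of_eq ?_) ?_
  · rw [sum_mul]
    refine sum_congr rfl fun i _ => ?_
    rw [sum_const, card_range, nsmul_eq_mul]; ring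
  · intro Y hY
    have hY' : Y ∈ 𝒴 := hY
    have hμ0 : ∀ S, 0 ≤ μ Y S := fun S => muY_nonneg hw hp τ T Nm Y S
    have hμ1 : ∑ S, μ Y S = 1 := muY_sum (hFpos Y hY')
    have hμT : ∀ S, μ Y S ≠ 0 → S.card ≤ T := muY_supp hT
    set m : X → ℝ := fun z => ∑ S ∈ univ.filter (fun S : Finset X => z ∈ S), μ Y S with hm
    have hm0 : ∀ z ∈ Y, 0 ≤ m z := fun z _ => sum_nonneg fun S _ => hμ0 S
    have hm1 : ∀ z ∈ Y, m z ≤ 1 := by
      intro z _
      rw [← hμ1]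
      exact sum_le_sum_of_subset_of_nonneg (subset_univ _) fun S _ _ => hμ0 S
    obtain ⟨i, hi, hpig⟩ := pigeon m hm0 hm1 (marg_sum hμ0 hμ1 hμT Y) hη0 N13 n h N12b N12c N12d
    simp only [Set.mem_iUnion, Set.mem_union, mem_range]
    refine ⟨i, hi, ?_⟩
    by_cases hc : ∃ j < n i, η / 8 ≤ En (μ Y) Y (fl i Y) j
        (fun U _ => if HasDisj (HF w p (τs i) T) (l i) U Y then 1 else 0)
    · obtain ⟨j, hj, hE⟩ := hc
      exact Or.inl ⟨j, hj, hY', hE⟩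
    · right
      refine ⟨hY', ?_⟩
      have hl1 : 1 ≤ l i := hu.trans (N11 i hi).1
      have hHD : ∀ j < n i, En (μ Y) Y (fl i Y) j
          (fun U _ => if HasDisj (HF w p (τs i) T) (l i) U Y then 1 else 0) ≤ η / 8 := by
        intro j hj
        by_contra hcon
        exact hc ⟨j, hj, (not_le.1 hcon).le⟩
      have hlight : ∀ U ⊆ Y, ∑ S ∈ univ.filter (fun S : Finset X => ((S ∩ Y) \ U).Nonempty ∧
          lam w p U ((S ∩ Y) \ U) < κ⁻¹), μ Y S ≤ η / 16 := by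
        intro U hU
        refine (muY_light hw hp hT hY'.1 N14 (hθ0.trans hY'.2.1) hU).trans ?_
        have hK0 : (0:ℝ) < (K:ℝ) + 1 := by positivity
        rw [div_le_div_iff₀ hK0 (by norm_num)]
        linarith
      have hfb := flags_bound (w := w) (p := p) (κ := κ) (τ' := τs i) (μ := μ Y) hμ0 hμ1
        (l := l i) (n := n i) hμT hl1 (h := h i) (η := η) (N12b i).le hη0 (Y := Y)
        hlight hHD hpig (N12a i hi) (N9a i hi)
      refine hfb.trans ?_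
      have := N9c i hi
      linarith

end Vale.Agent.P034
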