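import Vale.Agent.P034.LamBasics

/-! Module D1: the sampling measure of a state. -/

namespace Vale.Agent.P034
open Finset
variable {X : Type*} [Fintype X] [DecidableEq X]

open Classical in
/-- the sampling measure of a state `Y`. -/
noncomputable def muY (w : Finset X → ℝ) (p τ : ℝ) (T Nm : ℕ) (Y S : Finset X) : ℝ :=
  (if Good w p T Nm Y S then w S * p ^ (S \ Y).card * Wt w p τ Y S else 0) / Fh w p τ T Nm Y

theorem muY_nonneg {w : Finset X → ℝ} {p : ℝ} (hw : ∀ S, 0 ≤ w S) (hp : 0 < p) (τ : ℝ)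
    (T Nm : ℕ) (Y S : Finset X) : 0 ≤ muY w p τ T Nm Y S := by
  unfold muY
  refine div_nonneg ?_ (Fh_nonneg hw hp τ T Nm Y)
  split_ifs
  · exact mul_nonneg (mul_nonneg (hw S) (by positivity)) (Wt_nonneg _ _ _ _ _)
  · exact le_rfl

theorem muY_sum {w : Finset X → ℝ} {p τ : ℝ} {T Nm : ℕ} {Y : Finset X}
    (h : 0 < Fh w p τ T Nm Y) : ∑ S, muY w p τ T Nm Y S = 1 := by
  classical
  unfold muY
  rw [← Finset.sum_div]
  have h1 : (∑ S, if Good w p T Nm Y S then w S * p ^ (S \ Y).card * Wt w p τ Y S else 0)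
      = Fh w p τ T Nm Y := by
    unfold Fh
    rw [Finset.sum_filter]
  rw [h1]
  exact div_self h.ne'

theorem muY_supp {w : Finset X → ℝ} {p τ : ℝ} {T Nm : ℕ}
    (hT : ∀ S, w S ≠ 0 → S.card ≤ T) {Y : Finset X} :
    ∀ S, muY w p τ T Nm Y S ≠ 0 → S.card ≤ T := by
  intro S hS
  apply hT
  intro h0
  apply hS
  unfold muY
  simp [h0]

open Classical in
theorem muY_small {w : Finset X → ℝ} {p : ℝ} (hw : ∀ S, 0 ≤ w S) (hp : 0 < p) (hp1 : p ≤ 1)
    {T Nm : ℕ} {τ τ' θ δ : ℝ} (hτ : τ ≤ τ') (hθ : 0 < θ) {Y V : Finset X} (hV : V ⊆ Y)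
    (hY : θ ≤ Fh w p τ T Nm Y) (hF : Fh w p τ' T Nm V < (1 - δ) * θ) :
    ∑ S ∈ univ.filter (fun S : Finset X => S ∩ Y ⊆ V), muY w p τ T Nm Y S ≤ 1 - δ := by
  have hF0 : 0 < Fh w p τ T Nm Y := lt_of_lt_of_le hθ hY
  have h1 : ∑ S ∈ univ.filter (fun S : Finset X => S ∩ Y ⊆ V), muY w p τ T Nm Y S
      ≤ Fh w p τ' T Nm V / Fh w p τ T Nm Y := by
    unfold muY
    rw [← Finset.sum_div]
    refine div_le_div_of_nonneg_right ?_ hF0.le
    rw [Finset.sum_filter]
    conv_rhs => unfold Fh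
    rw [Finset.sum_filter]
    refine Finset.sum_le_sum (fun S _ => ?_)
    by_cases hS : S ∩ Y ⊆ V
    · rw [if_pos hS]
      by_cases hG : Good w p T Nm Y S
      · rw [if_pos hG, if_pos (Good_anti hV hG)]
        have hsd : S \ Y = S \ V := by
          ext x
          simp only [Finset.mem_sdiff]
          constructor
          · rintro ⟨h2, h3⟩
            exact ⟨h2, fun h4 => h3 (hV h4)⟩
          · rintro ⟨h2, h3⟩
            exact ⟨h2, fun h4 => h3 (hS (Finset.mem_inter.mpr ⟨h2, h4⟩))⟩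
        rw [hsd]
        refine mul_le_mul_of_nonneg_left ?_ (mul_nonneg (hw S) (by positivity))
        unfold Wt
        rw [hsd]
        refine div_le_div_of_nonneg_left (by positivity) (by positivity) ?_
        refine pow_le_pow_right₀ (by norm_num) (ell_mono ?_)
        intro N hN
        unfold heavy at hN ⊢
        rw [Finset.mem_filter, Finset.mem_powerset] at hN ⊢
        refine ⟨hsd ▸ hN.1, hN.2.1, hτ.trans (hN.2.2.trans ?_)⟩
        exact lam_le_lam hw hp hp1 (Finset.Subset.refl N)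
          (Finset.union_subset_union hV (Finset.Subset.refl N))
      · rw [if_neg hG]
        split_ifs
        · exact mul_nonneg (mul_nonneg (hw S) (by positivity)) (Wt_nonneg _ _ _ _ _)
        · exact le_rfl
    · rw [if_neg hS]
      split_ifs
      · exact mul_nonneg (mul_nonneg (hw S) (by positivity)) (Wt_nonneg _ _ _ _ _)
      · exact le_rfl
  refine h1.trans ?_
  have h2 : 0 ≤ Fh w p τ' T Nm V := Fh_nonneg hw hp τ' T Nm V
  have h3 : 0 < (1 - δ) * θ := lt_of_le_of_lt h2 hF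
  have h4 : 0 < 1 - δ := by
    by_contra hcon
    have : (1 - δ) * θ ≤ 0 := mul_nonpos_of_nonpos_of_nonneg (not_lt.mp hcon) hθ.le
    linarith
  rw [div_le_iff₀ hF0]
  calc Fh w p τ' T Nm V ≤ (1 - δ) * θ := hF.le
    _ ≤ (1 - δ) * Fh w p τ T Nm Y := mul_le_mul_of_nonneg_left hY h4.le

/-- number of subsets of size at most `T`. -/
private theorem card_small_subsets (Y : Finset X) (T : ℕ) :
    (Y.powerset.filter (fun σ => σ.card ≤ T)).card ≤ (Y.card + 1) ^ T := by
  induction T with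
  | zero =>
    rw [pow_zero]
    have : Y.powerset.filter (fun σ => σ.card ≤ 0) ⊆ {∅} := by
      intro σ hσ
      rw [Finset.mem_filter] at hσ
      rw [Finset.mem_singleton]
      exact Finset.card_eq_zero.mp (Nat.le_zero.mp hσ.2)
    exact (Finset.card_le_card this).trans (by simp)
  | succ T ih =>
    set 𝒮 := Y.powerset.filter (fun σ => σ.card ≤ T) with h𝒮
    have hsub : Y.powerset.filter (fun σ => σ.card ≤ T + 1)
        ⊆ 𝒮 ∪ (𝒮 ×ˢ Y).image (fun x => insert x.2 x.1) := by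
      intro σ hσ
      rw [Finset.mem_filter, Finset.mem_powerset] at hσ
      rw [Finset.mem_union]
      by_cases hc : σ.card ≤ T
      · left
        rw [h𝒮, Finset.mem_filter, Finset.mem_powerset]
        exact ⟨hσ.1, hc⟩
      · right
        have hne : σ.Nonempty := by
          rw [← Finset.card_pos]; omega
        obtain ⟨x, hx⟩ := hne
        rw [Finset.mem_image]
        refine ⟨(σ.erase x, x), ?_, Finset.insert_erase hx⟩
        rw [Finset.mem_product]
        refine ⟨?_, hσ.1 hx⟩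
        rw [h𝒮, Finset.mem_filter, Finset.mem_powerset, Finset.card_erase_of_mem hx]
        exact ⟨(Finset.erase_subset _ _).trans hσ.1, by omega⟩
    calc _ ≤ (𝒮 ∪ (𝒮 ×ˢ Y).image (fun x => insert x.2 x.1)).card := Finset.card_le_card hsub
      _ ≤ 𝒮.card + ((𝒮 ×ˢ Y).image (fun x => insert x.2 x.1)).card := Finset.card_union_le _ _
      _ ≤ 𝒮.card + (𝒮 ×ˢ Y).card := Nat.add_le_add_left Finset.card_image_le _
      _ = 𝒮.card * (Y.card + 1) := by rw [Finset.card_product]; ring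
      _ ≤ (Y.card + 1) ^ T * (Y.card + 1) := Nat.mul_le_mul_right _ ih
      _ = (Y.card + 1) ^ (T + 1) := by rw [pow_succ]

open Classical in
/-- samples whose new label set is light are rare. -/
theorem muY_light {w : Finset X → ℝ} {p : ℝ} (hw : ∀ S, 0 ≤ w S) (hp : 0 < p)
    {T Nm K : ℕ} (hT : ∀ S, w S ≠ 0 → S.card ≤ T) {τ κ : ℝ} {Y U : Finset X}
    (hYK : Y.card ≤ K) (hκ : 2 * 4 ^ T * ((K : ℝ) + 1) ^ (T + 1) ≤ κ)
    (hY : 1 / 2 ≤ Fh w p τ T Nm Y) (hU : U ⊆ Y) :
    ∑ S ∈ univ.filter (fun S : Finset X => ((S ∩ Y) \ U).Nonempty ∧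
        lam w p U ((S ∩ Y) \ U) < κ⁻¹), muY w p τ T Nm Y S ≤ 1 / ((K : ℝ) + 1) := by
  have hF0 : 0 < Fh w p τ T Nm Y := by linarith
  have hK0 : (0 : ℝ) < (K : ℝ) + 1 := by positivity
  have hκ0 : 0 < κ := lt_of_lt_of_le (by positivity) hκ
  set 𝒮 := Y.powerset.filter (fun σ => σ.card ≤ T) with h𝒮
  set 𝒮' := 𝒮.filter (fun σ => lam w p U σ < κ⁻¹) with h𝒮'
  -- group by label
  have h1 : ∑ S ∈ univ.filter (fun S : Finset X => ((S ∩ Y) \ U).Nonempty ∧
        lam w p U ((S ∩ Y) \ U) < κ⁻¹), muY w p τ T Nm Y S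
      ≤ ∑ σ ∈ 𝒮', ∑ S ∈ univ.filter (fun S : Finset X => (S ∩ Y) \ U = σ),
        muY w p τ T Nm Y S := by
    rw [Finset.sum_filter]
    have h2 : ∀ σ ∈ 𝒮', ∑ S ∈ univ.filter (fun S : Finset X => (S ∩ Y) \ U = σ),
        muY w p τ T Nm Y S = ∑ S, if (S ∩ Y) \ U = σ then muY w p τ T Nm Y S else 0 :=
      fun σ _ => by rw [Finset.sum_filter]
    rw [Finset.sum_congr rfl h2, Finset.sum_comm]
    refine Finset.sum_le_sum (fun S _ => ?_)
    have hnn : ∀ σ ∈ 𝒮', 0 ≤ if (S ∩ Y) \ U = σ then muY w p τ T Nm Y S else 0 := by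
      intro σ _
      split_ifs
      · exact muY_nonneg hw hp _ _ _ _ _
      · exact le_rfl
    by_cases hS : ((S ∩ Y) \ U).Nonempty ∧ lam w p U ((S ∩ Y) \ U) < κ⁻¹
    · rw [if_pos hS]
      by_cases hz : muY w p τ T Nm Y S = 0
      · rw [hz]
        simp
      · have hc := muY_supp hT S hz
        have hmem : (S ∩ Y) \ U ∈ 𝒮' := by
          rw [h𝒮', Finset.mem_filter, h𝒮, Finset.mem_filter, Finset.mem_powerset]
          refine ⟨⟨Finset.sdiff_subset.trans Finset.inter_subset_right, ?_⟩, hS.2⟩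
          exact (Finset.card_le_card
            (Finset.sdiff_subset.trans Finset.inter_subset_left)).trans hc
        have h3 := Finset.single_le_sum hnn hmem
        simpa using h3
    · rw [if_neg hS]
      exact Finset.sum_nonneg hnn
  have h2 : ∀ σ ∈ 𝒮', ∑ S ∈ univ.filter (fun S : Finset X => (S ∩ Y) \ U = σ),
      muY w p τ T Nm Y S ≤ 2 * 4 ^ T * κ⁻¹ := by
    intro σ hσ
    have hlam : lam w p U σ < κ⁻¹ := by
      rw [h𝒮', Finset.mem_filter] at hσ
      exact hσ.2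
    have h3 : ∀ S : Finset X, muY w p τ T Nm Y S ≤ 2 * 4 ^ T * (w S * p ^ (S \ Y).card) := by
      intro S
      have h0 : 0 ≤ w S * p ^ (S \ Y).card := mul_nonneg (hw S) (by positivity)
      unfold muY
      rw [div_le_iff₀ hF0]
      split_ifs
      · by_cases hS : w S = 0
        · simp [hS]
        · have h4 : Wt w p τ Y S ≤ 4 ^ T := Wt_le (hT S hS)
          have h5 : w S * p ^ (S \ Y).card * Wt w p τ Y S ≤ w S * p ^ (S \ Y).card * 4 ^ T :=
            mul_le_mul_of_nonneg_left h4 h0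
          have h6 : 0 ≤ 4 ^ T * (w S * p ^ (S \ Y).card) := by positivity
          have h7 : (4 ^ T * (w S * p ^ (S \ Y).card)) * 1
              ≤ (4 ^ T * (w S * p ^ (S \ Y).card)) * (2 * Fh w p τ T Nm Y) :=
            mul_le_mul_of_nonneg_left (by linarith) h6
          calc _ ≤ w S * p ^ (S \ Y).card * 4 ^ T := h5
            _ = (4 ^ T * (w S * p ^ (S \ Y).card)) * 1 := by ring
            _ ≤ _ := h7
            _ = _ := by ring
      · positivity
    calc ∑ S ∈ univ.filter (fun S : Finset X => (S ∩ Y) \ U = σ), muY w p τ T Nm Y S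
        ≤ ∑ S ∈ univ.filter (fun S : Finset X => (S ∩ Y) \ U = σ),
          2 * 4 ^ T * (w S * p ^ (S \ Y).card) := Finset.sum_le_sum (fun S _ => h3 S)
      _ = 2 * 4 ^ T * ∑ S ∈ univ.filter (fun S : Finset X => (S ∩ Y) \ U = σ),
          w S * p ^ (S \ Y).card := by rw [Finset.mul_sum]
      _ ≤ 2 * 4 ^ T * lam w p U σ := by
          refine mul_le_mul_of_nonneg_left ?_ (by positivity)
          have := sum_label_le_lam hw hp (σ := σ) hU
          convert this
      _ ≤ 2 * 4 ^ T * κ⁻¹ := mul_le_mul_of_nonneg_left hlam.le (by positivity)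
  have hcard : (𝒮'.card : ℝ) ≤ ((K : ℝ) + 1) ^ T := by
    have h3 : 𝒮'.card ≤ (Y.card + 1) ^ T :=
      (Finset.card_filter_le _ _).trans (card_small_subsets Y T)
    have h4 : (Y.card + 1) ^ T ≤ (K + 1) ^ T := Nat.pow_le_pow_left (by omega) T
    exact_mod_cast h3.trans h4
  refine h1.trans ((Finset.sum_le_sum h2).trans ?_)
  rw [Finset.sum_const, nsmul_eq_mul]
  have h5 : (𝒮'.card : ℝ) * (2 * 4 ^ T * κ⁻¹) ≤ ((K : ℝ) + 1) ^ T * (2 * 4 ^ T * κ⁻¹) :=
    mul_le_mul_of_nonneg_right hcard (by positivity)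
  refine h5.trans ?_
  rw [le_div_iff₀ hK0]
  have h6 : ((K : ℝ) + 1) ^ T * (2 * 4 ^ T * κ⁻¹) * ((K : ℝ) + 1)
      = (2 * 4 ^ T * ((K : ℝ) + 1) ^ (T + 1)) * κ⁻¹ := by
    rw [pow_succ]; ring
  rw [h6]
  calc _ ≤ κ * κ⁻¹ := mul_le_mul_of_nonneg_right hκ (by positivity)
    _ = 1 := mul_inv_cancel₀ hκ0.ne'

/-- marginals sum to at most `T`. -/
theorem marg_sum {μ : Finset X → ℝ} (hμ : ∀ S, 0 ≤ μ S) (hμ1 : ∑ S, μ S = 1) {T : ℕ}
    (hT : ∀ S, μ S ≠ 0 → S.card ≤ T) (Y : Finset X) :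
    ∑ z ∈ Y, ∑ S ∈ univ.filter (fun S : Finset X => z ∈ S), μ S ≤ T := by
  classical
  have h1 : ∑ z ∈ Y, ∑ S ∈ univ.filter (fun S : Finset X => z ∈ S), μ S
      = ∑ S, ∑ z ∈ Y, (if z ∈ S then μ S else 0) := by
    rw [Finset.sum_comm]
    refine Finset.sum_congr rfl (fun z _ => ?_)
    rw [Finset.sum_filter]
  rw [h1]
  have h2 : ∀ S ∈ (univ : Finset (Finset X)), ∑ z ∈ Y, (if z ∈ S then μ S else 0) ≤ T * μ S := by
    intro S _
    rw [← Finset.sum_filter, Finset.sum_const, nsmul_eq_mul]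
    by_cases hS : μ S = 0
    · simp [hS]
    · refine mul_le_mul_of_nonneg_right ?_ (hμ S)
      have h3 : (Y.filter (fun z => z ∈ S)).card ≤ S.card := by
        refine Finset.card_le_card ?_
        intro z hz
        exact (Finset.mem_filter.mp hz).2
      exact_mod_cast h3.trans (hT S hS)
  calc _ ≤ ∑ S, (T : ℝ) * μ S := Finset.sum_le_sum h2
    _ = T := by rw [← Finset.mul_sum, hμ1, mul_one]

end Vale.Agent.P034
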