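import Vale.Agent.P034.Defs

/-! Module S: pointwise approximate submodularity holds for most `S`. -/

namespace Vale.Agent.P034
open Finset
variable {X : Type*} [Fintype X] [DecidableEq X]

/-- mass of the sets containing `A`, at scale `U` -/
private noncomputable def sPt (w : Finset X → ℝ) (p : ℝ) (U A : Finset X) : ℝ :=
  ∑ S ∈ univ.filter (fun S : Finset X => A ⊆ S), w S * p ^ (S \ U).card

private lemma sPt_nonneg {w : Finset X → ℝ} {p : ℝ} (hw : ∀ S, 0 ≤ w S) (hp : 0 < p)
    (U A : Finset X) : 0 ≤ sPt w p U A :=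
  Finset.sum_nonneg fun S _ => mul_nonneg (hw S) (pow_nonneg hp.le _)

private lemma sPt_anti {w : Finset X → ℝ} {p : ℝ} (hw : ∀ S, 0 ≤ w S) (hp : 0 < p)
    (U : Finset X) {A B : Finset X} (h : A ⊆ B) : sPt w p U B ≤ sPt w p U A := by
  apply Finset.sum_le_sum_of_subset_of_nonneg
  · intro S hS
    rw [Finset.mem_filter] at hS ⊢
    exact ⟨hS.1, h.trans hS.2⟩
  · intro S _ _
    exact mul_nonneg (hw S) (pow_nonneg hp.le _)

private lemma sPt_eq {w : Finset X → ℝ} {p : ℝ} (U : Finset X) {A : Finset X}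
    (hA : Disjoint A U) : sPt w p U A = p ^ A.card * lam w p U A := by
  unfold sPt lam
  rw [Finset.mul_sum]
  apply Finset.sum_congr rfl
  intro S hS
  have hAS := (Finset.mem_filter.1 hS).2
  have h1 : S \ U = A ∪ (S \ (U ∪ A)) := by
    ext x
    simp only [Finset.mem_sdiff, Finset.mem_union]
    constructor
    · rintro ⟨h1, h2⟩
      by_cases h : x ∈ A
      · exact Or.inl h
      · exact Or.inr ⟨h1, fun h' => h'.elim h2 h⟩
    · rintro (h | ⟨h1, h2⟩)
      · exact ⟨hAS h, Finset.disjoint_left.1 hA h⟩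
      · exact ⟨h1, fun h => h2 (Or.inl h)⟩
  have h2 : Disjoint A (S \ (U ∪ A)) := by
    rw [Finset.disjoint_left]
    intro x hx hx'
    exact (Finset.mem_sdiff.1 hx').2 (Finset.mem_union_right _ hx)
  rw [h1, Finset.card_union_of_disjoint h2, pow_add]
  ring

/-- sum over the supersets -/
private lemma sPt_sum {w : Finset X → ℝ} {p : ℝ} (hw : ∀ S, 0 ≤ w S) (hp : 0 < p) {T : ℕ}
    (hT : ∀ S, w S ≠ 0 → S.card ≤ T) (U C : Finset X) :
    ∑ A ∈ univ.filter (fun A : Finset X => Disjoint A U ∧ C ⊆ A), sPt w p U A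
      ≤ 2 ^ T * sPt w p U C := by
  unfold sPt
  have h1 : ∑ A ∈ univ.filter (fun A : Finset X => Disjoint A U ∧ C ⊆ A),
      ∑ S ∈ univ.filter (fun S : Finset X => A ⊆ S), w S * p ^ (S \ U).card
      = ∑ S : Finset X, ∑ A ∈ univ.filter (fun A : Finset X => (Disjoint A U ∧ C ⊆ A) ∧ A ⊆ S),
        w S * p ^ (S \ U).card := by
    simp_rw [Finset.sum_filter]
    rw [Finset.sum_comm]
    apply Finset.sum_congr rfl
    intro A _
    by_cases h : Disjoint A U ∧ C ⊆ A
    · rw [if_pos h]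
      apply Finset.sum_congr rfl
      intro S _
      by_cases h' : A ⊆ S
      · rw [if_pos h', if_pos ⟨h, h'⟩]
      · rw [if_neg h', if_neg fun h'' => h' h''.2]
    · rw [if_neg h]
      symm
      apply Finset.sum_eq_zero
      intro S _
      rw [if_neg fun h'' => h h''.1]
  rw [h1, Finset.mul_sum, Finset.sum_filter]
  apply Finset.sum_le_sum
  intro S _
  rw [Finset.sum_const, nsmul_eq_mul]
  by_cases hCS : C ⊆ S
  · rw [if_pos hCS]
    by_cases hwS : w S = 0
    · rw [hwS]
      simp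
    · apply mul_le_mul_of_nonneg_right _ (mul_nonneg (hw S) (pow_nonneg hp.le _))
      have h2 : (univ.filter (fun A : Finset X => (Disjoint A U ∧ C ⊆ A) ∧ A ⊆ S)).card
          ≤ S.powerset.card := by
        apply Finset.card_le_card
        intro A hA
        rw [Finset.mem_powerset]
        exact (Finset.mem_filter.1 hA).2.2
      rw [Finset.card_powerset] at h2
      have h3 : 2 ^ S.card ≤ 2 ^ T := Nat.pow_le_pow_right (by norm_num) (hT S hwS)
      exact_mod_cast h2.trans h3
  · rw [if_neg hCS]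
    have : univ.filter (fun A : Finset X => (Disjoint A U ∧ C ⊆ A) ∧ A ⊆ S) = ∅ := by
      rw [Finset.filter_eq_empty_iff]
      rintro A _ ⟨⟨_, h2⟩, h3⟩
      exact hCS (h2.trans h3)
    rw [this]
    simp

open Classical in
theorem bad_cost {w : Finset X → ℝ} {p : ℝ} (hw : ∀ S, 0 ≤ w S) (hp : 0 < p) {T : ℕ}
    (hT : ∀ S, w S ≠ 0 → S.card ≤ T) {ε : ℝ} (hε : 0 ≤ ε) (U : Finset X) :
    ∑ S ∈ univ.filter (fun S => Bad w p ε U S), w S * p ^ (S \ U).card
      ≤ ε * 8 ^ T * lam w p U ∅ := by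
  set 𝒟 : Finset (Finset X) := univ.filter (fun A : Finset X => Disjoint A U) with h𝒟
  have hnn : ∀ A, 0 ≤ sPt w p U A := fun A => sPt_nonneg hw hp U A
  -- the violating pairs
  let viol : Finset X → Finset X → Prop := fun A B =>
    lam w p U (A ∪ B) * lam w p U (A ∩ B) < ε * (lam w p U A * lam w p U B)
  -- step 1
  have s1 : ∑ S ∈ univ.filter (fun S => Bad w p ε U S), w S * p ^ (S \ U).card
      ≤ ∑ A ∈ 𝒟, ∑ B ∈ 𝒟, if viol A B then sPt w p U (A ∪ B) else 0 := by
    have h1 : ∀ A B : Finset X, (if viol A B then sPt w p U (A ∪ B) else 0)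
        = ∑ S : Finset X, if viol A B ∧ A ∪ B ⊆ S then w S * p ^ (S \ U).card else 0 := by
      intro A B
      by_cases h : viol A B
      · rw [if_pos h]
        unfold sPt
        rw [Finset.sum_filter]
        apply Finset.sum_congr rfl
        intro S _
        by_cases h' : A ∪ B ⊆ S
        · rw [if_pos h', if_pos ⟨h, h'⟩]
        · rw [if_neg h', if_neg fun h'' => h' h''.2]
      · rw [if_neg h]
        symm
        apply Finset.sum_eq_zero
        intro S _
        rw [if_neg fun h'' => h h''.1]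
    simp_rw [h1]
    have h2 : ∑ A ∈ 𝒟, ∑ B ∈ 𝒟, ∑ S : Finset X,
        (if viol A B ∧ A ∪ B ⊆ S then w S * p ^ (S \ U).card else 0)
        = ∑ S : Finset X, ∑ A ∈ 𝒟, ∑ B ∈ 𝒟,
          (if viol A B ∧ A ∪ B ⊆ S then w S * p ^ (S \ U).card else 0) := by
      rw [Finset.sum_congr rfl fun A _ => Finset.sum_comm, Finset.sum_comm]
    rw [h2, Finset.sum_filter]
    apply Finset.sum_le_sum
    intro S _
    have hterm : 0 ≤ w S * p ^ (S \ U).card := mul_nonneg (hw S) (pow_nonneg hp.le _)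
    split_ifs with h
    · obtain ⟨A, hA, B, hB, hAB⟩ := h
      have hAD : A ∈ 𝒟 := by
        rw [h𝒟, Finset.mem_filter]
        exact ⟨Finset.mem_univ _, Finset.disjoint_of_subset_left hA Finset.sdiff_disjoint⟩
      have hBD : B ∈ 𝒟 := by
        rw [h𝒟, Finset.mem_filter]
        exact ⟨Finset.mem_univ _, Finset.disjoint_of_subset_left hB Finset.sdiff_disjoint⟩
      have hsub : A ∪ B ⊆ S := Finset.union_subset (hA.trans Finset.sdiff_subset)
        (hB.trans Finset.sdiff_subset)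
      have h3 : w S * p ^ (S \ U).card
          ≤ ∑ B ∈ 𝒟, (if viol A B ∧ A ∪ B ⊆ S then w S * p ^ (S \ U).card else 0) := by
        refine le_trans (le_of_eq ?_) (Finset.single_le_sum
          (f := fun B => if viol A B ∧ A ∪ B ⊆ S then w S * p ^ (S \ U).card else 0) ?_ hBD)
        · rw [if_pos ⟨hAB, hsub⟩]
        · intro B' _
          split_ifs
          · exact hterm
          · exact le_rfl
      refine h3.trans (Finset.single_le_sum
          (f := fun A => ∑ B ∈ 𝒟, (if viol A B ∧ A ∪ B ⊆ S then w S * p ^ (S \ U).card else 0))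
          ?_ hAD)
      intro A' _
      apply Finset.sum_nonneg
      intro B' _
      split_ifs
      · exact hterm
      · exact le_rfl
    · apply Finset.sum_nonneg
      intro A' _
      apply Finset.sum_nonneg
      intro B' _
      split_ifs
      · exact hterm
      · exact le_rfl
  -- step 2
  have s2 : ∀ A ∈ 𝒟, ∀ B ∈ 𝒟, (if viol A B then sPt w p U (A ∪ B) else 0)
      ≤ ε * (sPt w p U A * sPt w p U B / sPt w p U (A ∩ B)) := by
    intro A hA B hB
    have hAU := (Finset.mem_filter.1 hA).2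
    have hBU := (Finset.mem_filter.1 hB).2
    split_ifs with h
    · have hUn : Disjoint (A ∪ B) U := Finset.disjoint_union_left.2 ⟨hAU, hBU⟩
      have hIn : Disjoint (A ∩ B) U := Finset.disjoint_of_subset_left Finset.inter_subset_left hAU
      have h1 : sPt w p U (A ∪ B) * sPt w p U (A ∩ B) < ε * (sPt w p U A * sPt w p U B) := by
        rw [sPt_eq U hUn, sPt_eq U hIn, sPt_eq U hAU, sPt_eq U hBU]
        have hcard : p ^ (A ∪ B).card * p ^ (A ∩ B).card = p ^ A.card * p ^ B.card := by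
          rw [← pow_add, ← pow_add, Finset.card_union_add_card_inter]
        have hpp : 0 < p ^ A.card * p ^ B.card := by positivity
        calc p ^ (A ∪ B).card * lam w p U (A ∪ B) * (p ^ (A ∩ B).card * lam w p U (A ∩ B))
            = (p ^ (A ∪ B).card * p ^ (A ∩ B).card) * (lam w p U (A ∪ B) * lam w p U (A ∩ B)) := by
              ring
          _ < (p ^ A.card * p ^ B.card) * (ε * (lam w p U A * lam w p U B)) := by
              rw [hcard]
              exact mul_lt_mul_of_pos_left h hpp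
          _ = _ := by ring
      have h2 : 0 < sPt w p U A := by
        by_contra hcon
        have h0 : sPt w p U A = 0 := le_antisymm (not_lt.1 hcon) (hnn A)
        rw [h0, zero_mul, mul_zero] at h1
        exact absurd (mul_nonneg (hnn (A ∪ B)) (hnn (A ∩ B))) (not_le.2 h1)
      have h3 : 0 < sPt w p U (A ∩ B) := lt_of_lt_of_le h2 (sPt_anti hw hp U Finset.inter_subset_left)
      rw [← mul_div_assoc, le_div_iff₀ h3]
      exact h1.le
    · exact mul_nonneg hε (div_nonneg (mul_nonneg (hnn _) (hnn _)) (hnn _))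
  -- step 3
  have s3 : ∑ A ∈ 𝒟, ∑ B ∈ 𝒟, sPt w p U A * sPt w p U B / sPt w p U (A ∩ B)
      ≤ ∑ C ∈ 𝒟, ∑ A ∈ univ.filter (fun A : Finset X => Disjoint A U ∧ C ⊆ A),
        ∑ B ∈ univ.filter (fun B : Finset X => Disjoint B U ∧ C ⊆ B),
          sPt w p U A * sPt w p U B / sPt w p U C := by
    have h1 : ∀ C, ∑ A ∈ univ.filter (fun A : Finset X => Disjoint A U ∧ C ⊆ A),
        ∑ B ∈ univ.filter (fun B : Finset X => Disjoint B U ∧ C ⊆ B),
          sPt w p U A * sPt w p U B / sPt w p U C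
        = ∑ A ∈ 𝒟, ∑ B ∈ 𝒟, if C ⊆ A ∧ C ⊆ B then sPt w p U A * sPt w p U B / sPt w p U C else 0 := by
      intro C
      have e : ∀ (g : Finset X → ℝ), ∑ A ∈ univ.filter (fun A : Finset X => Disjoint A U ∧ C ⊆ A), g A
          = ∑ A ∈ 𝒟, if C ⊆ A then g A else 0 := by
        intro g
        rw [h𝒟, ← Finset.sum_filter, Finset.filter_filter]
      rw [e]
      apply Finset.sum_congr rfl
      intro A _
      rw [e]
      by_cases hCA : C ⊆ A
      · rw [if_pos hCA]
        apply Finset.sum_congr rfl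
        intro B _
        by_cases hCB : C ⊆ B
        · rw [if_pos hCB, if_pos ⟨hCA, hCB⟩]
        · rw [if_neg hCB, if_neg fun h => hCB h.2]
      · rw [if_neg hCA]
        symm
        apply Finset.sum_eq_zero
        intro B _
        rw [if_neg fun h => hCA h.1]
    simp_rw [h1]
    have h2 : ∑ C ∈ 𝒟, ∑ A ∈ 𝒟, ∑ B ∈ 𝒟,
        (if C ⊆ A ∧ C ⊆ B then sPt w p U A * sPt w p U B / sPt w p U C else 0)
        = ∑ A ∈ 𝒟, ∑ B ∈ 𝒟, ∑ C ∈ 𝒟,
          (if C ⊆ A ∧ C ⊆ B then sPt w p U A * sPt w p U B / sPt w p U C else 0) := by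
      rw [Finset.sum_comm]
      apply Finset.sum_congr rfl
      intro A _
      rw [Finset.sum_comm]
    rw [h2]
    apply Finset.sum_le_sum
    intro A hA
    apply Finset.sum_le_sum
    intro B _
    have hIn : A ∩ B ∈ 𝒟 := by
      rw [h𝒟, Finset.mem_filter]
      exact ⟨Finset.mem_univ _, Finset.disjoint_of_subset_left Finset.inter_subset_left
        (Finset.mem_filter.1 hA).2⟩
    refine le_trans (le_of_eq ?_) (Finset.single_le_sum
      (f := fun C => if C ⊆ A ∧ C ⊆ B then sPt w p U A * sPt w p U B / sPt w p U C else 0) ?_ hIn)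
    · rw [if_pos ⟨Finset.inter_subset_left, Finset.inter_subset_right⟩]
    · intro C _
      split_ifs
      · exact div_nonneg (mul_nonneg (hnn _) (hnn _)) (hnn _)
      · exact le_rfl
  -- step 4
  have s4 : ∀ C, ∑ A ∈ univ.filter (fun A : Finset X => Disjoint A U ∧ C ⊆ A),
        ∑ B ∈ univ.filter (fun B : Finset X => Disjoint B U ∧ C ⊆ B),
          sPt w p U A * sPt w p U B / sPt w p U C ≤ 4 ^ T * sPt w p U C := by
    intro C
    have h1 := sPt_sum hw hp hT U C
    set Q := ∑ A ∈ univ.filter (fun A : Finset X => Disjoint A U ∧ C ⊆ A), sPt w p U A with hQ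
    have h0 : 0 ≤ Q := Finset.sum_nonneg fun A _ => hnn A
    have h2 : ∑ A ∈ univ.filter (fun A : Finset X => Disjoint A U ∧ C ⊆ A),
        ∑ B ∈ univ.filter (fun B : Finset X => Disjoint B U ∧ C ⊆ B),
          sPt w p U A * sPt w p U B / sPt w p U C = Q * Q / sPt w p U C := by
      rw [hQ, Finset.sum_mul_sum, Finset.sum_div]
      apply Finset.sum_congr rfl
      intro A _
      rw [Finset.sum_div]
    rw [h2]
    rcases eq_or_lt_of_le (hnn C) with hC | hC
    · rw [← hC]
      simp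
    · rw [div_le_iff₀ hC]
      calc Q * Q ≤ (2 ^ T * sPt w p U C) * (2 ^ T * sPt w p U C) := by gcongr
        _ = 4 ^ T * sPt w p U C * sPt w p U C := by
          rw [show (4 : ℝ) = 2 * 2 by norm_num, mul_pow]
          ring
  have s5 : ∑ C ∈ 𝒟, sPt w p U C ≤ 2 ^ T * sPt w p U ∅ := by
    have := sPt_sum hw hp hT U ∅
    simpa [h𝒟] using this
  have s6 : sPt w p U ∅ = lam w p U ∅ := by
    rw [sPt_eq U (Finset.disjoint_empty_left U)]
    simp
  calc ∑ S ∈ univ.filter (fun S => Bad w p ε U S), w S * p ^ (S \ U).card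
      ≤ ∑ A ∈ 𝒟, ∑ B ∈ 𝒟, if viol A B then sPt w p U (A ∪ B) else 0 := s1
    _ ≤ ∑ A ∈ 𝒟, ∑ B ∈ 𝒟, ε * (sPt w p U A * sPt w p U B / sPt w p U (A ∩ B)) :=
        Finset.sum_le_sum fun A hA => Finset.sum_le_sum fun B hB => s2 A hA B hB
    _ = ε * ∑ A ∈ 𝒟, ∑ B ∈ 𝒟, sPt w p U A * sPt w p U B / sPt w p U (A ∩ B) := by
        rw [Finset.mul_sum]
        apply Finset.sum_congr rfl
        intro A _
        rw [Finset.mul_sum]
    _ ≤ ε * ∑ C ∈ 𝒟, 4 ^ T * sPt w p U C :=
        mul_le_mul_of_nonneg_left (s3.trans (Finset.sum_le_sum fun C _ => s4 C)) hε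
    _ ≤ ε * (4 ^ T * (2 ^ T * sPt w p U ∅)) := by
        rw [← Finset.mul_sum]
        gcongr
    _ = ε * 8 ^ T * lam w p U ∅ := by
        rw [s6, show (8 : ℝ) = 4 * 2 by norm_num, mul_pow]
        ring

end Vale.Agent.P034
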