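import Vale.Agent.P034.Down1
import Vale.Agent.P034.Closure
import Vale.Agent.P034.Submod

/-! Module D2: the step weights: domination and cost. -/

namespace Vale.Agent.P034
open Finset
variable {X : Type*} [Fintype X] [DecidableEq X]

open Classical in
/-- unrestricted step weight. -/
noncomputable def omA (w : Finset X → ℝ) (p : ℝ) (T Nm : ℕ) (θ : ℝ) (U σ : Finset X) : ℝ :=
  θ⁻¹ * ∑ S ∈ univ.filter (fun S => Good w p T Nm U S ∧ σ ⊆ S),
    w S * p ^ (S \ (U ∪ σ)).card * 4 ^ T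

open Classical in
/-- regular step weight. -/
noncomputable def omR (w : Finset X → ℝ) (p κ τ' ε : ℝ) (T Nm : ℕ) (θ : ℝ)
    (U σ : Finset X) : ℝ :=
  θ⁻¹ * ∑ S ∈ univ.filter (fun S => Good w p T Nm U S ∧ ¬ Bad w p ε U S ∧ σ ∈ Reg w p κ τ' U S),
    w S * p ^ (S \ (U ∪ σ)).card *
      (4 ^ ((S \ U) \ σ).card / 2 ^ ell (hres w p ((κ ^ BT T)⁻¹) U σ S))

open Classical in
/-- step weight of the samples violating submodularity. -/
noncomputable def omB (w : Finset X → ℝ) (p ε : ℝ) (T Nm : ℕ) (θ : ℝ) (U σ : Finset X) : ℝ :=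
  θ⁻¹ * ∑ S ∈ univ.filter (fun S => Good w p T Nm U S ∧ Bad w p ε U S ∧ σ ⊆ S),
    w S * p ^ (S \ (U ∪ σ)).card * 4 ^ T

/-- total step weight. -/
noncomputable def om (w : Finset X → ℝ) (p κ τ' ε ξ : ℝ) (T Nm : ℕ) (θ : ℝ)
    (U σ : Finset X) : ℝ :=
  omR w p κ τ' ε T Nm θ U σ + omB w p ε T Nm θ U σ + ξ * omA w p T Nm θ U σ

theorem omA_nonneg {w : Finset X → ℝ} {p : ℝ} (hw : ∀ S, 0 ≤ w S) (hp : 0 < p) {θ : ℝ}
    (hθ : 0 < θ) (T Nm : ℕ) (U σ : Finset X) : 0 ≤ omA w p T Nm θ U σ := by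
  unfold omA
  refine mul_nonneg (inv_nonneg.mpr hθ.le) (Finset.sum_nonneg (fun S _ => ?_))
  have := hw S
  positivity

private theorem omR_nonneg {w : Finset X → ℝ} {p : ℝ} (hw : ∀ S, 0 ≤ w S) (hp : 0 < p) {θ : ℝ}
    (hθ : 0 < θ) (κ τ' ε : ℝ) (T Nm : ℕ) (U σ : Finset X) :
    0 ≤ omR w p κ τ' ε T Nm θ U σ := by
  unfold omR
  refine mul_nonneg (inv_nonneg.mpr hθ.le) (Finset.sum_nonneg (fun S _ => ?_))
  have := hw S
  positivity

private theorem omB_nonneg {w : Finset X → ℝ} {p : ℝ} (hw : ∀ S, 0 ≤ w S) (hp : 0 < p) {θ : ℝ}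
    (hθ : 0 < θ) (ε : ℝ) (T Nm : ℕ) (U σ : Finset X) :
    0 ≤ omB w p ε T Nm θ U σ := by
  unfold omB
  refine mul_nonneg (inv_nonneg.mpr hθ.le) (Finset.sum_nonneg (fun S _ => ?_))
  have := hw S
  positivity

theorem om_nonneg {w : Finset X → ℝ} {p : ℝ} (hw : ∀ S, 0 ≤ w S) (hp : 0 < p) {θ : ℝ}
    (hθ : 0 < θ) (κ τ' ε : ℝ) {ξ : ℝ} (hξ : 0 ≤ ξ) (T Nm : ℕ) (U σ : Finset X) :
    0 ≤ om w p κ τ' ε ξ T Nm θ U σ := by
  have h1 := omR_nonneg hw hp hθ κ τ' ε T Nm U σ
  have h2 := omB_nonneg hw hp hθ ε T Nm U σ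
  have h3 := omA_nonneg hw hp hθ T Nm U σ
  unfold om
  positivity

private theorem sdiff_label {S Y U σ : Finset X} (hU : U ⊆ Y) (h : (S ∩ Y) \ U = σ) :
    S \ (U ∪ σ) = S \ Y := by
  ext x
  have hx : x ∈ σ ↔ (x ∈ S ∧ x ∈ Y) ∧ x ∉ U := by
    rw [← h]; simp [Finset.mem_sdiff, Finset.mem_inter]
  simp only [Finset.mem_sdiff, Finset.mem_union]
  constructor
  · rintro ⟨h1, h2⟩
    refine ⟨h1, fun h3 => ?_⟩
    push Not at h2
    exact h2.2 (hx.mpr ⟨⟨h1, h3⟩, h2.1⟩)
  · rintro ⟨h1, h2⟩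
    refine ⟨h1, ?_⟩
    rintro (h3 | h3)
    · exact h2 (hU h3)
    · exact h2 (hx.mp h3).1.2

private theorem label_sub {S Y U σ : Finset X} (h : (S ∩ Y) \ U = σ) : σ ⊆ S := by
  rw [← h]
  exact (Finset.sdiff_subset).trans Finset.inter_subset_left

/-- pointwise bound on the sampling measure by a plain term. -/
private theorem muY_le {w : Finset X → ℝ} {p : ℝ} (hw : ∀ S, 0 ≤ w S) (hp : 0 < p)
    {T Nm : ℕ} {τ θ : ℝ} (hθ : 0 < θ) {Y : Finset X} (hY : θ ≤ Fh w p τ T Nm Y)
    (S : Finset X) (hG : Good w p T Nm Y S) {c : ℝ} (hc : w S ≠ 0 → Wt w p τ Y S ≤ c) :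
    muY w p τ T Nm Y S ≤ θ⁻¹ * (w S * p ^ (S \ Y).card * c) := by
  unfold muY
  rw [if_pos hG]
  have h0 : 0 ≤ w S * p ^ (S \ Y).card := mul_nonneg (hw S) (by positivity)
  have h1 : w S * p ^ (S \ Y).card * Wt w p τ Y S ≤ w S * p ^ (S \ Y).card * c := by
    by_cases hS : w S = 0
    · simp [hS]
    · exact mul_le_mul_of_nonneg_left (hc hS) h0
  have h2 : 0 ≤ w S * p ^ (S \ Y).card * Wt w p τ Y S := mul_nonneg h0 (Wt_nonneg _ _ _ _ _)
  have hF : 0 < Fh w p τ T Nm Y := lt_of_lt_of_le hθ hY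
  calc w S * p ^ (S \ Y).card * Wt w p τ Y S / Fh w p τ T Nm Y
      ≤ w S * p ^ (S \ Y).card * Wt w p τ Y S / θ := div_le_div_of_nonneg_left h2 hθ hY
    _ = θ⁻¹ * (w S * p ^ (S \ Y).card * Wt w p τ Y S) := by rw [div_eq_inv_mul]
    _ ≤ θ⁻¹ * (w S * p ^ (S \ Y).card * c) :=
        mul_le_mul_of_nonneg_left h1 (inv_nonneg.mpr hθ.le)

open Classical in
theorem dom_all {w : Finset X → ℝ} {p : ℝ} (hw : ∀ S, 0 ≤ w S) (hp : 0 < p)
    {T Nm : ℕ} (hT : ∀ S, w S ≠ 0 → S.card ≤ T) {τ θ : ℝ} (hθ : 0 < θ)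
    {Y U σ : Finset X} (hY : θ ≤ Fh w p τ T Nm Y) (hU : U ⊆ Y) (hσ : σ ⊆ Y \ U) :
    ∑ S ∈ univ.filter (fun S : Finset X => (S ∩ Y) \ U = σ), muY w p τ T Nm Y S
      ≤ omA w p T Nm θ U σ := by
  unfold omA
  rw [Finset.mul_sum, Finset.sum_filter, Finset.sum_filter]
  refine Finset.sum_le_sum (fun S _ => ?_)
  have hnn : 0 ≤ θ⁻¹ * (w S * p ^ (S \ (U ∪ σ)).card * 4 ^ T) := by
    have := hw S
    positivity
  by_cases hS : (S ∩ Y) \ U = σ
  · rw [if_pos hS]
    by_cases hG : Good w p T Nm Y S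
    · rw [if_pos ⟨Good_anti hU hG, label_sub hS⟩, sdiff_label hU hS]
      exact muY_le hw hp hθ hY S hG (fun h => Wt_le (hT S h))
    · have : muY w p τ T Nm Y S = 0 := by
        unfold muY; rw [if_neg hG, zero_div]
      rw [this]
      split_ifs
      · exact hnn
      · exact le_rfl
  · rw [if_neg hS]
    split_ifs
    · exact hnn
    · exact le_rfl

open Classical in
theorem dom_step {w : Finset X → ℝ} {p : ℝ} (hw : ∀ S, 0 ≤ w S) (hp : 0 < p) (hp1 : p ≤ 1)
    {T Nm : ℕ} (hT : ∀ S, w S ≠ 0 → S.card ≤ T) {κ τ' ε ξ θ : ℝ} (hθ : 0 < θ)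
    (hξ0 : 0 < ξ) (hξ1 : ξ ≤ 1)
    {Y U σ : Finset X} (hY : θ ≤ Fh w p ((κ ^ BT T)⁻¹) T Nm Y) (hU : U ⊆ Y) (hσ : σ ⊆ Y \ U) :
    ∑ S ∈ univ.filter (fun S : Finset X => (S ∩ Y) \ U = σ),
      muY w p ((κ ^ BT T)⁻¹) T Nm Y S *
        (if (S ∩ Y) \ U ∉ Reg w p κ τ' U S then ξ else 1)
      ≤ om w p κ τ' ε ξ T Nm θ U σ := by
  set τ : ℝ := (κ ^ BT T)⁻¹ with hτdef
  unfold om omR omB omA
  rw [Finset.mul_sum, Finset.mul_sum, Finset.mul_sum, Finset.mul_sum, Finset.sum_filter,
    Finset.sum_filter, Finset.sum_filter, Finset.sum_filter, ← Finset.sum_add_distrib,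
    ← Finset.sum_add_distrib]
  refine Finset.sum_le_sum (fun S _ => ?_)
  have hA : 0 ≤ (if Good w p T Nm U S ∧ σ ⊆ S then
      ξ * (θ⁻¹ * (w S * p ^ (S \ (U ∪ σ)).card * 4 ^ T)) else 0) := by
    split_ifs
    · have := hw S
      positivity
    · exact le_rfl
  have hB : 0 ≤ (if Good w p T Nm U S ∧ Bad w p ε U S ∧ σ ⊆ S then
      (θ⁻¹ * (w S * p ^ (S \ (U ∪ σ)).card * 4 ^ T)) else 0) := by
    split_ifs
    · have := hw S
      positivity
    · exact le_rfl
  have hR : 0 ≤ (if Good w p T Nm U S ∧ ¬ Bad w p ε U S ∧ σ ∈ Reg w p κ τ' U S then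
      (θ⁻¹ * (w S * p ^ (S \ (U ∪ σ)).card *
        (4 ^ ((S \ U) \ σ).card / 2 ^ ell (hres w p τ U σ S)))) else 0) := by
    split_ifs
    · have := hw S
      positivity
    · exact le_rfl
  by_cases hS : (S ∩ Y) \ U = σ
  · rw [if_pos hS]
    by_cases hG : Good w p T Nm Y S
    · have hGU := Good_anti hU hG
      have hsub := label_sub hS
      have hmain := muY_le hw hp hθ hY S hG (fun h => Wt_le (hT S h))
      rw [← sdiff_label hU hS] at hmain
      by_cases hreg : σ ∈ Reg w p κ τ' U S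
      · have hreg' : ¬ ((S ∩ Y) \ U ∉ Reg w p κ τ' U S) := by
          rw [hS]; exact not_not.mpr hreg
        rw [if_neg hreg', mul_one]
        by_cases hbad : Bad w p ε U S
        · have e2 : (if Good w p T Nm U S ∧ Bad w p ε U S ∧ σ ⊆ S then
              (θ⁻¹ * (w S * p ^ (S \ (U ∪ σ)).card * 4 ^ T)) else 0)
              = (θ⁻¹ * (w S * p ^ (S \ (U ∪ σ)).card * 4 ^ T)) := if_pos ⟨hGU, hbad, hsub⟩
          rw [e2] at hB ⊢
          linarith
        · have hreg2 : muY w p τ T Nm Y S ≤ θ⁻¹ * (w S * p ^ (S \ (U ∪ σ)).card *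
              (4 ^ ((S \ U) \ σ).card / 2 ^ ell (hres w p τ U σ S))) := by
            rw [sdiff_label hU hS]
            refine muY_le hw hp hθ hY S hG (fun _ => ?_)
            have e1 : (S \ U) \ σ = S \ Y := by
              rw [← sdiff_label hU hS, Finset.sdiff_union_distrib]
              ext x
              simp only [Finset.mem_sdiff, Finset.mem_inter]
              tauto
            have hsubf : hres w p τ U σ S ⊆ heavy w p τ Y S := by
              intro M hM
              unfold hres at hM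
              unfold heavy
              rw [Finset.mem_filter, Finset.mem_powerset] at hM ⊢
              refine ⟨e1 ▸ hM.1, hM.2.1, hM.2.2.trans ?_⟩
              refine lam_le_lam hw hp hp1 Finset.subset_union_right ?_
              intro x hx
              rw [Finset.mem_union, Finset.mem_union] at hx
              rw [Finset.mem_union]
              rcases hx with hx | hx | hx
              · exact Or.inl (hU hx)
              · exact Or.inl ((Finset.mem_sdiff.mp (hσ hx)).1)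
              · exact Or.inr hx
            unfold Wt
            rw [e1]
            refine div_le_div_of_nonneg_left (by positivity) (by positivity) ?_
            exact pow_le_pow_right₀ (by norm_num) (ell_mono hsubf)
          have e3 : (if Good w p T Nm U S ∧ ¬ Bad w p ε U S ∧ σ ∈ Reg w p κ τ' U S then
              (θ⁻¹ * (w S * p ^ (S \ (U ∪ σ)).card *
                (4 ^ ((S \ U) \ σ).card / 2 ^ ell (hres w p τ U σ S)))) else 0)
              = (θ⁻¹ * (w S * p ^ (S \ (U ∪ σ)).card *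
                (4 ^ ((S \ U) \ σ).card / 2 ^ ell (hres w p τ U σ S)))) :=
            if_pos ⟨hGU, hbad, hreg⟩
          rw [e3] at hR ⊢
          linarith
      · have hreg' : ((S ∩ Y) \ U ∉ Reg w p κ τ' U S) := by
          rw [hS]; exact hreg
        rw [if_pos hreg']
        have e1 : (if Good w p T Nm U S ∧ σ ⊆ S then
            ξ * (θ⁻¹ * (w S * p ^ (S \ (U ∪ σ)).card * 4 ^ T)) else 0)
            = ξ * (θ⁻¹ * (w S * p ^ (S \ (U ∪ σ)).card * 4 ^ T)) := if_pos ⟨hGU, hsub⟩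
        have h5 := mul_le_mul_of_nonneg_left hmain hξ0.le
        rw [e1] at hA ⊢
        linarith
    · have : muY w p τ T Nm Y S = 0 := by
        unfold muY; rw [if_neg hG, zero_div]
      rw [this, zero_mul]
      linarith
  · rw [if_neg hS]
    linarith

/-- exchange of summation for the cost of step weights. -/
private theorem exch (w : Finset X → ℝ) (p θ : ℝ) (U : Finset X)
    [DecidablePred (fun σ : Finset X => Disjoint σ U)]
    (P : Finset X → Finset X → Prop) [∀ S σ, Decidable (P S σ)] (hP : ∀ S σ, P S σ → σ ⊆ S)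
    (c : Finset X → Finset X → ℝ) :
    ∑ σ ∈ univ.filter (fun σ : Finset X => Disjoint σ U),
        (θ⁻¹ * ∑ S ∈ univ.filter (fun S => P S σ), w S * p ^ (S \ (U ∪ σ)).card * c S σ)
          * p ^ σ.card
      = θ⁻¹ * ∑ S, w S * p ^ (S \ U).card *
          ∑ σ ∈ (S \ U).powerset.filter (fun σ => P S σ), c S σ := by
  have h1 : ∀ σ ∈ univ.filter (fun σ : Finset X => Disjoint σ U),
      (θ⁻¹ * ∑ S ∈ univ.filter (fun S => P S σ), w S * p ^ (S \ (U ∪ σ)).card * c S σ)
          * p ^ σ.card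
        = ∑ S, if P S σ then θ⁻¹ * (w S * p ^ (S \ U).card * c S σ) else 0 := by
    intro σ hσ
    rw [Finset.mem_filter] at hσ
    rw [mul_assoc, Finset.sum_mul, Finset.mul_sum, Finset.sum_filter]
    refine Finset.sum_congr rfl (fun S _ => ?_)
    by_cases hS : P S σ
    · rw [if_pos hS, if_pos hS]
      have hsub := hP S σ hS
      have hcard : (S \ U).card = (S \ (U ∪ σ)).card + σ.card := by
        have h2 : S \ U = (S \ (U ∪ σ)) ∪ σ := by
          ext x
          simp only [Finset.mem_sdiff, Finset.mem_union]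
          constructor
          · rintro ⟨h3, h4⟩
            by_cases hx : x ∈ σ
            · exact Or.inr hx
            · exact Or.inl ⟨h3, by tauto⟩
          · rintro (⟨h3, h4⟩ | h3)
            · exact ⟨h3, fun h5 => h4 (Or.inl h5)⟩
            · exact ⟨hsub h3, Finset.disjoint_left.mp hσ.2 h3⟩
        rw [h2]
        refine Finset.card_union_of_disjoint ?_
        rw [Finset.disjoint_left]
        intro x hx hx'
        rw [Finset.mem_sdiff, Finset.mem_union] at hx
        exact hx.2 (Or.inr hx')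
      rw [hcard, pow_add]
      ring
    · rw [if_neg hS, if_neg hS]
  rw [Finset.sum_congr rfl h1, Finset.sum_comm, Finset.mul_sum]
  refine Finset.sum_congr rfl (fun S _ => ?_)
  rw [Finset.mul_sum, Finset.mul_sum, ← Finset.sum_filter]
  refine Finset.sum_congr ?_ (fun σ _ => by ring)
  ext σ
  simp only [Finset.mem_filter, Finset.mem_univ, true_and, Finset.mem_powerset]
  constructor
  · rintro ⟨h2, h3⟩
    refine ⟨?_, h3⟩
    rw [Finset.subset_sdiff]
    exact ⟨hP S σ h3, h2⟩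
  · rintro ⟨h2, h3⟩
    rw [Finset.subset_sdiff] at h2
    exact ⟨h2.2, h3⟩

open Classical in
theorem cost_all {w : Finset X → ℝ} {p : ℝ} (hw : ∀ S, 0 ≤ w S) (hp : 0 < p)
    {T Nm : ℕ} (hT : ∀ S, w S ≠ 0 → S.card ≤ T) {τ' θ : ℝ} (hθ : 0 < θ) {U : Finset X}
    (hF : Fh w p τ' T Nm U ≤ θ) :
    ∑ σ ∈ univ.filter (fun σ : Finset X => Disjoint σ U), omA w p T Nm θ U σ * p ^ σ.card
      ≤ 8 ^ T := by
  unfold omA
  have h := exch w p θ U (fun S σ => Good w p T Nm U S ∧ σ ⊆ S) (fun S σ h => h.2)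
    (fun _ _ => (4 : ℝ) ^ T)
  rw [h]
  have h2 : ∑ S, w S * p ^ (S \ U).card *
      ∑ σ ∈ (S \ U).powerset.filter (fun σ => Good w p T Nm U S ∧ σ ⊆ S), (4 : ℝ) ^ T
      ≤ 8 ^ T * Fh w p τ' T Nm U := by
    unfold Fh
    rw [Finset.mul_sum, Finset.sum_filter]
    refine Finset.sum_le_sum (fun S _ => ?_)
    have h0 : 0 ≤ w S * p ^ (S \ U).card := mul_nonneg (hw S) (by positivity)
    by_cases hG : Good w p T Nm U S
    · rw [if_pos hG]
      by_cases hS : w S = 0
      · simp [hS]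
      · have hcard : ((S \ U).powerset.filter
            (fun σ => Good w p T Nm U S ∧ σ ⊆ S)).card ≤ 2 ^ T := by
          refine (Finset.card_filter_le _ _).trans ?_
          rw [Finset.card_powerset]
          exact Nat.pow_le_pow_right (by norm_num)
            ((Finset.card_le_card Finset.sdiff_subset).trans (hT S hS))
        have h3 : ∑ σ ∈ (S \ U).powerset.filter (fun σ => Good w p T Nm U S ∧ σ ⊆ S),
            (4 : ℝ) ^ T ≤ 8 ^ T := by
          rw [Finset.sum_const, nsmul_eq_mul]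
          have h4 : (((S \ U).powerset.filter
            (fun σ => Good w p T Nm U S ∧ σ ⊆ S)).card : ℝ) ≤ 2 ^ T := by
            exact_mod_cast hcard
          calc _ ≤ (2 : ℝ) ^ T * 4 ^ T := mul_le_mul_of_nonneg_right h4 (by positivity)
            _ = 8 ^ T := by rw [← mul_pow]; norm_num
        have h5 := Wt_ge_one w p τ' U S
        calc _ ≤ w S * p ^ (S \ U).card * 8 ^ T := mul_le_mul_of_nonneg_left h3 h0
          _ = 8 ^ T * (w S * p ^ (S \ U).card) := by ring
          _ ≤ 8 ^ T * (w S * p ^ (S \ U).card * Wt w p τ' U S) := by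
              refine mul_le_mul_of_nonneg_left ?_ (by positivity)
              nlinarith
    · rw [if_neg hG]
      have : ((S \ U).powerset.filter (fun σ => Good w p T Nm U S ∧ σ ⊆ S)) = ∅ := by
        rw [Finset.filter_eq_empty_iff]
        intro σ _ h6
        exact hG h6.1
      rw [this]
      simp
  calc _ ≤ θ⁻¹ * (8 ^ T * Fh w p τ' T Nm U) :=
        mul_le_mul_of_nonneg_left h2 (inv_nonneg.mpr hθ.le)
    _ ≤ θ⁻¹ * (8 ^ T * θ) := by
        refine mul_le_mul_of_nonneg_left ?_ (inv_nonneg.mpr hθ.le)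
        exact mul_le_mul_of_nonneg_left hF (by positivity)
    _ = 8 ^ T := by field_simp

open Classical in
theorem cost_reg {w : Finset X → ℝ} {p : ℝ} (hw : ∀ S, 0 ≤ w S) (hp : 0 < p)
    {T Nm : ℕ} (hT : ∀ S, w S ≠ 0 → S.card ≤ T) {κ τ' ε θ δ Θ : ℝ} (hθ : 0 < θ)
    (hε : 0 < ε) (hκ1 : 1 ≤ κ) (hκ : Θ ≤ ε * κ) (hτ : κ⁻¹ ≤ τ') {U : Finset X}
    (hcap : cap Nm (U.card + T) ≤ Θ) (hF : Fh w p τ' T Nm U ≤ (1 - δ) * θ) :
    ∑ σ ∈ univ.filter (fun σ : Finset X => Disjoint σ U),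
      omR w p κ τ' ε T Nm θ U σ * p ^ σ.card ≤ 1 - δ := by
  unfold omR
  have hsubReg : ∀ (S σ : Finset X), σ ∈ Reg w p κ τ' U S → σ ⊆ S \ U := by
    intro S σ h
    unfold Reg at h
    rw [Finset.mem_filter, Finset.mem_powerset] at h
    exact h.1
  have h := exch w p θ U
    (fun S σ => Good w p T Nm U S ∧ ¬ Bad w p ε U S ∧ σ ∈ Reg w p κ τ' U S)
    (fun S σ h => (hsubReg S σ h.2.2).trans Finset.sdiff_subset)
    (fun S σ => (4 : ℝ) ^ ((S \ U) \ σ).card / 2 ^ ell (hres w p ((κ ^ BT T)⁻¹) U σ S))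
  rw [h]
  have h2 : ∑ S, w S * p ^ (S \ U).card *
      ∑ σ ∈ (S \ U).powerset.filter
        (fun σ => Good w p T Nm U S ∧ ¬ Bad w p ε U S ∧ σ ∈ Reg w p κ τ' U S),
        (4 : ℝ) ^ ((S \ U) \ σ).card / 2 ^ ell (hres w p ((κ ^ BT T)⁻¹) U σ S)
      ≤ Fh w p τ' T Nm U := by
    unfold Fh
    rw [Finset.sum_filter]
    refine Finset.sum_le_sum (fun S _ => ?_)
    have h0 : 0 ≤ w S * p ^ (S \ U).card := mul_nonneg (hw S) (by positivity)
    by_cases hG : Good w p T Nm U S
    · rw [if_pos hG]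
      by_cases hS : w S = 0
      · simp [hS]
      · by_cases hbad : Bad w p ε U S
        · have : ((S \ U).powerset.filter (fun σ =>
              Good w p T Nm U S ∧ ¬ Bad w p ε U S ∧ σ ∈ Reg w p κ τ' U S)) = ∅ := by
            rw [Finset.filter_eq_empty_iff]
            intro σ _ h6
            exact h6.2.1 hbad
          rw [this, Finset.sum_empty, mul_zero]
          exact mul_nonneg h0 (Wt_nonneg _ _ _ _ _)
        · have hfeq : ((S \ U).powerset.filter (fun σ =>
              Good w p T Nm U S ∧ ¬ Bad w p ε U S ∧ σ ∈ Reg w p κ τ' U S))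
              = Reg w p κ τ' U S := by
            ext σ
            rw [Finset.mem_filter, Finset.mem_powerset]
            constructor
            · intro h6
              exact h6.2.2.2
            · intro h6
              exact ⟨hsubReg S σ h6, hG, hbad, h6⟩
          rw [hfeq]
          have hcapA : ∀ A ⊆ S \ U, lam w p U A ≤ Θ := by
            intro A hA
            exact (hG U (Finset.Subset.refl U) A hA).le.trans hcap
          have hΘ0 : 0 < Θ := by
            have h7 := hG U (Finset.Subset.refl U) ∅ (Finset.empty_subset _)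
            have h8 := lam_nonneg hw hp U ∅
            linarith
          refine mul_le_mul_of_nonneg_left ?_ h0
          exact label_sum hw hp (hT S hS) hcapA hbad hε hΘ0 hκ1 hκ hτ
    · rw [if_neg hG]
      have : ((S \ U).powerset.filter (fun σ =>
          Good w p T Nm U S ∧ ¬ Bad w p ε U S ∧ σ ∈ Reg w p κ τ' U S)) = ∅ := by
        rw [Finset.filter_eq_empty_iff]
        intro σ _ h6
        exact hG h6.1
      rw [this]
      simp
  calc _ ≤ θ⁻¹ * Fh w p τ' T Nm U :=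
        mul_le_mul_of_nonneg_left h2 (inv_nonneg.mpr hθ.le)
    _ ≤ θ⁻¹ * ((1 - δ) * θ) := mul_le_mul_of_nonneg_left hF (inv_nonneg.mpr hθ.le)
    _ = 1 - δ := by field_simp

open Classical in
theorem cost_bad {w : Finset X → ℝ} {p : ℝ} (hw : ∀ S, 0 ≤ w S) (hp : 0 < p)
    {T Nm : ℕ} (hT : ∀ S, w S ≠ 0 → S.card ≤ T) {ε θ Θ : ℝ} (hθ : 1 / 2 ≤ θ)
    (hε : 0 < ε) {U : Finset X} (hcap : cap Nm (U.card + T) ≤ Θ) :
    ∑ σ ∈ univ.filter (fun σ : Finset X => Disjoint σ U),
      omB w p ε T Nm θ U σ * p ^ σ.card ≤ 2 * 64 ^ T * ε * Θ := by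
  have hθ0 : 0 < θ := by linarith
  have hcap0 : 0 ≤ cap Nm (U.card + T) := by unfold cap; positivity
  have hΘ0 : 0 ≤ Θ := hcap0.trans hcap
  unfold omB
  have h := exch w p θ U (fun S σ => Good w p T Nm U S ∧ Bad w p ε U S ∧ σ ⊆ S)
    (fun S σ h => h.2.2) (fun _ _ => (4 : ℝ) ^ T)
  rw [h]
  have h2 : ∑ S, w S * p ^ (S \ U).card *
      ∑ σ ∈ (S \ U).powerset.filter (fun σ => Good w p T Nm U S ∧ Bad w p ε U S ∧ σ ⊆ S),
        (4 : ℝ) ^ T
      ≤ 8 ^ T * (ε * 8 ^ T * Θ) := by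
    by_cases hex : ∃ S, Good w p T Nm U S
    · obtain ⟨S0, hS0⟩ := hex
      have hlam : lam w p U ∅ ≤ Θ :=
        (hS0 U (Finset.Subset.refl U) ∅ (Finset.empty_subset _)).le.trans hcap
      have hb := bad_cost hw hp hT hε.le U
      have h3 : ∑ S, w S * p ^ (S \ U).card *
          ∑ σ ∈ (S \ U).powerset.filter
            (fun σ => Good w p T Nm U S ∧ Bad w p ε U S ∧ σ ⊆ S), (4 : ℝ) ^ T
          ≤ 8 ^ T * ∑ S ∈ univ.filter (fun S => Bad w p ε U S), w S * p ^ (S \ U).card := by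
        rw [Finset.mul_sum, Finset.sum_filter]
        refine Finset.sum_le_sum (fun S _ => ?_)
        have h0 : 0 ≤ w S * p ^ (S \ U).card := mul_nonneg (hw S) (by positivity)
        by_cases hbad : Bad w p ε U S
        · rw [if_pos hbad]
          by_cases hS : w S = 0
          · simp [hS]
          · have hcard : ((S \ U).powerset.filter
                (fun σ => Good w p T Nm U S ∧ Bad w p ε U S ∧ σ ⊆ S)).card ≤ 2 ^ T := by
              refine (Finset.card_filter_le _ _).trans ?_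
              rw [Finset.card_powerset]
              exact Nat.pow_le_pow_right (by norm_num)
                ((Finset.card_le_card Finset.sdiff_subset).trans (hT S hS))
            have h3 : ∑ σ ∈ (S \ U).powerset.filter
                (fun σ => Good w p T Nm U S ∧ Bad w p ε U S ∧ σ ⊆ S),
                (4 : ℝ) ^ T ≤ 8 ^ T := by
              rw [Finset.sum_const, nsmul_eq_mul]
              have h4 : (((S \ U).powerset.filter
                (fun σ => Good w p T Nm U S ∧ Bad w p ε U S ∧ σ ⊆ S)).card : ℝ) ≤ 2 ^ T := by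
                exact_mod_cast hcard
              calc _ ≤ (2 : ℝ) ^ T * 4 ^ T := mul_le_mul_of_nonneg_right h4 (by positivity)
                _ = 8 ^ T := by rw [← mul_pow]; norm_num
            calc _ ≤ w S * p ^ (S \ U).card * 8 ^ T := mul_le_mul_of_nonneg_left h3 h0
              _ = 8 ^ T * (w S * p ^ (S \ U).card) := by ring
        · rw [if_neg hbad]
          have : ((S \ U).powerset.filter
              (fun σ => Good w p T Nm U S ∧ Bad w p ε U S ∧ σ ⊆ S)) = ∅ := by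
            rw [Finset.filter_eq_empty_iff]
            intro σ _ h6
            exact hbad h6.2.1
          rw [this]
          simp
      refine h3.trans (mul_le_mul_of_nonneg_left (hb.trans ?_) (by positivity))
      exact mul_le_mul_of_nonneg_left hlam (by positivity)
    · have h3 : ∑ S, w S * p ^ (S \ U).card *
          ∑ σ ∈ (S \ U).powerset.filter
            (fun σ => Good w p T Nm U S ∧ Bad w p ε U S ∧ σ ⊆ S), (4 : ℝ) ^ T = 0 := by
        refine Finset.sum_eq_zero (fun S _ => ?_)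
        have : ((S \ U).powerset.filter
            (fun σ => Good w p T Nm U S ∧ Bad w p ε U S ∧ σ ⊆ S)) = ∅ := by
          rw [Finset.filter_eq_empty_iff]
          intro σ _ h6
          exact hex ⟨S, h6.1⟩
        rw [this]
        simp
      rw [h3]
      positivity
  have hinv : θ⁻¹ ≤ 2 := by
    rw [inv_le_comm₀ hθ0 (by norm_num)]
    linarith
  calc _ ≤ θ⁻¹ * (8 ^ T * (ε * 8 ^ T * Θ)) :=
        mul_le_mul_of_nonneg_left h2 (inv_nonneg.mpr hθ0.le)
    _ ≤ 2 * (8 ^ T * (ε * 8 ^ T * Θ)) := mul_le_mul_of_nonneg_right hinv (by positivity)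
    _ = 2 * 64 ^ T * ε * Θ := by
        have : (64 : ℝ) ^ T = 8 ^ T * 8 ^ T := by rw [← mul_pow]; norm_num
        rw [this]; ring

end Vale.Agent.P034
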