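import Vale.Agent.P034.LamBasics
import Vale.Agent.P034.ChainCover

/-! Module Y: the lossy down step. -/

namespace Vale.Agent.P034
open Finset
variable {X : Type*} [Fintype X] [DecidableEq X]

theorem lossy_sum_eq {w : Finset X → ℝ} {p : ℝ} (Y : Finset X) :
    ∑ S, w S * p ^ (S \ Y).card = lam w p Y ∅ := by
  unfold lam
  simp

theorem lossy_small {w : Finset X → ℝ} {p : ℝ} (hw : ∀ S, 0 ≤ w S) (hp : 0 < p)
    (Y V : Finset X) (hV : V ⊆ Y) :
    ∑ S ∈ univ.filter (fun S : Finset X => S ∩ Y ⊆ V), w S * p ^ (S \ Y).card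
      ≤ lam w p V ∅ := by
  rw [← lossy_sum_eq V]
  calc ∑ S ∈ univ.filter (fun S : Finset X => S ∩ Y ⊆ V), w S * p ^ (S \ Y).card
      = ∑ S ∈ univ.filter (fun S : Finset X => S ∩ Y ⊆ V), w S * p ^ (S \ V).card := by
        apply Finset.sum_congr rfl
        intro S hS
        have hS' := (Finset.mem_filter.mp hS).2
        have h1 : S \ Y = S \ V := by
          ext x
          rw [Finset.mem_sdiff, Finset.mem_sdiff]
          constructor
          · rintro ⟨h1, h2⟩
            exact ⟨h1, fun h => h2 (hV h)⟩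
          · rintro ⟨h1, h2⟩
            exact ⟨h1, fun h => h2 (hS' (Finset.mem_inter.mpr ⟨h1, h⟩))⟩
        rw [h1]
    _ ≤ ∑ S, w S * p ^ (S \ V).card :=
        Finset.sum_le_sum_of_subset_of_nonneg (Finset.subset_univ _)
          (fun S _ _ => mul_nonneg (hw S) (pow_nonneg hp.le _))

theorem lossy_cover {w : Finset X → ℝ} {p : ℝ} (hw : ∀ S, 0 ≤ w S) (hp : 0 < p) (hp1 : p ≤ 1)
    {T : ℕ} (hT : ∀ S, w S ≠ 0 → S.card ≤ T) {K u n : ℕ} {θ : ℝ} (hθ : 0 < θ) (hu : 1 ≤ u)
    (hn : ((K : ℝ) + 1) ^ u * (1 / 2) ^ n ≤ 1 / 4) (hKu : (K : ℝ) ≤ Real.exp ((u : ℝ) / 8))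
    (hun : u ≤ T * n) :
    Cov (p / 8) (10 * Real.exp (-(u : ℝ) / 2))
      {Y : Finset X | Y.card ≤ K ∧ θ ≤ lam w p Y ∅ ∧
        ∀ U ⊆ Y, U.card ≤ T * n → lam w p U ∅ < θ / (2 * 2 ^ T)} := by
  classical
  have h2T : (1 : ℝ) ≤ 2 ^ T := one_le_pow₀ (by norm_num)
  refine chain_cover (q := p) (P := fun U => lam w p U ∅ < θ / (2 * 2 ^ T))
    (ω := fun U σ => lam w p U σ / θ) (ρ := 1 / 2) (T := T) (n := n) (u := u) (K := K) (M := 1)
    (δ := 1 / 2) (ξ := 1) hp hp1 ?_ (by norm_num) ?_ (by norm_num) (by norm_num) one_pos le_rfl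
    hu le_rfl ?_ ?_ hKu _ ?_
  · intro U σ
    exact div_nonneg (lam_nonneg hw hp U σ) hθ.le
  · intro U hU
    have h1 := sum_lam_le hw hp hT U
    have h2 : ∑ σ ∈ univ.filter (fun σ : Finset X => Disjoint σ U),
        lam w p U σ / θ * p ^ σ.card
        = (∑ σ ∈ univ.filter (fun σ : Finset X => Disjoint σ U), lam w p U σ * p ^ σ.card) / θ := by
      rw [Finset.sum_div]
      apply Finset.sum_congr rfl
      intro σ _
      ring
    rw [h2, div_le_iff₀ hθ]
    have h3 : (2 : ℝ) ^ T * lam w p U ∅ ≤ 2 ^ T * (θ / (2 * 2 ^ T)) :=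
      mul_le_mul_of_nonneg_left hU.le (by positivity)
    have h4 : (2 : ℝ) ^ T * (θ / (2 * 2 ^ T)) = 1 / 2 * θ := by
      field_simp
    linarith
  · have h1 : (1 : ℝ) - 1 / 2 = 1 / 2 := by norm_num
    rw [h1]
    exact hn
  · have h1 : (1 : ℝ) ≤ ((K : ℝ) + 1) ^ u := one_le_pow₀ (by
      have : (0 : ℝ) ≤ K := Nat.cast_nonneg K
      linarith)
    have h2 : (0 : ℝ) ≤ (1 / 2) ^ n := by positivity
    have h3 : (1 : ℝ) * (1 / 2) ^ n ≤ ((K : ℝ) + 1) ^ u * (1 / 2) ^ n :=
      mul_le_mul_of_nonneg_right h1 h2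
    rw [one_pow]
    linarith
  · rintro Y ⟨hYK, hYθ, hYU⟩
    have hL : 0 < lam w p Y ∅ := lt_of_lt_of_le hθ hYθ
    have hμ1 : ∑ S, w S * p ^ (S \ Y).card / lam w p Y ∅ = 1 := by
      rw [← Finset.sum_div, lossy_sum_eq, div_self hL.ne']
    refine ⟨hYK, hYU, fun S => w S * p ^ (S \ Y).card / lam w p Y ∅, fun _ _ => False,
      ?_, hμ1, ?_, ?_, ?_, ?_⟩
    · intro S
      exact div_nonneg (mul_nonneg (hw S) (pow_nonneg hp.le _)) hL.le
    · intro S hS
      apply hT
      intro h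
      apply hS
      simp [h]
    · intro V hV hVu
      have h1 : ∑ S ∈ univ.filter (fun S : Finset X => S ∩ Y ⊆ V),
          w S * p ^ (S \ Y).card / lam w p Y ∅
          = (∑ S ∈ univ.filter (fun S : Finset X => S ∩ Y ⊆ V), w S * p ^ (S \ Y).card)
            / lam w p Y ∅ := by rw [Finset.sum_div]
      have h2 := lossy_small hw hp Y V hV
      have h3 := hYU V hV (by omega)
      have h4 : θ / (2 * 2 ^ T) ≤ θ / 2 := by
        apply div_le_div_of_nonneg_left hθ.le (by norm_num)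
        linarith
      rw [h1, div_le_iff₀ hL]
      linarith
    · intro U hU _ σ hσ
      simp only [if_false, mul_one]
      have h1 : ∑ S ∈ univ.filter (fun S : Finset X => (S ∩ Y) \ U = σ),
          w S * p ^ (S \ Y).card / lam w p Y ∅
          = (∑ S ∈ univ.filter (fun S : Finset X => (S ∩ Y) \ U = σ), w S * p ^ (S \ Y).card)
            / lam w p Y ∅ := by rw [Finset.sum_div]
      have h2 := sum_label_le_lam hw hp (σ := σ) hU
      rw [h1]
      calc _ ≤ lam w p U σ / lam w p Y ∅ := div_le_div_of_nonneg_right h2 hL.le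
        _ ≤ lam w p U σ / θ :=
          div_le_div_of_nonneg_left (lam_nonneg hw hp U σ) hθ hYθ
    · rw [En_flags hμ1, Finset.sum_eq_zero]
      · norm_num
      · intro j _
        refine Eq.trans ?_ (En_const hμ1 Y (fun _ _ => False) j 0)
        congr 1
        funext U f
        apply Finset.sum_eq_zero
        intro S hS
        simp at hS

end Vale.Agent.P034
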