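import Vale.Agent.P034.Down
import Vale.Agent.P034.Params
import Vale.Agent.P034.Lossy
import Vale.Agent.P034.Base

/-! Module F1: the level recursion. -/

namespace Vale.Agent.P034
open Finset
variable {X : Type*} [Fintype X] [DecidableEq X]

/-- states of level `m`. -/
def St (w : Finset X → ℝ) (p : ℝ) (T Nm m : ℕ) : Set (Finset X) :=
  {Y | ∃ g, 4 ^ m ≤ g ∧ g < 4 ^ (m + 1) ∧ Y.card ≤ Ng T g ∧
    thm m ≤ Fh w p ((kg T g ^ BT T)⁻¹) T Nm Y}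

theorem level_step {b m : ℕ} (hb : 1 ≤ b) (hm : m0 b ≤ m) {w : Finset X → ℝ} {p : ℝ}
    (hw : ∀ S, 0 ≤ w S) (hp : 0 < p) (hp1 : p ≤ 1) (hT : ∀ S, w S ≠ 0 → S.card ≤ 2 ^ b) :
    Cov (p / 8) ((1 / 2 : ℝ) ^ (m + 2 ^ b + 10))
      {Y : Finset X | Y ∈ St w p (2 ^ b) (NmT (2 ^ b)) (m + 1) ∧
        ∀ U ⊆ Y, U ∉ St w p (2 ^ b) (NmT (2 ^ b)) m} := by
  have hth := num_theta hb hm
  have hdl := num_delta hb hm
  have hxi := num_xi hb hm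
  have het := num_eta hb hm
  have hstep : ∀ G ∈ Finset.Ico (4 ^ (m + 1)) (4 ^ (m + 2)),
      Cov (p / 8) ((∑ i ∈ range (3 * 4 ^ m), ((ng (2 ^ b) (4 ^ m + i) : ℝ) + 1)) *
        (10 * Real.exp (-(um (2 ^ b) m : ℝ) / 2)))
      {Y : Finset X | Y.card ≤ Ng (2 ^ b) G ∧
        thm (m + 1) ≤ Fh w p ((kg (2 ^ b) G ^ BT (2 ^ b))⁻¹) (2 ^ b) (NmT (2 ^ b)) Y ∧
        ∀ i < 3 * 4 ^ m, ∀ U ⊆ Y, U.card ≤ 2 ^ b * ng (2 ^ b) (4 ^ m + i) →
          Fh w p ((kg (2 ^ b) (4 ^ m + i) ^ BT (2 ^ b))⁻¹) (2 ^ b) (NmT (2 ^ b)) U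
            < (1 - dm (m + 1)) * thm (m + 1)} := by
    intro G hG
    rw [Finset.mem_Ico] at hG
    obtain ⟨hG1, hG2⟩ := hG
    have hi1 : ∀ i : ℕ, 4 ^ m ≤ 4 ^ m + i := fun i => Nat.le_add_right _ _
    have hi2 : ∀ i : ℕ, i < 3 * 4 ^ m → 4 ^ m + i < 4 ^ (m + 1) := by
      intro i hi
      have : 4 ^ (m + 1) = 4 ^ m + 3 * 4 ^ m := by ring
      omega
    refine down_cover (K := Ng (2 ^ b) G) (u := um (2 ^ b) m) (R := 3 * 4 ^ m)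
      (κ := kg (2 ^ b) G) (θ := thm (m + 1)) (δ := dm (m + 1)) (ε := epsg (2 ^ b) G)
      (ξ := xim (2 ^ b) m) (η := etam b m) (T := 2 ^ b) (Nm := NmT (2 ^ b)) hw hp hp1
      Nat.one_le_two_pow hT
      (fun i => ng (2 ^ b) (4 ^ m + i)) (fun i => lg (2 ^ b) (4 ^ m + i))
      (fun i => Mg b m (4 ^ m + i)) (fun i => kg (2 ^ b) (4 ^ m + i))
      (fun i => Thg (2 ^ b) (4 ^ m + i)) (fun i => hg b m (4 ^ m + i))
      hth.2.1 hdl.1 hdl.2 ?_ hxi.1 hxi.2.1 het.1 het.2 (num_u hb hm)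
      ?_ ?_ ?_ ?_ hxi.2.2 ?_ ?_ (num_N8 hb hm hG1 hG2) ?_ (num_N9b hb hm hG1 hG2) ?_ ?_ ?_ ?_
      (fun i => num_N12b b m _) (fun i => num_N12c b m _) ?_ (num_N13 hb hm)
      (num_N14 hb hm hG1 hG2)
    · unfold epsg; positivity
    · intro i hi; exact num_N1 hb hm (hi1 i) (hi2 i hi)
    · intro i hi; exact num_N2 hb hm (hi1 i) (hi2 i hi) hG1 hG2
    · intro i hi; exact num_N3 hb hm (hi1 i) (hi2 i hi) hG1 hG2
    · intro i hi; exact num_N4 hb hm (hi1 i) (hi2 i hi) hG1 hG2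
    · intro i hi; exact num_N6 hb hm (hi1 i) (hi2 i hi)
    · intro i hi; exact num_N7 hb hm (hi1 i) (hi2 i hi) hG1 hG2
    · intro i hi; exact num_N9a hb hm (hi1 i) (hi2 i hi)
    · intro i hi; exact num_N9c hb hm (hi1 i) (hi2 i hi)
    · intro i hi; exact num_N10 hb hm (hi1 i) (hi2 i hi)
    · intro i hi; exact num_N11 hb hm (hi1 i) (hi2 i hi)
    · intro i hi; exact num_N12a hb hm (hi1 i) (hi2 i hi)
    · intro i hi
      have h1 := num_N12d hb hm (hi1 i) (hi2 i (by omega))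
      have h2 : ((i : ℝ) + 2) * 8 ≤ (((4 ^ m + i : ℕ) : ℝ) + 2) * 8 := by
        push_cast
        have : (0 : ℝ) ≤ 4 ^ m := by positivity
        nlinarith
      exact h2.trans h1
  have hq : (0 : ℝ) ≤ p / 8 := by positivity
  have hcov := Cov_biUnion hq (Finset.Ico (4 ^ (m + 1)) (4 ^ (m + 2))) _ _ hstep
  refine Cov_mono hcov ?_ ?_
  · rw [Finset.sum_const, nsmul_eq_mul]
    refine le_trans ?_ (num_cost hb hm)
    have hnn : 0 ≤ (∑ i ∈ Finset.range (3 * 4 ^ m), ((ng (2 ^ b) (4 ^ m + i) : ℝ) + 1)) *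
        (10 * Real.exp (-(um (2 ^ b) m : ℝ) / 2)) := by positivity
    refine mul_le_mul_of_nonneg_right ?_ hnn
    have : (Finset.Ico (4 ^ (m + 1)) (4 ^ (m + 2))).card ≤ 4 ^ (m + 2) := by
      rw [Nat.card_Ico]; exact Nat.sub_le _ _
    exact_mod_cast this
  · rintro Y ⟨⟨g, hg1, hg2, hgc, hgF⟩, hno⟩
    simp only [Set.mem_iUnion, Finset.mem_Ico]
    refine ⟨g, ⟨hg1, hg2⟩, hgc, hgF, ?_⟩
    intro i hi U hU hUc
    by_contra hcon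
    push_neg at hcon
    refine hno U hU ⟨4 ^ m + i, Nat.le_add_right _ _, ?_, ?_, ?_⟩
    · have : 4 ^ (m + 1) = 4 ^ m + 3 * 4 ^ m := by ring
      omega
    · refine hUc.trans ?_
      unfold Ng
      nlinarith [Nat.zero_le (2 ^ b * ng (2 ^ b) (4 ^ m + i))]
    · exact hth.2.2.trans hcon

end Vale.Agent.P034
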