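import Vale.Agent.P034.ParamsB

/-! Module Na: numeric facts theta, delta, xi, eta, u, N1, N6, N9a, N9c, N11.  `T = 2^b`. -/

namespace Vale.Agent.P034

theorem na_m_eg {b m g : ℕ} (hb : 1 ≤ b) (hm : m0 b ≤ m) (hg1 : 4 ^ m ≤ g) :
    2 * m + 8 ≤ eg (2 ^ b) g := by
  unfold m0 at hm
  calc 2 * m + 8 ≤ 4 * m := by omega
    _ ≤ 4 * 4 ^ (m - 1) := by
      have : m - 1 < 4 ^ (m - 1) := Nat.lt_pow_self (by norm_num)
      omega
    _ = 4 ^ m := by
      rw [← pow_succ']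
      congr 1
      omega
    _ ≤ g := hg1
    _ ≤ _ := nb_g_le hb g

theorem na_exp (x : ℕ) (hx : 16 ≤ x) : 3 + 16 * x ≤ 2 ^ x := by
  obtain ⟨y, rfl⟩ : ∃ y, x = y + 6 := ⟨x - 6, by omega⟩
  have hy : y < 2 ^ y := Nat.lt_two_pow_self
  rw [pow_add]
  omega

theorem na_eta_ng {b m g : ℕ} (hb : 1 ≤ b) (hm : m0 b ≤ m) (hg1 : 4 ^ m ≤ g) :
    etam b m * ng (2 ^ b) g = Mg b m g := by
  have h := na_m_eg hb hm hg1
  unfold etam sm ng Mg
  unfold m0 at hm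
  push_cast
  have h1 : eg (2 ^ b) g = (2 * m - 4 - b) + (eg (2 ^ b) g - (2 * m - 4 - b)) := by omega
  have h2 : (2 : ℝ) ^ (2 * m - 4 - b) ≠ 0 := by positivity
  rw [show (2 : ℝ) ^ (eg (2 ^ b) g) = 2 ^ ((2 * m - 4 - b) + (eg (2 ^ b) g - (2 * m - 4 - b))) from
    by rw [← h1], pow_add]
  field_simp

section
variable {b m : ℕ} (hb : 1 ≤ b) (hm : m0 b ≤ m)
include hb hm

theorem num_theta : 1 / 2 ≤ thm m ∧ 1 / 2 ≤ thm (m + 1) ∧ thm m ≤ (1 - dm (m + 1)) * thm (m + 1) := by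
  unfold m0 at hm
  unfold thm dm
  have h1 : (1 / 2 : ℝ) ^ m ≤ (1 / 2 : ℝ) ^ 3 :=
    pow_le_pow_of_le_one (by norm_num) (by norm_num) (by omega)
  have h0 : (0 : ℝ) < (1 / 2 : ℝ) ^ m := by positivity
  rw [pow_succ]
  refine ⟨by norm_num at h1 ⊢; linarith, by norm_num at h1 ⊢; linarith, ?_⟩
  nlinarith [mul_pos h0 h0]

theorem num_delta : 0 < dm (m + 1) ∧ dm (m + 1) ≤ 1 := by
  unfold dm
  exact ⟨by positivity, pow_le_one₀ (by norm_num) (by norm_num)⟩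

theorem num_xi : 0 < xim (2 ^ b) m ∧ xim (2 ^ b) m ≤ 1 ∧ xim (2 ^ b) m * 8 ^ (2 ^ b) ≤ dm (m + 1) / 4 := by
  obtain ⟨h1, h2⟩ := num_delta hb hm
  have h8 : (1 : ℝ) ≤ 8 ^ (2 ^ b) := one_le_pow₀ (by norm_num)
  unfold xim
  refine ⟨by positivity, ?_, ?_⟩
  · rw [div_le_one (by positivity)]
    nlinarith
  · apply le_of_eq
    field_simp

theorem num_eta : 0 < etam b m ∧ etam b m ≤ 1 := by
  unfold etam sm
  have h : (1 : ℝ) ≤ ((2 ^ (2 * m - 4 - b) : ℕ) : ℝ) := by exact_mod_cast Nat.one_le_two_pow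
  refine ⟨by positivity, ?_⟩
  rw [div_le_one (by linarith)]
  exact h

theorem num_u : 1 ≤ um (2 ^ b) m := by
  unfold um
  have : 1 ≤ EE (2 ^ b) ^ 4 ^ (m + 2) := Nat.one_le_pow _ _ (by have := nb_EE_ge hb; omega)
  omega

variable {g G : ℕ} (hg1 : 4 ^ m ≤ g) (hg2 : g < 4 ^ (m + 1)) (hG1 : 4 ^ (m + 1) ≤ G)
  (hG2 : G < 4 ^ (m + 2))
include hg1 hg2

omit hm hg2 in
theorem num_N1' : cap (NmT (2 ^ b)) (2 ^ b * ng (2 ^ b) g + 2 ^ b) ≤ Thg (2 ^ b) g := by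
  have hgp := nb_g_pos hg1
  have h3 := nb_T_le hb hgp
  have hT := nb_T hb
  unfold cap Thg NmT
  have key : 2 ^ b * ng (2 ^ b) g + 2 ^ b + 2 ^ (2 ^ b + 20) ≤ Ng (2 ^ b) g := by
    unfold Ng ng
    set T := 2 ^ b with hTd
    have h1 : T + 2 ^ (T + 20) ≤ 2 ^ (T + 21) := by
      have : T < 2 ^ T := Nat.lt_two_pow_self
      have h4 : 2 ^ T ≤ 2 ^ (T + 20) := Nat.pow_le_pow_right (by norm_num) (by omega)
      calc T + 2 ^ (T + 20) ≤ 2 ^ (T + 20) + 2 ^ (T + 20) := by omega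
        _ = 2 ^ (T + 21) := by rw [pow_succ 2 (T + 20)]; ring
    have h2 : 2 ^ (T + 21) ≤ 2 ^ eg T g := Nat.pow_le_pow_right (by norm_num) (by omega)
    have h5 : 2 ^ eg T g ≤ T * 2 ^ eg T g := Nat.le_mul_of_pos_left _ (by omega)
    have h6 : 2 * T * 2 ^ eg T g = T * 2 ^ eg T g + T * 2 ^ eg T g := by ring
    omega
  gcongr

omit hg2 in
theorem num_N6' : (1 - dm (m + 1) / 2) ^ ng (2 ^ b) g ≤ (1 / 4) * xim (2 ^ b) m ^ Mg b m g := by
  have hme := na_m_eg hb hm hg1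
  unfold m0 at hm
  set e := eg (2 ^ b) g with he
  set T := 2 ^ b with hT
  have hMg : Mg b m g = 2 ^ (e - (2 * m - 4 - b)) := rfl
  have hng : ng T g = 2 ^ e := rfl
  -- the natural number inequality
  have key : 2 + (m + 3 + 3 * T) * 2 ^ (e - (2 * m - 4 - b)) ≤ 2 ^ (e - m - 2) := by
    obtain ⟨j, rfl⟩ : ∃ j, m = 2 * b + 16 + j := ⟨m - (2 * b + 16), by omega⟩
    have e1 : e - (2 * b + 16 + j) - 2
        = (e - (2 * (2 * b + 16 + j) - 4 - b)) + (b + 10 + j) := by omega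
    rw [e1, pow_add 2 _ (b + 10 + j)]
    set P := 2 ^ (e - (2 * (2 * b + 16 + j) - 4 - b)) with hP
    have hP1 : 1 ≤ P := Nat.one_le_two_pow
    have h2 : (2 * b + 16 + j) + 3 + 3 * T + 2 ≤ 2 ^ (b + 10 + j) := by
      have hb' : b < 2 ^ b := Nat.lt_two_pow_self
      have hj : j < 2 ^ j := Nat.lt_two_pow_self
      have e2 : 2 ^ (b + 10 + j) = 1024 * (2 ^ b * 2 ^ j) := by rw [pow_add, pow_add]; ring
      have h3 : 2 ^ b ≤ 2 ^ b * 2 ^ j := Nat.le_mul_of_pos_right _ (by positivity)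
      have h4 : 2 ^ j ≤ 2 ^ b * 2 ^ j := Nat.le_mul_of_pos_left _ (by positivity)
      rw [e2]
      omega
    calc 2 + ((2 * b + 16 + j) + 3 + 3 * T) * P
        ≤ 2 * P + ((2 * b + 16 + j) + 3 + 3 * T) * P := by omega
      _ = P * ((2 * b + 16 + j) + 3 + 3 * T + 2) := by ring
      _ ≤ P * 2 ^ (b + 10 + j) := Nat.mul_le_mul_left _ h2
  -- upper bound for the left side by a power of `1/2`
  have hd : dm (m + 1) / 2 = (1 / 2 : ℝ) ^ (m + 2) := by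
    unfold dm; rw [pow_succ (1 / 2 : ℝ) (m + 1)]; ring
  have hL : (1 - dm (m + 1) / 2) ^ ng T g ≤ (1 / 2 : ℝ) ^ (2 ^ (e - m - 2)) := by
    have h1 : (1 - (1 / 2 : ℝ) ^ (m + 2)) ≤ Real.exp (-((1 / 2 : ℝ) ^ (m + 2))) := by
      have := Real.add_one_le_exp (-((1 / 2 : ℝ) ^ (m + 2)))
      linarith
    have h0 : (0 : ℝ) ≤ 1 - (1 / 2 : ℝ) ^ (m + 2) := by
      have : (1 / 2 : ℝ) ^ (m + 2) ≤ 1 := pow_le_one₀ (by norm_num) (by norm_num)
      linarith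
    have h2 : Real.exp (-1) ≤ 1 / 2 := by
      have h := Real.exp_one_gt_d9
      rw [Real.exp_neg]
      rw [show (1 / 2 : ℝ) = 2⁻¹ by norm_num]
      apply inv_anti₀ (by norm_num)
      linarith
    rw [hd, hng]
    have e3 : e = (m + 2) + (e - m - 2) := by omega
    calc (1 - (1 / 2 : ℝ) ^ (m + 2)) ^ (2 ^ e)
        = ((1 - (1 / 2 : ℝ) ^ (m + 2)) ^ (2 ^ (m + 2))) ^ (2 ^ (e - m - 2)) := by
          rw [← pow_mul, ← pow_add, ← e3]
      _ ≤ (1 / 2 : ℝ) ^ (2 ^ (e - m - 2)) := by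
          apply pow_le_pow_left₀ (pow_nonneg h0 _)
          calc (1 - (1 / 2 : ℝ) ^ (m + 2)) ^ (2 ^ (m + 2))
              ≤ (Real.exp (-((1 / 2 : ℝ) ^ (m + 2)))) ^ (2 ^ (m + 2)) :=
                pow_le_pow_left₀ h0 h1 _
            _ = Real.exp (-1) := by
                rw [← Real.exp_nat_mul]
                congr 1
                push_cast
                rw [mul_neg, ← mul_pow]
                norm_num
            _ ≤ 1 / 2 := h2
  have hR : (1 / 4) * xim T m ^ Mg b m g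
      = (1 / 2 : ℝ) ^ (2 + (m + 3 + 3 * T) * 2 ^ (e - (2 * m - 4 - b))) := by
    have hx : xim T m = (1 / 2 : ℝ) ^ (m + 3 + 3 * T) := by
      unfold xim dm
      have h8 : (8 : ℝ) ^ T = 2 ^ (3 * T) := by rw [pow_mul]; norm_num
      have h9 : (1 / 2 : ℝ) ^ (m + 3 + 3 * T) = (1 / 2 : ℝ) ^ m * (1 / 8) * (1 / 2 ^ (3 * T)) := by
        rw [pow_add, pow_add, one_div_pow 2 (3 * T)]
        norm_num
      rw [h8, h9, pow_succ]
      field_simp
      norm_num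
    rw [hx, hMg, ← pow_mul, pow_add]
    norm_num
  rw [hR]
  exact hL.trans (pow_le_pow_of_le_one (by norm_num) (by norm_num) key)

omit hg2 in
theorem num_N9a' : 16 ≤ etam b m * ng (2 ^ b) g := by
  rw [na_eta_ng hb hm hg1]
  have h := na_m_eg hb hm hg1
  unfold m0 at hm
  unfold Mg
  have : 2 ^ 4 ≤ 2 ^ (eg (2 ^ b) g - (2 * m - 4 - b)) := Nat.pow_le_pow_right (by norm_num) (by omega)
  exact_mod_cast this

omit hg2 in
theorem num_N9c' : etam b m * ng (2 ^ b) g ≤ Mg b m g := (na_eta_ng hb hm hg1).le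

omit hg2 in
theorem num_N11' : um (2 ^ b) m ≤ lg (2 ^ b) g ∧ um (2 ^ b) m ≤ 2 ^ b * ng (2 ^ b) g := by
  unfold m0 at hm
  have hT := nb_T hb
  set T := 2 ^ b with hTd
  have key : um T m ≤ ng T g := by
    have hee : 1 ≤ ee T := by
      unfold ee
      have := Nat.one_le_two_pow (n := T + 1)
      omega
    have h1 : um T m = 2 ^ (3 + ee T * 4 ^ (m + 2)) := by
      unfold um EE
      rw [← pow_mul, show (8 : ℕ) = 2 ^ 3 by norm_num, ← pow_add]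
    have h2 : 3 + ee T * 4 ^ (m + 2) ≤ eg T g := by
      have h3 : eg T (4 ^ m) ≤ eg T g := nb_eg_mono hb hg1
      refine le_trans ?_ h3
      unfold eg EE
      rw [← pow_mul]
      set x := ee T * 4 ^ m with hx
      have e1 : ee T * 4 ^ (m + 2) = 16 * x := by rw [hx, pow_add]; ring
      rw [e1]
      have hx1 : 16 ≤ x := by
        calc 16 = 1 * 4 ^ 2 := by norm_num
          _ ≤ ee T * 4 ^ m := Nat.mul_le_mul hee (Nat.pow_le_pow_right (by norm_num) (by omega))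
      exact na_exp x hx1
    rw [h1]
    unfold ng
    exact Nat.pow_le_pow_right (by norm_num) h2
  have hN : ng T g ≤ Ng T g := by
    unfold Ng
    exact Nat.le_mul_of_pos_left _ (by omega)
  refine ⟨key.trans (hN.trans ?_), key.trans (Nat.le_mul_of_pos_left _ (by omega))⟩
  unfold lg
  have h1 : 1 ≤ Ng T g := by unfold Ng ng; exact Nat.one_le_iff_ne_zero.2 (by positivity)
  exact Nat.le_self_pow (by positivity) _

theorem num_N1 : cap (NmT (2 ^ b)) (2 ^ b * ng (2 ^ b) g + 2 ^ b) ≤ Thg (2 ^ b) g :=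
  num_N1' hb hg1
theorem num_N6 : (1 - dm (m + 1) / 2) ^ ng (2 ^ b) g ≤ (1 / 4) * xim (2 ^ b) m ^ Mg b m g :=
  num_N6' hb hm hg1
theorem num_N9a : 16 ≤ etam b m * ng (2 ^ b) g := num_N9a' hb hm hg1
theorem num_N9c : etam b m * ng (2 ^ b) g ≤ Mg b m g := num_N9c' hb hm hg1
theorem num_N11 : um (2 ^ b) m ≤ lg (2 ^ b) g ∧ um (2 ^ b) m ≤ 2 ^ b * ng (2 ^ b) g :=
  num_N11' hb hm hg1

end

end Vale.Agent.P034
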