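import Vale.Agent.P034.ParamsDefs

/-! Module Nb: numeric inequalities N2, N3, N4, N10, N12a-d, N13.  `T = 2^b`. -/

namespace Vale.Agent.P034

/-! ### natural number facts -/

theorem nb_Ng (b g : ℕ) : Ng (2 ^ b) g = 2 ^ (b + 1 + eg (2 ^ b) g) := by
  unfold Ng ng
  rw [pow_add, pow_succ]
  ring

theorem nb_lg (b g : ℕ) : lg (2 ^ b) g =
    2 ^ ((b + 1 + eg (2 ^ b) g) * ((2 * 2 ^ b + 4) * (BT (2 ^ b) + 1))) := by
  unfold lg
  rw [nb_Ng, ← pow_mul]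

theorem nb_kg (b g : ℕ) : kg (2 ^ b) g = (2 : ℝ) ^ ((b + 1 + eg (2 ^ b) g) * (2 * 2 ^ b + 4)) := by
  unfold kg
  rw [nb_Ng, pow_mul]
  push_cast
  rfl

theorem nb_Thg (b g : ℕ) : Thg (2 ^ b) g = (2 : ℝ) ^ ((b + 1 + eg (2 ^ b) g) * 3) := by
  unfold Thg
  rw [nb_Ng, pow_mul]
  push_cast
  rfl

theorem nb_three_four {n : ℕ} (hn : 1 ≤ n) : 3 ^ n + 1 ≤ 4 ^ n := by
  induction n with
  | zero => omega
  | succ n ih =>
    rcases Nat.eq_zero_or_pos n with h | h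
    · subst h; norm_num
    · have := ih h
      rw [pow_succ, pow_succ]
      omega

theorem nb_T {b : ℕ} (hb : 1 ≤ b) : 2 ≤ 2 ^ b := by
  calc 2 = 2 ^ 1 := by norm_num
    _ ≤ 2 ^ b := Nat.pow_le_pow_right (by norm_num) hb

theorem nb_EE {b : ℕ} (hb : 1 ≤ b) :
    ((2 * 2 ^ b + 4) * (BT (2 ^ b) + 1)) * 16 ≤ EE (2 ^ b) := by
  have hT := nb_T hb
  set T := 2 ^ b with hTdef
  have h1 : BT T + 1 ≤ 4 ^ (2 ^ T) := by
    unfold BT
    exact nb_three_four Nat.one_le_two_pow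
  have h2 : 2 * T + 4 ≤ 4 * 2 ^ T := by
    have : T < 2 ^ T := Nat.lt_two_pow_self
    omega
  calc ((2 * T + 4) * (BT T + 1)) * 16 ≤ ((4 * 2 ^ T) * 4 ^ (2 ^ T)) * 16 := by gcongr
    _ = EE T := by
      unfold EE ee
      have e4 : (4:ℕ) ^ (2 ^ T) = 2 ^ (2 ^ (T + 1)) := by
        rw [show (4:ℕ) = 2 ^ 2 by norm_num, ← pow_mul]
        congr 1
        rw [pow_succ]; ring
      rw [e4, pow_add, pow_add]
      ring

theorem nb_EE_ge {b : ℕ} (hb : 1 ≤ b) : 65536 ≤ EE (2 ^ b) := by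
  have hT := nb_T hb
  set T := 2 ^ b with hTdef
  unfold EE ee
  calc 65536 = 2 ^ 16 := by norm_num
    _ ≤ 2 ^ (2 ^ (T + 1) + T + 6) := by
      apply Nat.pow_le_pow_right (by norm_num)
      have : 2 ^ (2 + 1) ≤ 2 ^ (T + 1) := Nat.pow_le_pow_right (by norm_num) (by omega)
      norm_num at this
      omega

theorem nb_eg_succ (T g : ℕ) : eg T (g + 1) = eg T g * EE T := by
  unfold eg; rw [pow_succ]

theorem nb_eg_mono {b g G : ℕ} (hb : 1 ≤ b) (h : g ≤ G) : eg (2 ^ b) g ≤ eg (2 ^ b) G := by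
  unfold eg
  exact Nat.pow_le_pow_right (by have := nb_EE_ge hb; omega) h

theorem nb_eg_lt {b g G : ℕ} (hb : 1 ≤ b) (h : g < G) :
    eg (2 ^ b) g * EE (2 ^ b) ≤ eg (2 ^ b) G := by
  rw [← nb_eg_succ]
  exact nb_eg_mono hb h

theorem nb_one_le_eg {b : ℕ} (hb : 1 ≤ b) (g : ℕ) : 1 ≤ eg (2 ^ b) g := by
  unfold eg
  exact Nat.one_le_pow _ _ (by have := nb_EE_ge hb; omega)

theorem nb_g_le {b : ℕ} (hb : 1 ≤ b) (g : ℕ) : g ≤ eg (2 ^ b) g := by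
  unfold eg
  calc g ≤ 2 ^ g := Nat.lt_two_pow_self.le
    _ ≤ (EE (2 ^ b)) ^ g := Nat.pow_le_pow_left (by have := nb_EE_ge hb; omega) g

theorem nb_T_le_EE {b : ℕ} (hb : 1 ≤ b) : 1024 * 2 ^ b ≤ EE (2 ^ b) := by
  have h := nb_EE hb
  have h2 : 3 ≤ BT (2 ^ b) := by
    unfold BT
    calc 3 = 3 ^ 1 := by norm_num
      _ ≤ 3 ^ (2 ^ (2 ^ b)) := Nat.pow_le_pow_right (by norm_num) Nat.one_le_two_pow
  have hT := nb_T hb
  have h3 : 64 * 2 ^ b ≤ EE (2 ^ b) := by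
    calc 64 * 2 ^ b ≤ ((2 * 2 ^ b + 4) * (3 + 1)) * 16 := by omega
      _ ≤ ((2 * 2 ^ b + 4) * (BT (2 ^ b) + 1)) * 16 := by gcongr
      _ ≤ _ := h
  -- a direct bound
  unfold EE ee
  set T := 2 ^ b with hTdef
  have h4 : T < 2 ^ T := Nat.lt_two_pow_self
  calc 1024 * T ≤ 2 ^ 10 * 2 ^ T := by omega
    _ = 2 ^ (10 + T) := by rw [pow_add]
    _ ≤ 2 ^ (2 ^ (T + 1) + T + 6) := by
      apply Nat.pow_le_pow_right (by norm_num)
      have : 2 ^ (2 + 1) ≤ 2 ^ (T + 1) := Nat.pow_le_pow_right (by norm_num) (by omega)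
      norm_num at this
      omega

theorem nb_T_le {b g : ℕ} (hb : 1 ≤ b) (hg : 1 ≤ g) : 1024 * 2 ^ b ≤ eg (2 ^ b) g := by
  calc 1024 * 2 ^ b ≤ EE (2 ^ b) := nb_T_le_EE hb
    _ = eg (2 ^ b) 1 := by unfold eg; rw [pow_one]
    _ ≤ eg (2 ^ b) g := nb_eg_mono hb hg

theorem nb_b_le {b : ℕ} (hb : 1 ≤ b) : b + 1 ≤ 2 ^ b := Nat.lt_two_pow_self

theorem nb_m_le {b m g : ℕ} (hb : 1 ≤ b) (hg1 : 4 ^ m ≤ g) : m ≤ eg (2 ^ b) g := by
  calc m ≤ 4 ^ m := (Nat.lt_pow_self (by norm_num)).le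
    _ ≤ g := hg1
    _ ≤ _ := nb_g_le hb g

theorem nb_g_pos {m g : ℕ} (hg1 : 4 ^ m ≤ g) : 1 ≤ g :=
  (Nat.one_le_pow _ _ (by norm_num)).trans hg1

/-! ### powers of two -/

theorem nb_pow_half {A B C : ℕ} (h : A + B ≤ C) : (2 : ℝ) ^ A ≤ (1 / 2 : ℝ) ^ B * 2 ^ C := by
  calc (2 : ℝ) ^ A = (1 / 2 : ℝ) ^ B * 2 ^ (A + B) := by
        rw [pow_add, mul_comm ((2:ℝ) ^ A), ← mul_assoc, ← mul_pow]
        norm_num
    _ ≤ (1 / 2 : ℝ) ^ B * 2 ^ C := by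
        gcongr
        norm_num

theorem nb_pow_half' {A B C : ℕ} (h : A + C ≤ B) : (2 : ℝ) ^ A * (1 / 2 : ℝ) ^ B ≤ (1 / 2 : ℝ) ^ C := by
  calc (2 : ℝ) ^ A * (1 / 2 : ℝ) ^ B ≤ (2 : ℝ) ^ A * (1 / 2 : ℝ) ^ (A + C) := by
        gcongr ?_ * ?_
        exact pow_le_pow_of_le_one (by norm_num) (by norm_num) h
    _ = (1 / 2 : ℝ) ^ C := by
        rw [pow_add, ← mul_assoc, ← mul_pow]
        norm_num

theorem nb_lg_pos (T g : ℕ) (hT : 1 ≤ T) : 0 < lg T g := by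
  unfold lg Ng ng
  positivity

section
variable {b m : ℕ} (hb : 1 ≤ b) (hm : m0 b ≤ m)
include hb hm

variable {g G : ℕ} (hg1 : 4 ^ m ≤ g) (hg2 : g < 4 ^ (m + 1)) (hG1 : 4 ^ (m + 1) ≤ G)
  (hG2 : G < 4 ^ (m + 2))
include hg1 hg2

theorem num_N10 : ((8 : ℝ) ^ (2 ^ b)) ^ ng (2 ^ b) g *
    Real.exp (-(lg (2 ^ b) g : ℝ) + 3 * (kg (2 ^ b) g ^ BT (2 ^ b) * (2 ^ (2 ^ b) * Thg (2 ^ b) g)))
      ≤ etam b m / 8 := by
  set T := 2 ^ b with hT
  have hT2 : 2 ≤ T := nb_T hb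
  have hgp := nb_g_pos hg1
  -- `N = Ng`, `P = kg ^ BT`
  set N : ℝ := (Ng T g : ℝ) with hN
  set P : ℝ := kg T g ^ BT T with hP
  have hN1024 : (2:ℝ) ^ (T + 10) ≤ N := by
    rw [hN, hT, nb_Ng]
    push_cast
    apply pow_le_pow_right₀ (by norm_num)
    have h1 := nb_T_le (g := g) hb hgp
    have h2 := nb_T hb
    omega
  have hN1 : (1:ℝ) ≤ N := by
    refine le_trans ?_ hN1024
    exact one_le_pow₀ (by norm_num)
  have hkg : kg T g = N ^ (2 * T + 4) := rfl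
  have hkg1 : 1 ≤ kg T g := by rw [hkg]; exact one_le_pow₀ hN1
  have hP1 : 1 ≤ P := by rw [hP]; exact one_le_pow₀ hkg1
  have hlg : (lg T g : ℝ) = P * N ^ (2 * T + 4) := by
    rw [hP, hkg]
    unfold lg
    push_cast
    rw [← pow_mul, ← pow_add]
    congr 1
  have hThg : Thg T g = N ^ 3 := rfl
  -- (8^T)^ng ≤ exp(3 T ng)
  have h8 : (8:ℝ) ≤ Real.exp 3 := by
    have h := Real.exp_one_gt_d9
    have h3 : Real.exp 3 = (Real.exp 1) ^ 3 := by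
      rw [← Real.exp_nat_mul]; norm_num
    rw [h3]
    calc (8:ℝ) = 2 ^ 3 := by norm_num
      _ ≤ (Real.exp 1) ^ 3 := by
        apply pow_le_pow_left₀ (by norm_num)
        linarith
  have h1 : ((8 : ℝ) ^ T) ^ ng T g ≤ Real.exp (3 * (T * ng T g : ℕ)) := by
    rw [← pow_mul]
    calc (8:ℝ) ^ (T * ng T g) ≤ (Real.exp 3) ^ (T * ng T g) := pow_le_pow_left₀ (by norm_num) h8 _
      _ = Real.exp (3 * (T * ng T g : ℕ)) := by
        rw [← Real.exp_nat_mul]; congr 1; ring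
  have h2 : 3 * ((T * ng T g : ℕ) : ℝ) ≤ 2 * N := by
    have : N = 2 * (T * ng T g : ℕ) := by
      rw [hN]; unfold Ng; push_cast; ring
    rw [this]
    have : (0:ℝ) ≤ (T * ng T g : ℕ) := by positivity
    linarith
  -- etam / 8 ≥ exp (-2m)
  have h3 : Real.exp (-(2 * m : ℕ)) ≤ etam b m / 8 := by
    unfold etam sm
    have h4 : ((2 ^ (2 * m - 4 - b) : ℕ) : ℝ) * 8 ≤ Real.exp ((2 * m : ℕ)) := by
      have h5 : (2 : ℝ) ^ (2 * m) ≤ Real.exp ((2 * m : ℕ)) := by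
        have : Real.exp ((2 * m : ℕ)) = (Real.exp 1) ^ (2 * m) := by
          rw [← Real.exp_nat_mul]; simp
        rw [this]
        apply pow_le_pow_left₀ (by norm_num)
        have h := Real.exp_one_gt_d9
        linarith
      refine le_trans ?_ h5
      have hm' : 2 * b + 16 ≤ m := hm
      have h6 : (2:ℝ) ^ (2 * m) = (2:ℝ) ^ (2 * m - 4 - b) * 2 ^ (4 + b) := by
        rw [← pow_add]; congr 1; omega
      rw [h6]
      push_cast
      gcongr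
      calc (8:ℝ) = 2 ^ 3 := by norm_num
        _ ≤ 2 ^ (4 + b) := pow_le_pow_right₀ (by norm_num) (by omega)
    rw [Real.exp_neg, div_div, one_div]
    apply inv_anti₀ (by positivity) h4
  refine le_trans ?_ h3
  calc ((8 : ℝ) ^ T) ^ ng T g *
      Real.exp (-(lg T g : ℝ) + 3 * (P * (2 ^ T * Thg T g)))
      ≤ Real.exp (3 * (T * ng T g : ℕ)) *
        Real.exp (-(lg T g : ℝ) + 3 * (P * (2 ^ T * Thg T g))) := by
        gcongr
    _ = Real.exp (3 * (T * ng T g : ℕ) + (-(lg T g : ℝ) + 3 * (P * (2 ^ T * Thg T g)))) := by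
        rw [← Real.exp_add]
    _ ≤ Real.exp (-(2 * m : ℕ)) := by
        apply Real.exp_le_exp.mpr
        rw [hlg, hThg]
        have hm2 : ((2 * m : ℕ) : ℝ) ≤ 2 * N := by
          have h7 := nb_m_le hb hg1
          have h8 : ((m:ℕ):ℝ) ≤ N := by
            rw [hN]
            have : m ≤ Ng T g := by
              rw [hT, nb_Ng]
              calc m ≤ eg (2 ^ b) g := h7
                _ ≤ 2 ^ eg (2 ^ b) g := Nat.lt_two_pow_self.le
                _ ≤ _ := Nat.pow_le_pow_right (by norm_num) (by omega)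
            exact_mod_cast this
          push_cast
          linarith
        -- N^3 * 2^T * 3 ≤ N^4 / 100
        have h9 : (2:ℝ) ^ T * 1024 ≤ N := by
          have : (2:ℝ) ^ (T + 10) = (2:ℝ) ^ T * 1024 := by rw [pow_add]; norm_num
          rw [← this]; exact hN1024
        have h10 : (2:ℝ) ^ T * N ^ 3 * 1024 ≤ N ^ 4 := by
          calc (2:ℝ) ^ T * N ^ 3 * 1024 = ((2:ℝ) ^ T * 1024) * N ^ 3 := by ring
            _ ≤ N * N ^ 3 := by gcongr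
            _ = N ^ 4 := by ring
        have h11 : N ^ 4 ≤ N ^ (2 * T + 4) := pow_le_pow_right₀ hN1 (by omega)
        have h12 : N * 1024 ≤ N ^ 4 := by
          have h13 : (1:ℝ) ≤ 2 ^ T := one_le_pow₀ (by norm_num)
          have h14 : (1024:ℝ) ≤ N := by nlinarith
          have h15 : N ≤ N ^ 3 := by
            calc N = N ^ 1 := (pow_one N).symm
              _ ≤ N ^ 3 := pow_le_pow_right₀ hN1 (by norm_num)
          calc N * 1024 ≤ N ^ 3 * N := by gcongr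
            _ = N ^ 4 := by ring
        have h16 : P * (2 ^ T * N ^ 3) * 1024 ≤ P * N ^ (2 * T + 4) := by
          calc P * (2 ^ T * N ^ 3) * 1024 = P * (2 ^ T * N ^ 3 * 1024) := by ring
            _ ≤ P * N ^ (2 * T + 4) := by
              gcongr
              exact h10.trans h11
        have h17 : N * 1024 ≤ P * N ^ (2 * T + 4) := by
          calc N * 1024 ≤ N ^ (2 * T + 4) := h12.trans h11
            _ ≤ P * N ^ (2 * T + 4) := by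
              have : 0 ≤ N ^ (2 * T + 4) := by positivity
              nlinarith
        linarith

theorem num_N12a : ((2 ^ b : ℕ) : ℝ) * lg (2 ^ b) g * hg b m g ≤ etam b m / 16 := by
  unfold hg
  have h1 : (0:ℝ) < lg (2 ^ b) g := by exact_mod_cast nb_lg_pos _ _ Nat.one_le_two_pow
  have h2 : (0:ℝ) < ((2 ^ b : ℕ) : ℝ) := by positivity
  apply le_of_eq
  field_simp

theorem num_N12d : ((g : ℝ) + 2) * 8 ≤ etam b m * hg b m g * ng (2 ^ b) (g + 1) := by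
  have hgp := nb_g_pos hg1
  have e1 := nb_m_le hb hg1
  have e2 := nb_g_le hb g
  have e3 := nb_T_le hb hgp
  have e4 := nb_b_le hb
  have e5 := nb_EE hb
  have e6 := nb_EE_ge hb
  have key : (g + 2) * 8 * (2 ^ (2 * m - 4 - b) * 2 ^ (2 * m - 4 - b) * 16 * 2 ^ b * lg (2 ^ b) g)
      ≤ ng (2 ^ b) (g + 1) := by
    have hgg : g + 2 ≤ 2 ^ (g + 1) := by
      have : g < 2 ^ g := Nat.lt_two_pow_self
      rw [pow_succ]
      omega
    unfold ng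
    rw [nb_lg, nb_eg_succ]
    set e := eg (2 ^ b) g with he
    set L := (b + 1 + e) * ((2 * 2 ^ b + 4) * (BT (2 ^ b) + 1)) with hL
    have hL2 : L * 8 ≤ e * EE (2 ^ b) := by
      calc L * 8 = (b + 1 + e) * (((2 * 2 ^ b + 4) * (BT (2 ^ b) + 1)) * 8) := by rw [hL]; ring
        _ ≤ (2 * e) * (((2 * 2 ^ b + 4) * (BT (2 ^ b) + 1)) * 8) := by
          gcongr; omega
        _ = e * (((2 * 2 ^ b + 4) * (BT (2 ^ b) + 1)) * 16) := by ring
        _ ≤ e * EE (2 ^ b) := by gcongr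
    have hE : e * 65536 ≤ e * EE (2 ^ b) := by gcongr
    calc (g + 2) * 8 * (2 ^ (2 * m - 4 - b) * 2 ^ (2 * m - 4 - b) * 16 * 2 ^ b * 2 ^ L)
        ≤ 2 ^ (g + 1) * 2 ^ 3 * (2 ^ (2 * m - 4 - b) * 2 ^ (2 * m - 4 - b) * 2 ^ 4 * 2 ^ b * 2 ^ L) := by
          norm_num only
          gcongr
      _ = 2 ^ ((g + 1) + 3 + ((2 * m - 4 - b) + (2 * m - 4 - b) + 4 + b + L)) := by
          simp only [pow_add]
      _ ≤ 2 ^ (e * EE (2 ^ b)) := by
          apply Nat.pow_le_pow_right (by norm_num)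
          omega
  have hlp : (0:ℝ) < lg (2 ^ b) g := by exact_mod_cast nb_lg_pos _ _ Nat.one_le_two_pow
  have hb2 : (0:ℝ) < ((2 ^ b : ℕ) : ℝ) := by positivity
  have hs : (0:ℝ) < ((2 ^ (2 * m - 4 - b) : ℕ) : ℝ) := by positivity
  have keyR : ((g:ℝ) + 2) * 8 * (((2 ^ (2 * m - 4 - b) : ℕ) : ℝ) * ((2 ^ (2 * m - 4 - b) : ℕ) : ℝ)
      * 16 * ((2 ^ b : ℕ) : ℝ) * lg (2 ^ b) g) ≤ ng (2 ^ b) (g + 1) := by
    exact_mod_cast key
  unfold hg etam sm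
  have hrw : 1 / ((2 ^ (2 * m - 4 - b) : ℕ) : ℝ) *
      (1 / ((2 ^ (2 * m - 4 - b) : ℕ) : ℝ) / (16 * ((2 ^ b : ℕ) : ℝ) * (lg (2 ^ b) g : ℝ))) *
      (ng (2 ^ b) (g + 1) : ℝ) = (ng (2 ^ b) (g + 1) : ℝ) /
      (((2 ^ (2 * m - 4 - b) : ℕ) : ℝ) * ((2 ^ (2 * m - 4 - b) : ℕ) : ℝ)
      * 16 * ((2 ^ b : ℕ) : ℝ) * lg (2 ^ b) g) := by
    field_simp
  rw [hrw, le_div_iff₀ (by positivity)]
  exact keyR

include hG1 hG2
theorem num_N2 : Thg (2 ^ b) g ≤ epsg (2 ^ b) G * kg (2 ^ b) G := by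
  have hgG : g < G := lt_of_lt_of_le hg2 hG1
  have e0 := nb_eg_mono hb hgG.le
  have e1 := nb_T hb
  rw [nb_Thg, nb_kg]
  unfold epsg
  apply nb_pow_half
  set x := eg (2 ^ b) g
  set y := eg (2 ^ b) G
  calc (b + 1 + x) * 3 + y ≤ (b + 1 + y) * 8 := by omega
    _ ≤ (b + 1 + y) * (2 * 2 ^ b + 4) := by gcongr; omega

theorem num_N3 : 1 ≤ kg (2 ^ b) g ∧ kg (2 ^ b) g ^ BT (2 ^ b) ≤ kg (2 ^ b) G := by
  have hgG : g < G := lt_of_lt_of_le hg2 hG1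
  have hgp := nb_g_pos hg1
  have e0 := nb_eg_lt hb hgG
  have e1 := nb_EE hb
  have e2 := nb_b_le hb
  have e3 := nb_T_le hb hgp
  refine ⟨?_, ?_⟩
  · rw [nb_kg]; exact one_le_pow₀ (by norm_num)
  · rw [nb_kg, nb_kg, ← pow_mul]
    apply pow_le_pow_right₀ (by norm_num)
    set x := eg (2 ^ b) g
    set y := eg (2 ^ b) G
    have h1 : (b + 1 + x) * BT (2 ^ b) ≤ y := by
      calc (b + 1 + x) * BT (2 ^ b) ≤ (2 * x) * BT (2 ^ b) := by gcongr; omega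
        _ ≤ (2 * x) * (((2 * 2 ^ b + 4) * (BT (2 ^ b) + 1)) * 8) := by
          gcongr
          calc BT (2 ^ b) = 1 * (BT (2 ^ b)) * 1 := by ring
            _ ≤ (2 * 2 ^ b + 4) * (BT (2 ^ b) + 1) * 8 := by gcongr <;> omega
        _ = x * (((2 * 2 ^ b + 4) * (BT (2 ^ b) + 1)) * 16) := by ring
        _ ≤ x * EE (2 ^ b) := by gcongr
        _ ≤ y := e0
    calc (b + 1 + x) * (2 * 2 ^ b + 4) * BT (2 ^ b) = ((b + 1 + x) * BT (2 ^ b)) * (2 * 2 ^ b + 4) := by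
          ring
      _ ≤ y * (2 * 2 ^ b + 4) := by gcongr
      _ ≤ (b + 1 + y) * (2 * 2 ^ b + 4) := by gcongr; omega

theorem num_N4 : 2 * 64 ^ (2 ^ b) * epsg (2 ^ b) G * Thg (2 ^ b) g ≤ dm (m + 1) / 4 := by
  have hgG : g < G := lt_of_lt_of_le hg2 hG1
  have hgp := nb_g_pos hg1
  have e0 := nb_eg_lt hb hgG
  have e2 := nb_b_le hb
  have e3 := nb_T_le hb hgp
  have e4 := nb_m_le hb hg1
  have e5 := nb_EE_ge hb
  have h64 : (64:ℝ) ^ (2 ^ b) = 2 ^ (6 * 2 ^ b) := by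
    rw [show (64:ℝ) = 2 ^ 6 by norm_num, ← pow_mul]
  have hd : dm (m + 1) / 4 = (1 / 2 : ℝ) ^ (m + 3) := by
    unfold dm
    rw [show m + 3 = (m + 1) + 2 by ring, pow_add (1 / 2 : ℝ) (m + 1) 2]
    ring
  rw [nb_Thg, hd, h64]
  unfold epsg
  set x := eg (2 ^ b) g with hx
  set y := eg (2 ^ b) G with hy
  have h1 : 2 * (2:ℝ) ^ (6 * 2 ^ b) * (1 / 2) ^ y * 2 ^ ((b + 1 + x) * 3)
      = 2 ^ (1 + 6 * 2 ^ b + (b + 1 + x) * 3) * (1 / 2) ^ y := by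
    rw [pow_add, pow_add, pow_one]
    ring
  rw [h1]
  apply nb_pow_half'
  have h2 : x * 65536 ≤ y := by
    calc x * 65536 ≤ x * EE (2 ^ b) := by gcongr
      _ ≤ y := e0
  omega

end

theorem num_N12b (b m g : ℕ) : 0 < hg b m g := by
  unfold hg etam sm
  have h1 : (0:ℝ) < lg (2 ^ b) g := by exact_mod_cast nb_lg_pos _ _ Nat.one_le_two_pow
  positivity

theorem nb_EE_pos (T : ℕ) : 0 < EE T := by unfold EE; positivity

theorem num_N12c (b m g : ℕ) : hg b m (g + 1) ≤ hg b m g := by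
  unfold hg
  have h1 : (0:ℝ) < lg (2 ^ b) g := by exact_mod_cast nb_lg_pos _ _ Nat.one_le_two_pow
  have h2 : lg (2 ^ b) g ≤ lg (2 ^ b) (g + 1) := by
    rw [nb_lg, nb_lg]
    apply Nat.pow_le_pow_right (by norm_num)
    gcongr
    unfold eg
    exact Nat.pow_le_pow_right (nb_EE_pos _) (by omega)
  have h3 : (0:ℝ) ≤ etam b m := by unfold etam sm; positivity
  gcongr

theorem num_N13 {b m : ℕ} (hb : 1 ≤ b) (hm : m0 b ≤ m) :
    32 * ((2 ^ b : ℕ) : ℝ) < ((3 * 4 ^ m : ℕ) : ℝ) * etam b m := by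
  have hm' : 2 * b + 16 ≤ m := hm
  unfold etam sm
  have h1 : (4:ℝ) ^ m = 2 ^ (2 * m - 4 - b) * 2 ^ (4 + b) := by
    rw [show (4:ℝ) = 2 ^ 2 by norm_num, ← pow_mul, ← pow_add]
    congr 1; omega
  push_cast
  rw [h1, pow_add (2:ℝ) 4 b]
  have h2 : (0:ℝ) < 2 ^ (2 * m - 4 - b) := by positivity
  have h3 : (0:ℝ) < 2 ^ b := by positivity
  have h4 : 3 * ((2:ℝ) ^ (2 * m - 4 - b) * (2 ^ 4 * 2 ^ b)) * (1 / 2 ^ (2 * m - 4 - b)) = 48 * 2 ^ b := by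
    field_simp
    norm_num
  rw [h4]
  linarith

end Vale.Agent.P034
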