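import Vale.Agent.P034.ParamsB

/-! Module Nc. -/

namespace Vale.Agent.P034

private theorem nc_64 {x : ℕ} (hx : 16 ≤ x) : 64 * x ≤ 2 ^ x := by
  induction x, hx using Nat.le_induction with
  | base => norm_num
  | succ n hn ih =>
    rw [pow_succ]
    omega

private theorem nc_exp (n : ℕ) : (2 : ℝ) ^ n ≤ Real.exp n := by
  have h : Real.exp (n : ℝ) = Real.exp 1 ^ n := by
    rw [← Real.exp_nat_mul, mul_one]
  rw [h]
  refine pow_le_pow_left₀ (by norm_num) ?_ _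
  have := Real.exp_one_gt_d9
  linarith

private theorem nc_exp_neg (n : ℕ) : Real.exp (-(n : ℝ)) ≤ (1 / 2 : ℝ) ^ n := by
  rw [Real.exp_neg, one_div, inv_pow]
  exact inv_anti₀ (by positivity) (nc_exp n)

/-- `b + 2 + E^G ≤ E^(4^(m+2))` for `G < 4^(m+2)`. -/
private theorem nc_Q {b m G : ℕ} (hb : 1 ≤ b) (hG2 : G < 4 ^ (m + 2)) :
    b + 2 + eg (2 ^ b) G ≤ EE (2 ^ b) ^ 4 ^ (m + 2) := by
  have h1 := nb_T_le_EE hb
  have h2 : b < 2 ^ b := Nat.lt_two_pow_self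
  have h3 : eg (2 ^ b) G * EE (2 ^ b) ≤ EE (2 ^ b) ^ 4 ^ (m + 2) := by
    rw [← nb_eg_succ]
    unfold eg
    exact Nat.pow_le_pow_right (by omega) hG2
  have h4 := nb_one_le_eg hb G
  refine le_trans ?_ h3
  have h5 : eg (2 ^ b) G * (b + 3) ≤ eg (2 ^ b) G * EE (2 ^ b) :=
    Nat.mul_le_mul_left _ (by omega)
  nlinarith

private theorem nc_Ng_le {b m G : ℕ} (hb : 1 ≤ b) (hG2 : G < 4 ^ (m + 2)) :
    (Ng (2 ^ b) G : ℝ) + 1 ≤ 2 ^ (EE (2 ^ b) ^ 4 ^ (m + 2)) := by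
  have h1 : Ng (2 ^ b) G + 1 ≤ 2 ^ (EE (2 ^ b) ^ 4 ^ (m + 2)) := by
    calc Ng (2 ^ b) G + 1 ≤ 2 ^ (b + 2 + eg (2 ^ b) G) := by
          rw [nb_Ng, show b + 2 + eg (2 ^ b) G = (b + 1 + eg (2 ^ b) G) + 1 by ring, pow_succ]
          have : 1 ≤ 2 ^ (b + 1 + eg (2 ^ b) G) := Nat.one_le_two_pow
          omega
      _ ≤ _ := Nat.pow_le_pow_right (by norm_num) (nc_Q hb hG2)
  exact_mod_cast h1

section
variable {b m : ℕ} (hb : 1 ≤ b) (hm : m0 b ≤ m)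
include hb hm

variable {g G : ℕ} (hg1 : 4 ^ m ≤ g) (hg2 : g < 4 ^ (m + 1)) (hG1 : 4 ^ (m + 1) ≤ G)
  (hG2 : G < 4 ^ (m + 2))
include hg1 hg2 hG1 hG2

theorem num_N7 : ((Ng (2 ^ b) G : ℝ) + 1) ^ um (2 ^ b) m * (1 - dm (m + 1)) ^ ng (2 ^ b) g ≤ 1 / 4 := by
  have hEE := nb_EE_ge hb
  obtain ⟨Q, hQ⟩ : ∃ Q, Q = EE (2 ^ b) ^ 4 ^ (m + 2) := ⟨_, rfl⟩
  have h1 : (Ng (2 ^ b) G : ℝ) + 1 ≤ 2 ^ Q := by rw [hQ]; exact nc_Ng_le hb hG2
  have hum : um (2 ^ b) m = 8 * Q := by rw [hQ]; rfl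
  have h2 : ((Ng (2 ^ b) G : ℝ) + 1) ^ um (2 ^ b) m ≤ 2 ^ (8 * Q ^ 2) := by
    rw [hum]
    calc ((Ng (2 ^ b) G : ℝ) + 1) ^ (8 * Q) ≤ (2 ^ Q) ^ (8 * Q) :=
          pow_le_pow_left₀ (by positivity) h1 _
      _ = 2 ^ (8 * Q ^ 2) := by rw [← pow_mul]; congr 1; ring
  -- the exponent comparison
  obtain ⟨x, hx⟩ : ∃ x, x = ee (2 ^ b) * 4 ^ m := ⟨_, rfl⟩
  have hee : 16 ≤ ee (2 ^ b) := by
    have hT := nb_T hb
    unfold ee
    have : 2 ^ (2 + 1) ≤ 2 ^ (2 ^ b + 1) := Nat.pow_le_pow_right (by norm_num) (by omega)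
    norm_num at this
    omega
  have h4m : 1 ≤ 4 ^ m := Nat.one_le_pow _ _ (by norm_num)
  have hx16 : 16 ≤ x := by
    rw [hx]
    calc 16 = 16 * 1 := by norm_num
      _ ≤ ee (2 ^ b) * 4 ^ m := Nat.mul_le_mul hee h4m
  have hmx : m ≤ x := by
    rw [hx]
    calc m ≤ 4 ^ m := (Nat.lt_pow_self (by norm_num)).le
      _ = 1 * 4 ^ m := (one_mul _).symm
      _ ≤ ee (2 ^ b) * 4 ^ m := Nat.mul_le_mul_right _ (by omega)
  have hQx : Q ^ 2 = 2 ^ (32 * x) := by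
    rw [hQ, hx]
    unfold EE
    rw [← pow_mul, ← pow_mul]
    congr 1
    rw [pow_add]
    ring
  have heg : 2 ^ x ≤ eg (2 ^ b) g := by
    unfold eg EE
    rw [hx, ← pow_mul]
    exact Nat.pow_le_pow_right (by norm_num) (Nat.mul_le_mul_left _ hg1)
  have h64 := nc_64 hx16
  have hexp : 32 * x + 4 ≤ eg (2 ^ b) g - (m + 1) := by omega
  have hmle : m + 1 ≤ eg (2 ^ b) g := by omega
  have hdn : (8 * Q ^ 2 + 2 : ℕ) ≤ dm (m + 1) * (ng (2 ^ b) g : ℝ) := by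
    have h5 : dm (m + 1) * (ng (2 ^ b) g : ℝ) = ((2 ^ (eg (2 ^ b) g - (m + 1)) : ℕ) : ℝ) := by
      unfold dm ng
      push_cast
      have h6 : eg (2 ^ b) g = (m + 1) + (eg (2 ^ b) g - (m + 1)) := by omega
      conv_lhs => rw [h6, pow_add (2 : ℝ) (m + 1), ← mul_assoc, ← mul_pow]
      norm_num
    rw [h5]
    have h7 : 8 * Q ^ 2 + 2 ≤ 2 ^ (eg (2 ^ b) g - (m + 1)) := by
      calc 8 * Q ^ 2 + 2 ≤ 16 * Q ^ 2 := by
            have : 1 ≤ Q ^ 2 := by rw [hQx]; exact Nat.one_le_two_pow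
            omega
        _ = 2 ^ (32 * x + 4) := by rw [hQx, pow_add]; ring
        _ ≤ _ := Nat.pow_le_pow_right (by norm_num) hexp
    exact_mod_cast h7
  have hd0 : (0 : ℝ) ≤ 1 - dm (m + 1) := by
    unfold dm
    have : (1 / 2 : ℝ) ^ (m + 1) ≤ 1 := pow_le_one₀ (by norm_num) (by norm_num)
    linarith
  have h8 : (1 - dm (m + 1)) ^ ng (2 ^ b) g ≤ (1 / 2 : ℝ) ^ (8 * Q ^ 2 + 2) := by
    calc (1 - dm (m + 1)) ^ ng (2 ^ b) g ≤ (Real.exp (-dm (m + 1))) ^ ng (2 ^ b) g := by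
          refine pow_le_pow_left₀ hd0 ?_ _
          have := Real.add_one_le_exp (-dm (m + 1))
          linarith
      _ = Real.exp (-(dm (m + 1) * (ng (2 ^ b) g : ℝ))) := by
          rw [← Real.exp_nat_mul]; congr 1; ring
      _ ≤ Real.exp (-((8 * Q ^ 2 + 2 : ℕ) : ℝ)) := by
          refine Real.exp_le_exp.mpr ?_
          linarith
      _ ≤ _ := nc_exp_neg _
  calc ((Ng (2 ^ b) G : ℝ) + 1) ^ um (2 ^ b) m * (1 - dm (m + 1)) ^ ng (2 ^ b) g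
      ≤ 2 ^ (8 * Q ^ 2) * (1 / 2 : ℝ) ^ (8 * Q ^ 2 + 2) :=
        mul_le_mul h2 h8 (pow_nonneg hd0 _) (by positivity)
    _ = 1 / 4 := by
        rw [pow_add, ← mul_assoc, ← mul_pow]
        norm_num

omit hg1 hg2
theorem num_N8 : (Ng (2 ^ b) G : ℝ) ≤ Real.exp ((um (2 ^ b) m : ℝ) / 8) := by
  have h1 := nc_Ng_le hb hG2
  obtain ⟨Q, hQ⟩ : ∃ Q, Q = EE (2 ^ b) ^ 4 ^ (m + 2) := ⟨_, rfl⟩
  have hum : um (2 ^ b) m = 8 * Q := by rw [hQ]; rfl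
  rw [← hQ] at h1
  rw [hum]
  have h2 : ((8 * Q : ℕ) : ℝ) / 8 = (Q : ℝ) := by
    push_cast
    ring
  rw [h2]
  have := nc_exp Q
  linarith

theorem num_N9b : 16 ≤ etam b m * ((Ng (2 ^ b) G : ℝ) + 1) := by
  unfold m0 at hm
  unfold etam sm
  have hs : 16 * 2 ^ (2 * m - 4 - b) ≤ Ng (2 ^ b) G + 1 := by
    have h1 : 16 * 2 ^ (2 * m - 4 - b) ≤ 2 ^ (2 * m) := by
      rw [show (16 : ℕ) = 2 ^ 4 by norm_num, ← pow_add]
      exact Nat.pow_le_pow_right (by norm_num) (by omega)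
    have h2 : 2 * m ≤ b + 1 + eg (2 ^ b) G := by
      have h3 := nb_g_le hb G
      have h4 : 2 * m ≤ 4 ^ (m + 1) := by
        have : m < 4 ^ m := Nat.lt_pow_self (by norm_num)
        rw [pow_succ]
        omega
      omega
    have h5 : 2 ^ (2 * m) ≤ Ng (2 ^ b) G := by
      rw [nb_Ng]
      exact Nat.pow_le_pow_right (by norm_num) h2
    omega
  have hs' : (16 : ℝ) * ((2 ^ (2 * m - 4 - b) : ℕ) : ℝ) ≤ (Ng (2 ^ b) G : ℝ) + 1 := by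
    exact_mod_cast hs
  rw [one_div, inv_mul_eq_div, le_div_iff₀ (by positivity)]
  exact hs'

theorem num_N14 : 2 * 4 ^ (2 ^ b) * ((Ng (2 ^ b) G : ℝ) + 1) ^ (2 ^ b + 1) ≤ kg (2 ^ b) G := by
  unfold kg
  obtain ⟨T, hT⟩ : ∃ T, T = 2 ^ b := ⟨_, rfl⟩
  have h8 : 8 ≤ Ng (2 ^ b) G := by
    rw [nb_Ng]
    calc 8 = 2 ^ 3 := by norm_num
      _ ≤ _ := Nat.pow_le_pow_right (by norm_num) (by have := nb_one_le_eg hb G; omega)
  rw [← hT] at h8 ⊢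
  have h8' : (8 : ℝ) ≤ (Ng T G : ℝ) := by exact_mod_cast h8
  set N : ℝ := (Ng T G : ℝ) with hN
  have h1 : (N + 1) ^ (T + 1) ≤ (2 * N) ^ (T + 1) :=
    pow_le_pow_left₀ (by linarith) (by linarith) _
  calc 2 * 4 ^ T * (N + 1) ^ (T + 1) ≤ 2 * 4 ^ T * (2 * N) ^ (T + 1) :=
        mul_le_mul_of_nonneg_left h1 (by positivity)
    _ = (4 * 8 ^ T) * N ^ (T + 1) := by
        rw [mul_pow, pow_succ (2 : ℝ) T, show (8 : ℝ) = 4 * 2 by norm_num, mul_pow]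
        ring
    _ ≤ N ^ (T + 3) * N ^ (T + 1) := by
        refine mul_le_mul_of_nonneg_right ?_ (by positivity)
        calc (4 : ℝ) * 8 ^ T ≤ 8 ^ 3 * 8 ^ T := by
              refine mul_le_mul_of_nonneg_right (by norm_num) (by positivity)
          _ = 8 ^ (T + 3) := by rw [pow_add]; ring
          _ ≤ N ^ (T + 3) := pow_le_pow_left₀ (by norm_num) h8' _
    _ = N ^ (2 * T + 4) := by rw [← pow_add]; congr 1; ring

end

/-- total cost of the covers of one level. -/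
theorem num_cost {b m : ℕ} (hb : 1 ≤ b) (hm : m0 b ≤ m) :
    ((4 ^ (m + 2) : ℕ) : ℝ) * ((∑ i ∈ Finset.range (3 * 4 ^ m), ((ng (2 ^ b) (4 ^ m + i) : ℝ) + 1)) *
      (10 * Real.exp (-(um (2 ^ b) m : ℝ) / 2))) ≤ (1 / 2 : ℝ) ^ (m + 2 ^ b + 10) := by
  have hEE := nb_EE_ge hb
  have hTE := nb_T_le_EE hb
  obtain ⟨Q, hQ⟩ : ∃ Q, Q = EE (2 ^ b) ^ 4 ^ (m + 2) := ⟨_, rfl⟩
  have hum : um (2 ^ b) m = 8 * Q := by rw [hQ]; rfl
  have hQ1 : EE (2 ^ b) ≤ Q := by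
    rw [hQ]
    calc EE (2 ^ b) = EE (2 ^ b) ^ 1 := (pow_one _).symm
      _ ≤ _ := Nat.pow_le_pow_right (by omega) (Nat.one_le_pow _ _ (by norm_num))
  have hQ2 : 16 * (m + 1) ≤ Q := by
    rw [hQ]
    calc 16 * (m + 1) ≤ 4 ^ (m + 2) := by
          have : m < 4 ^ m := Nat.lt_pow_self (by norm_num)
          rw [pow_add]
          omega
      _ ≤ 2 ^ 4 ^ (m + 2) := Nat.lt_two_pow_self.le
      _ ≤ _ := Nat.pow_le_pow_left (by omega) _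
  have hterm : ∀ i ∈ Finset.range (3 * 4 ^ m),
      ((ng (2 ^ b) (4 ^ m + i) : ℝ) + 1) ≤ 2 ^ (Q + 1) := by
    intro i hi
    rw [Finset.mem_range] at hi
    have h1 : ng (2 ^ b) (4 ^ m + i) ≤ 2 ^ Q := by
      unfold ng eg
      rw [hQ]
      refine Nat.pow_le_pow_right (by norm_num) (Nat.pow_le_pow_right (by omega) ?_)
      rw [pow_add]
      omega
    have h2 : (ng (2 ^ b) (4 ^ m + i) : ℝ) ≤ 2 ^ Q := by exact_mod_cast h1
    have h3 : (1 : ℝ) ≤ 2 ^ Q := one_le_pow₀ (by norm_num)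
    rw [pow_succ]
    linarith
  have hsum : (∑ i ∈ Finset.range (3 * 4 ^ m), ((ng (2 ^ b) (4 ^ m + i) : ℝ) + 1))
      ≤ 2 ^ (2 * m + 2) * 2 ^ (Q + 1) := by
    refine (Finset.sum_le_sum hterm).trans ?_
    rw [Finset.sum_const, Finset.card_range, nsmul_eq_mul]
    refine mul_le_mul_of_nonneg_right ?_ (by positivity)
    have h1 : 3 * 4 ^ m ≤ 2 ^ (2 * m + 2) := by
      rw [pow_add, pow_mul]
      norm_num
      omega
    exact_mod_cast h1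
  have hexp : Real.exp (-(um (2 ^ b) m : ℝ) / 2) ≤ (1 / 2 : ℝ) ^ (4 * Q) := by
    rw [hum]
    have h2 : (-((8 * Q : ℕ) : ℝ) / 2) = -((4 * Q : ℕ) : ℝ) := by
      push_cast
      ring
    rw [h2]
    exact nc_exp_neg _
  have h4m : ((4 ^ (m + 2) : ℕ) : ℝ) = 2 ^ (2 * m + 4) := by
    push_cast
    rw [show (4 : ℝ) = 2 ^ 2 by norm_num, ← pow_mul]
    congr 1
  rw [h4m]
  calc (2 : ℝ) ^ (2 * m + 4) * ((∑ i ∈ Finset.range (3 * 4 ^ m),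
        ((ng (2 ^ b) (4 ^ m + i) : ℝ) + 1)) * (10 * Real.exp (-(um (2 ^ b) m : ℝ) / 2)))
      ≤ 2 ^ (2 * m + 4) * ((2 ^ (2 * m + 2) * 2 ^ (Q + 1)) * (2 ^ 4 * (1 / 2 : ℝ) ^ (4 * Q))) := by
        refine mul_le_mul_of_nonneg_left ?_ (by positivity)
        refine mul_le_mul hsum ?_ (by positivity) (by positivity)
        refine mul_le_mul (by norm_num) hexp (Real.exp_pos _).le (by norm_num)
    _ = 2 ^ (4 * m + 11 + Q) * (1 / 2 : ℝ) ^ (4 * Q) := by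
        rw [show 4 * m + 11 + Q = (2 * m + 4) + ((2 * m + 2) + (Q + 1) + 4) by ring,
          pow_add (2 : ℝ) (2 * m + 4), pow_add (2 : ℝ) (2 * m + 2 + (Q + 1)),
          pow_add (2 : ℝ) (2 * m + 2)]
        ring
    _ ≤ 2 ^ (4 * m + 11 + Q) * (1 / 2 : ℝ) ^ ((4 * m + 11 + Q) + (m + 2 ^ b + 10)) := by
        refine mul_le_mul_of_nonneg_left ?_ (by positivity)
        exact pow_le_pow_of_le_one (by norm_num) (by norm_num) (by omega)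
    _ = (1 / 2 : ℝ) ^ (m + 2 ^ b + 10) := by
        rw [pow_add (1 / 2 : ℝ) (4 * m + 11 + Q), ← mul_assoc, ← mul_pow]
        norm_num

end Vale.Agent.P034
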