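import Vale.Agent.P034.Defs

/-! Module N: parameters and numeric inequalities.  `T = 2^b`. -/

namespace Vale.Agent.P034

def ee (T : ℕ) : ℕ := 2 ^ (T + 1) + T + 6
def EE (T : ℕ) : ℕ := 2 ^ (ee T)
def eg (T g : ℕ) : ℕ := (EE T) ^ g
def ng (T g : ℕ) : ℕ := 2 ^ (eg T g)
def Ng (T g : ℕ) : ℕ := 2 * T * ng T g
noncomputable def kg (T g : ℕ) : ℝ := (Ng T g : ℝ) ^ (2 * T + 4)
def lg (T g : ℕ) : ℕ := (Ng T g) ^ ((2 * T + 4) * (BT T + 1))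
noncomputable def Thg (T g : ℕ) : ℝ := (Ng T g : ℝ) ^ 3
def sm (b m : ℕ) : ℕ := 2 ^ (2 * m - 4 - b)
noncomputable def etam (b m : ℕ) : ℝ := 1 / (sm b m : ℝ)
noncomputable def dm (m : ℕ) : ℝ := (1 / 2 : ℝ) ^ m
noncomputable def thm (m : ℕ) : ℝ := 1 - 4 * (1 / 2 : ℝ) ^ m
def um (T m : ℕ) : ℕ := 8 * (EE T) ^ (4 ^ (m + 2))
def NmT (T : ℕ) : ℕ := 2 ^ (T + 20)
def m0 (b : ℕ) : ℕ := 2 * b + 16
/-- flag budget at scale `g` of level `m` -/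
def Mg (b m g : ℕ) : ℕ := 2 ^ (eg (2 ^ b) g - (2 * m - 4 - b))
noncomputable def hg (b m g : ℕ) : ℝ := etam b m / (16 * (2 ^ b : ℕ) * lg (2 ^ b) g)
noncomputable def epsg (T G : ℕ) : ℝ := (1 / 2 : ℝ) ^ (eg T G)
noncomputable def xim (T m : ℕ) : ℝ := dm (m + 1) / (4 * 8 ^ T)

end Vale.Agent.P034
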