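import Vale.Agent.P034.Bottom

/-! Module F3: from a fractional cover to size classes. -/

namespace Vale.Agent.P034
open Finset
variable {X : Type*} [Fintype X] [DecidableEq X]

/-- the rescaled size class. -/
noncomputable def wcls (g : Finset X → ℝ) (b : ℕ) (S : Finset X) : ℝ :=
  if 2 ^ (b - 1) ≤ S.card ∧ S.card < 2 ^ b then 2 ^ (b + 1) * g S else 0

theorem wcls_nonneg {g : Finset X → ℝ} (hg : ∀ S, 0 ≤ g S) (b : ℕ) (S : Finset X) :
    0 ≤ wcls g b S := by
  unfold wcls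
  split_ifs
  · exact mul_nonneg (by positivity) (hg S)
  · exact le_rfl

theorem wcls_supp {g : Finset X → ℝ} (b : ℕ) (S : Finset X) (h : wcls g b S ≠ 0) :
    S.card ≤ 2 ^ b := by
  unfold wcls at h
  split_ifs at h with h1
  · exact h1.2.le
  · exact absurd rfl h

theorem wcls_lam {g : Finset X → ℝ} (hg : ∀ S, 0 ≤ g S) {p : ℝ} (hp : 0 < p)
    (hcost : ∑ S, g S * p ^ S.card ≤ 1 / 2) {b : ℕ} (hb : 1 ≤ b) :
    lam (wcls g b) (p / 2 ^ 242) ∅ ∅ ≤ (1 / 2 : ℝ) ^ (120 * 2 ^ b) := by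
  have h1 : lam (wcls g b) (p / 2 ^ 242) ∅ ∅ = ∑ S, wcls g b S * (p / 2 ^ 242) ^ S.card := by
    unfold lam
    simp
  rw [h1]
  have h2 : ∀ S : Finset X, wcls g b S * (p / 2 ^ 242) ^ S.card
      ≤ (2 * (1 / 2 : ℝ) ^ (120 * 2 ^ b)) * (g S * p ^ S.card) := by
    intro S
    unfold wcls
    split_ifs with h
    · have hgp : 0 ≤ g S * p ^ S.card := mul_nonneg (hg S) (by positivity)
      have h3 : (p / 2 ^ 242) ^ S.card = p ^ S.card * ((1 / 2 : ℝ) ^ 242) ^ S.card := by
        rw [← mul_pow]; congr 1; norm_num; ring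
      rw [h3]
      have h4 : ((1 / 2 : ℝ) ^ 242) ^ S.card ≤ (1 / 2 : ℝ) ^ (121 * 2 ^ b) := by
        rw [← pow_mul]
        refine pow_le_pow_of_le_one (by norm_num) (by norm_num) ?_
        have : 2 ^ b = 2 * 2 ^ (b - 1) := by
          rw [← pow_succ']; congr 1; omega
        omega
      have h5 : (2 : ℝ) ^ (b + 1) * (1 / 2 : ℝ) ^ (121 * 2 ^ b) ≤ 2 * (1 / 2 : ℝ) ^ (120 * 2 ^ b) := by
        have hb2 : b ≤ 2 ^ b := (Nat.lt_two_pow_self).le
        have h6 : (1 / 2 : ℝ) ^ (121 * 2 ^ b) = (1 / 2 : ℝ) ^ (120 * 2 ^ b) * (1 / 2 : ℝ) ^ (2 ^ b) := by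
          rw [← pow_add]; congr 1; ring
        have h7 : (2 : ℝ) ^ b * (1 / 2 : ℝ) ^ (2 ^ b) ≤ 1 := by
          calc (2 : ℝ) ^ b * (1 / 2 : ℝ) ^ (2 ^ b) ≤ (2 : ℝ) ^ b * (1 / 2 : ℝ) ^ b := by
                refine mul_le_mul_of_nonneg_left ?_ (by positivity)
                exact pow_le_pow_of_le_one (by norm_num) (by norm_num) hb2
            _ = 1 := by rw [← mul_pow]; norm_num
        rw [h6, pow_succ]
        have h8 : (0 : ℝ) ≤ (1 / 2 : ℝ) ^ (120 * 2 ^ b) := by positivity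
        nlinarith
      calc 2 ^ (b + 1) * g S * (p ^ S.card * ((1 / 2 : ℝ) ^ 242) ^ S.card)
          = (2 ^ (b + 1) * ((1 / 2 : ℝ) ^ 242) ^ S.card) * (g S * p ^ S.card) := by ring
        _ ≤ (2 ^ (b + 1) * (1 / 2 : ℝ) ^ (121 * 2 ^ b)) * (g S * p ^ S.card) := by
            refine mul_le_mul_of_nonneg_right ?_ hgp
            exact mul_le_mul_of_nonneg_left h4 (by positivity)
        _ ≤ _ := mul_le_mul_of_nonneg_right h5 hgp
    · rw [zero_mul]
      exact mul_nonneg (by positivity) (mul_nonneg (hg S) (by positivity))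
  calc ∑ S, wcls g b S * (p / 2 ^ 242) ^ S.card
      ≤ ∑ S, (2 * (1 / 2 : ℝ) ^ (120 * 2 ^ b)) * (g S * p ^ S.card) :=
        Finset.sum_le_sum (fun S _ => h2 S)
    _ = (2 * (1 / 2 : ℝ) ^ (120 * 2 ^ b)) * ∑ S, g S * p ^ S.card := by rw [Finset.mul_sum]
    _ ≤ (2 * (1 / 2 : ℝ) ^ (120 * 2 ^ b)) * (1 / 2) :=
        mul_le_mul_of_nonneg_left hcost (by positivity)
    _ = _ := by ring

/-- the key reduction: a fractional cover of cost at most `1/2` at `p` gives a cover of cost at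
most `1/2` at `p / 2^245`. -/
theorem frac_to_int {g : Finset X → ℝ} (hg : ∀ S, 0 ≤ g S) {p : ℝ} (hp : 0 < p) (hp1 : p ≤ 1)
    (hcost : ∑ S, g S * p ^ S.card ≤ 1 / 2) :
    Cov (p / 2 ^ 245) (1 / 2) {H : Finset X | 1 ≤ ∑ S ∈ H.powerset, g S} := by
  have hp' : 0 < p / 2 ^ 242 := by positivity
  have hp1' : p / 2 ^ 242 ≤ 1 := by
    rw [div_le_one (by positivity)]
    exact hp1.trans (by norm_num)
  have hq : (0 : ℝ) ≤ p / 2 ^ 242 / 8 := by positivity
  set N := Fintype.card X with hN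
  have hcls : ∀ b ∈ Finset.Icc 1 (N + 1), Cov (p / 2 ^ 242 / 8) ((1 / 2 : ℝ) ^ (2 ^ b + 8))
      {H : Finset X | 1 ≤ ∑ S ∈ H.powerset, wcls g b S} := by
    intro b hb
    rw [Finset.mem_Icc] at hb
    exact class_cover (wcls_nonneg hg b) hp' hp1' hb.1 (wcls_supp b)
      (wcls_lam hg hp hcost hb.1)
  have hcov := Cov_biUnion hq (Finset.Icc 1 (N + 1)) _ _ hcls
  rw [show p / 2 ^ 245 = p / 2 ^ 242 / 8 by rw [div_div]; norm_num]
  refine Cov_mono hcov ?_ ?_
  · calc ∑ b ∈ Finset.Icc 1 (N + 1), (1 / 2 : ℝ) ^ (2 ^ b + 8)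
        ≤ ∑ b ∈ Finset.Icc 1 (N + 1), (1 / 2 : ℝ) ^ (b + 1) := by
          refine Finset.sum_le_sum (fun b _ => ?_)
          refine pow_le_pow_of_le_one (by norm_num) (by norm_num) ?_
          have := (Nat.lt_two_pow_self (n := b)).le
          omega
      _ ≤ 1 / 2 := by
          have h1 : ∀ n : ℕ, ∑ b ∈ Finset.Icc 1 n, (1 / 2 : ℝ) ^ (b + 1)
              = 1 / 2 - (1 / 2 : ℝ) ^ (n + 1) := by
            intro n
            induction n with
            | zero => simp
            | succ n ih =>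
              rw [Finset.sum_Icc_succ_top (by omega), ih, pow_succ (1 / 2 : ℝ) (n + 1)]
              ring
          rw [h1]
          have : (0 : ℝ) ≤ (1 / 2 : ℝ) ^ (N + 1 + 1) := by positivity
          linarith
  · intro H hH
    simp only [Set.mem_setOf_eq] at hH
    simp only [Set.mem_iUnion, Set.mem_setOf_eq]
    by_contra hcon
    push_neg at hcon
    -- every class contributes less than `2^{-b-1}`
    have hg0 : g ∅ ≤ 1 / 2 := by
      have h1 : g ∅ * p ^ (∅ : Finset X).card ≤ ∑ S, g S * p ^ S.card :=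
        Finset.single_le_sum (f := fun S => g S * p ^ S.card)
          (fun S _ => mul_nonneg (hg S) (by positivity)) (Finset.mem_univ _)
      simp at h1
      linarith
    have hsplit : ∑ S ∈ H.powerset, g S
        ≤ g ∅ + ∑ b ∈ Finset.Icc 1 (N + 1), (1 / 2 : ℝ) ^ (b + 1) *
          ∑ S ∈ H.powerset, wcls g b S := by
      have h1 : ∀ S ∈ H.powerset, g S ≤ (if S = ∅ then g ∅ else 0) +
          ∑ b ∈ Finset.Icc 1 (N + 1), (1 / 2 : ℝ) ^ (b + 1) * wcls g b S := by
        intro S _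
        by_cases hS : S = ∅
        · subst hS
          simp only [if_true]
          have : 0 ≤ ∑ b ∈ Finset.Icc 1 (N + 1), (1 / 2 : ℝ) ^ (b + 1) * wcls g b ∅ :=
            Finset.sum_nonneg (fun b _ => mul_nonneg (by positivity) (wcls_nonneg hg b ∅))
          linarith
        · rw [if_neg hS, zero_add]
          have hcpos : 0 < S.card := Finset.card_pos.mpr (Finset.nonempty_iff_ne_empty.mpr hS)
          have hmem : Nat.log 2 S.card + 1 ∈ Finset.Icc 1 (N + 1) := by
            rw [Finset.mem_Icc]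
            refine ⟨by omega, ?_⟩
            have : Nat.log 2 S.card ≤ N := by
              calc Nat.log 2 S.card ≤ S.card := Nat.log_le_self _ _
                _ ≤ N := Finset.card_le_univ S
            omega
          have hle : (1 / 2 : ℝ) ^ (Nat.log 2 S.card + 1 + 1) * wcls g (Nat.log 2 S.card + 1) S
              ≤ ∑ b ∈ Finset.Icc 1 (N + 1), (1 / 2 : ℝ) ^ (b + 1) * wcls g b S :=
            Finset.single_le_sum (f := fun b => (1 / 2 : ℝ) ^ (b + 1) * wcls g b S)
              (fun b _ => mul_nonneg (by positivity) (wcls_nonneg hg b S)) hmem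
          refine le_trans (le_of_eq ?_) hle
          unfold wcls
          rw [if_pos]
          · rw [← mul_assoc, ← mul_pow]; norm_num
          · refine ⟨?_, Nat.lt_pow_succ_log_self (by norm_num) _⟩
            simp only [Nat.add_sub_cancel]
            exact Nat.pow_log_le_self 2 hcpos.ne'
      calc ∑ S ∈ H.powerset, g S ≤ ∑ S ∈ H.powerset, ((if S = ∅ then g ∅ else 0) +
          ∑ b ∈ Finset.Icc 1 (N + 1), (1 / 2 : ℝ) ^ (b + 1) * wcls g b S) :=
            Finset.sum_le_sum h1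
        _ = _ := by
            rw [Finset.sum_add_distrib, Finset.sum_comm]
            congr 1
            · rw [Finset.sum_ite_eq' H.powerset ∅ (fun _ => g ∅)]
              simp
            · refine Finset.sum_congr rfl (fun b _ => ?_)
              rw [Finset.mul_sum]
    have hlt : ∑ b ∈ Finset.Icc 1 (N + 1), (1 / 2 : ℝ) ^ (b + 1) *
          ∑ S ∈ H.powerset, wcls g b S < ∑ b ∈ Finset.Icc 1 (N + 1), (1 / 2 : ℝ) ^ (b + 1) := by
      refine Finset.sum_lt_sum_of_nonempty ⟨1, by simp⟩ (fun b hb => ?_)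
      have h2 := hcon b hb
      have h3 : (0 : ℝ) < (1 / 2 : ℝ) ^ (b + 1) := by positivity
      nlinarith
    have hsum : ∑ b ∈ Finset.Icc 1 (N + 1), (1 / 2 : ℝ) ^ (b + 1) ≤ 1 / 2 := by
      have h1 : ∀ n : ℕ, ∑ b ∈ Finset.Icc 1 n, (1 / 2 : ℝ) ^ (b + 1)
          = 1 / 2 - (1 / 2 : ℝ) ^ (n + 1) := by
        intro n
        induction n with
        | zero => simp
        | succ n ih =>
          rw [Finset.sum_Icc_succ_top (by omega), ih, pow_succ (1 / 2 : ℝ) (n + 1)]
          ring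
      rw [h1]
      have : (0 : ℝ) ≤ (1 / 2 : ℝ) ^ (N + 1 + 1) := by positivity
      linarith
    linarith

end Vale.Agent.P034
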