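import Vale.Agent.P034.Chain

/-! Module G: the covering weights dominate the chain. -/

namespace Vale.Agent.P034
open Finset
variable {X : Type*} [Fintype X] [DecidableEq X]

theorem wgt_nonneg {P : Finset X → Prop} {ω : Finset X → Finset X → ℝ}
    (hω : ∀ U σ, 0 ≤ ω U σ) (n : ℕ) (U : Finset X) : 0 ≤ wgt P ω n U := by
  classical
  induction n generalizing U with
  | zero =>
    simp only [wgt]
    split_ifs <;> norm_num
  | succ n ih =>
    simp only [wgt]
    refine Finset.sum_nonneg (fun V _ => ?_)
    split_ifs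
    · exact mul_nonneg (ih V) (hω _ _)
    · exact le_rfl

/-- reindexing supersets by the added part -/
theorem sum_superset (U : Finset X) (F : Finset X → ℝ) :
    ∑ U' ∈ univ.filter (fun U' : Finset X => U ⊆ U'), F U'
      = ∑ σ ∈ univ.filter (fun σ : Finset X => Disjoint σ U), F (U ∪ σ) := by
  refine Finset.sum_nbij' (fun U' => U' \ U) (fun σ => U ∪ σ) ?_ ?_ ?_ ?_ ?_
  · intro V hV
    simp only [mem_filter, mem_univ, true_and] at hV ⊢
    exact Finset.sdiff_disjoint
  · intro σ hσ
    simp only [mem_filter, mem_univ, true_and] at hσ ⊢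
    exact Finset.subset_union_left
  · intro V hV
    simp only [mem_filter, mem_univ, true_and] at hV
    exact Finset.union_sdiff_of_subset hV
  · intro σ hσ
    simp only [mem_filter, mem_univ, true_and] at hσ
    exact Finset.union_sdiff_cancel_left hσ.symm
  · intro V hV
    simp only [mem_filter, mem_univ, true_and] at hV
    rw [Finset.union_sdiff_of_subset hV]

/-- reindexing supersets inside `Y` -/
theorem sum_superset_in {U Y : Finset X} (hU : U ⊆ Y) (F : Finset X → ℝ) :
    ∑ U' ∈ Y.powerset.filter (fun U' : Finset X => U ⊆ U'), F U'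
      = ∑ σ ∈ (Y \ U).powerset, F (U ∪ σ) := by
  refine Finset.sum_nbij' (fun U' => U' \ U) (fun σ => U ∪ σ) ?_ ?_ ?_ ?_ ?_
  · intro V hV
    simp only [mem_filter, mem_powerset] at hV ⊢
    exact Finset.sdiff_subset_sdiff hV.1 le_rfl
  · intro σ hσ
    simp only [mem_filter, mem_powerset] at hσ ⊢
    exact ⟨Finset.union_subset hU (hσ.trans Finset.sdiff_subset), Finset.subset_union_left⟩
  · intro V hV
    simp only [mem_filter, mem_powerset] at hV
    exact Finset.union_sdiff_of_subset hV.2
  · intro σ hσ
    simp only [mem_powerset] at hσ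
    exact Finset.union_sdiff_cancel_left (Finset.disjoint_of_subset_right hσ Finset.disjoint_sdiff)
  · intro V hV
    simp only [mem_filter, mem_powerset] at hV
    rw [Finset.union_sdiff_of_subset hV.2]

theorem wgt_cost {P : Finset X → Prop} {ω : Finset X → Finset X → ℝ} {q ρ : ℝ} (hq : 0 ≤ q)
    (hω : ∀ U σ, 0 ≤ ω U σ) (hρ : 0 ≤ ρ)
    (h : ∀ U, P U → ∑ σ ∈ univ.filter (fun σ : Finset X => Disjoint σ U), ω U σ * q ^ σ.card ≤ ρ)
    (n : ℕ) : ∑ U, wgt P ω n U * q ^ U.card ≤ ρ ^ n := by
  classical
  induction n with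
  | zero =>
    have : ∑ U : Finset X, wgt P ω 0 U * q ^ U.card = 1 := by
      rw [Finset.sum_eq_single (∅ : Finset X)]
      · simp [wgt]
      · intro U _ hU
        simp [wgt, hU]
      · intro h; exact absurd (mem_univ _) h
    rw [this, pow_zero]
  | succ n ih =>
    have step : ∑ U' : Finset X, wgt P ω (n + 1) U' * q ^ U'.card
        = ∑ U : Finset X, (if P U then wgt P ω n U * q ^ U.card *
            ∑ σ ∈ univ.filter (fun σ : Finset X => Disjoint σ U), ω U σ * q ^ σ.card else 0) := by
      calc ∑ U' : Finset X, wgt P ω (n + 1) U' * q ^ U'.card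
          = ∑ U' : Finset X, ∑ U ∈ U'.powerset,
              (if P U then wgt P ω n U * ω U (U' \ U) else 0) * q ^ U'.card := by
            refine Finset.sum_congr rfl (fun U' _ => ?_)
            simp only [wgt]
            rw [Finset.sum_mul]
        _ = ∑ U : Finset X, ∑ U' ∈ univ.filter (fun U' : Finset X => U ⊆ U'),
              (if P U then wgt P ω n U * ω U (U' \ U) else 0) * q ^ U'.card := by
            refine Finset.sum_comm' (fun U' U => ?_)
            simp [Finset.mem_powerset]
        _ = _ := by
            refine Finset.sum_congr rfl (fun U _ => ?_)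
            rw [sum_superset U]
            by_cases hPU : P U
            · simp only [hPU, if_true]
              rw [Finset.mul_sum]
              refine Finset.sum_congr rfl (fun σ hσ => ?_)
              simp only [mem_filter, mem_univ, true_and] at hσ
              rw [Finset.union_sdiff_cancel_left hσ.symm, Finset.card_union_of_disjoint hσ.symm,
                pow_add]
              ring
            · simp [hPU]
    rw [step]
    calc ∑ U : Finset X, (if P U then wgt P ω n U * q ^ U.card *
            ∑ σ ∈ univ.filter (fun σ : Finset X => Disjoint σ U), ω U σ * q ^ σ.card else 0)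
        ≤ ∑ U : Finset X, ρ * (wgt P ω n U * q ^ U.card) := by
          refine Finset.sum_le_sum (fun U _ => ?_)
          have h0 : 0 ≤ wgt P ω n U * q ^ U.card :=
            mul_nonneg (wgt_nonneg hω n U) (pow_nonneg hq _)
          split_ifs with hPU
          · rw [mul_comm ρ]
            exact mul_le_mul_of_nonneg_left (h U hPU) h0
          · exact mul_nonneg hρ h0
      _ = ρ * ∑ U : Finset X, wgt P ω n U * q ^ U.card := by rw [Finset.mul_sum]
      _ ≤ ρ * ρ ^ n := mul_le_mul_of_nonneg_left ih hρ
      _ = ρ ^ (n + 1) := by ring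

open Classical in
theorem wgt_lower {P : Finset X → Prop} {ω : Finset X → Finset X → ℝ}
    (hω : ∀ U σ, 0 ≤ ω U σ) {μ : Finset X → ℝ} (hμ : ∀ S, 0 ≤ μ S) {T : ℕ}
    (hT : ∀ S, μ S ≠ 0 → S.card ≤ T) {Y : Finset X} {fl : Finset X → Finset X → Prop}
    {ξ : ℝ} (hξ0 : 0 < ξ) {n : ℕ}
    (hP : ∀ U ⊆ Y, U.card ≤ T * n → P U)
    (hdom : ∀ U ⊆ Y, U.card ≤ T * n → ∀ σ ⊆ Y \ U,
      ∑ S ∈ univ.filter (fun S : Finset X => (S ∩ Y) \ U = σ),
        μ S * (if fl U S then ξ else 1) ≤ ω U σ)
    (φ : Finset X → ℝ) (hφ : ∀ U, 0 ≤ φ U) :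
    En μ Y fl n (fun U f => φ U * ξ ^ f) ≤ ∑ U ∈ Y.powerset, wgt P ω n U * φ U := by
  induction n generalizing φ with
  | zero =>
    have h1 : En μ Y fl 0 (fun U f => φ U * ξ ^ f) = φ ∅ := by simp [En]
    have h2 : ∑ U ∈ Y.powerset, wgt P ω 0 U * φ U = φ ∅ := by
      rw [Finset.sum_eq_single (∅ : Finset X)]
      · simp [wgt]
      · intro U _ hU
        simp [wgt, hU]
      · intro h
        exact absurd (Finset.mem_powerset.mpr (Finset.empty_subset _)) h
    rw [h1, h2]
  | succ n ih =>
    have hTn : T * n ≤ T * (n + 1) := Nat.mul_le_mul_left _ (Nat.le_succ n)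
    have ih' := fun ψ hψ => ih (fun U hU hc => hP U hU (hc.trans hTn))
      (fun U hU hc => hdom U hU (hc.trans hTn)) ψ hψ
    set ψ : Finset X → ℝ := fun U =>
      ∑ S, μ S * φ (U ∪ (S ∩ Y)) * (if fl U S then ξ else 1) with hψdef
    have hξn : ∀ (U S : Finset X), 0 ≤ (if fl U S then ξ else 1) := by
      intro U S; split_ifs
      · exact hξ0.le
      · exact zero_le_one
    have hψ0 : ∀ U, 0 ≤ ψ U := fun U =>
      Finset.sum_nonneg (fun S _ => mul_nonneg (mul_nonneg (hμ S) (hφ _)) (hξn U S))
    have hstep : stepE μ Y fl (fun U f => φ U * ξ ^ f) = fun U f => ψ U * ξ ^ f := by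
      funext U f
      simp only [stepE, hψdef]
      rw [Finset.sum_mul]
      refine Finset.sum_congr rfl (fun S _ => ?_)
      split_ifs <;> ring
    rw [En_succ, hstep]
    set ψ' : Finset X → ℝ := fun U => if U.card ≤ T * n then ψ U else 0 with hψ'def
    have hψ'0 : ∀ U, 0 ≤ ψ' U := by
      intro U
      simp only [hψ'def]
      split_ifs
      · exact hψ0 U
      · exact le_rfl
    have h1 : En μ Y fl n (fun U f => ψ U * ξ ^ f) ≤ En μ Y fl n (fun U f => ψ' U * ξ ^ f) := by
      refine En_mono hμ hT Y fl n (fun U _ hc f => ?_)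
      simp only [hψ'def, if_pos hc]
      exact le_rfl
    refine h1.trans ((ih' ψ' hψ'0).trans ?_)
    -- bound of psi
    have hψle : ∀ U ⊆ Y, U.card ≤ T * n →
        ψ U ≤ ∑ σ ∈ (Y \ U).powerset, ω U σ * φ (U ∪ σ) := by
      intro U hU hc
      have hmaps : ∀ S ∈ (univ : Finset (Finset X)), (S ∩ Y) \ U ∈ (Y \ U).powerset := by
        intro S _
        rw [Finset.mem_powerset]
        exact Finset.sdiff_subset_sdiff Finset.inter_subset_right le_rfl
      simp only [hψdef]
      rw [← Finset.sum_fiberwise_of_maps_to hmaps]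
      refine Finset.sum_le_sum (fun σ hσ => ?_)
      have e1 : ∑ S ∈ univ.filter (fun S : Finset X => (S ∩ Y) \ U = σ),
          μ S * φ (U ∪ (S ∩ Y)) * (if fl U S then ξ else 1)
          = φ (U ∪ σ) * ∑ S ∈ univ.filter (fun S : Finset X => (S ∩ Y) \ U = σ),
            μ S * (if fl U S then ξ else 1) := by
        rw [Finset.mul_sum]
        refine Finset.sum_congr rfl (fun S hS => ?_)
        simp only [mem_filter, mem_univ, true_and] at hS
        have : U ∪ (S ∩ Y) = U ∪ σ := by rw [← hS, Finset.union_sdiff_self_eq_union]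
        rw [this]; ring
      rw [e1, mul_comm (ω U σ)]
      exact mul_le_mul_of_nonneg_left
        (hdom U hU (hc.trans hTn) σ (Finset.mem_powerset.mp hσ)) (hφ _)
    have hR : ∑ U' ∈ Y.powerset, wgt P ω (n + 1) U' * φ U'
        = ∑ U ∈ Y.powerset, (if P U then wgt P ω n U *
            ∑ σ ∈ (Y \ U).powerset, ω U σ * φ (U ∪ σ) else 0) := by
      calc ∑ U' ∈ Y.powerset, wgt P ω (n + 1) U' * φ U'
          = ∑ U' ∈ Y.powerset, ∑ U ∈ U'.powerset,
              (if P U then wgt P ω n U * ω U (U' \ U) else 0) * φ U' := by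
            refine Finset.sum_congr rfl (fun U' _ => ?_)
            simp only [wgt]
            rw [Finset.sum_mul]
        _ = ∑ U ∈ Y.powerset, ∑ U' ∈ Y.powerset.filter (fun U' : Finset X => U ⊆ U'),
              (if P U then wgt P ω n U * ω U (U' \ U) else 0) * φ U' := by
            refine Finset.sum_comm' (fun U' U => ?_)
            simp only [Finset.mem_powerset, Finset.mem_filter]
            constructor
            · rintro ⟨h1, h2⟩
              exact ⟨⟨h1, h2⟩, h2.trans h1⟩
            · rintro ⟨⟨h1, h2⟩, _⟩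
              exact ⟨h1, h2⟩
        _ = _ := by
            refine Finset.sum_congr rfl (fun U hU => ?_)
            rw [sum_superset_in (Finset.mem_powerset.mp hU)]
            by_cases hPU : P U
            · simp only [hPU, if_true]
              rw [Finset.mul_sum]
              refine Finset.sum_congr rfl (fun σ hσ => ?_)
              rw [Finset.union_sdiff_cancel_left (Finset.disjoint_of_subset_right
                (Finset.mem_powerset.mp hσ) Finset.disjoint_sdiff)]
              ring
            · simp [hPU]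
    rw [hR]
    refine Finset.sum_le_sum (fun U hU => ?_)
    have hUY := Finset.mem_powerset.mp hU
    simp only [hψ'def]
    by_cases hc : U.card ≤ T * n
    · rw [if_pos hc, if_pos (hP U hUY (hc.trans hTn))]
      exact mul_le_mul_of_nonneg_left (hψle U hUY hc) (wgt_nonneg hω n U)
    · rw [if_neg hc, mul_zero]
      split_ifs
      · refine mul_nonneg (wgt_nonneg hω n U) (Finset.sum_nonneg (fun σ _ => ?_))
        exact mul_nonneg (hω _ _) (hφ _)
      · exact le_rfl

end Vale.Agent.P034
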